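import Vale.Agent.P358_h28.Defs

/-!
Internal definitions shared by all packages of P358 (no sorries here).
-/

open Matrix
open scoped ComplexOrder

namespace Vale.Agent.P358

open Classical in
/-- `ent A = -∑ λ log λ` (natural log) -/
noncomputable def ent {ι : Type} [Fintype ι] [DecidableEq ι] (A : Matrix ι ι ℂ) : ℝ :=
  if h : A.IsHermitian then ∑ i, Real.negMulLog (h.eigenvalues i) else 0

/-- sum of `negMulLog` of the two roots of `x^2 - T x + D`. -/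
noncomputable def eta2 (T D : ℝ) : ℝ :=
  Real.negMulLog ((T + Real.sqrt (T ^ 2 - 4 * D)) / 2) +
    Real.negMulLog ((T - Real.sqrt (T ^ 2 - 4 * D)) / 2)

/-- `‖U‖₂²` -/
noncomputable def hs {ι κ : Type} [Fintype ι] [Fintype κ] (U : Matrix ι κ ℂ) : ℝ :=
  (U * Uᴴ).trace.re

/-- scalar determinant -/
def Dab (γ ν a b : ℝ) : ℝ :=
  (1 - γ * ν) * (γ * ν) * a ^ 2 + (γ * (1 - ν)) * (1 - γ * (1 - ν)) * b ^ 2
    + 2 * (γ * ν) * (γ * (1 - ν)) * (a * b)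

noncomputable def G (γ ν a b : ℝ) : ℝ :=
  eta2 (a + b) (Dab γ ν a b) - Real.negMulLog a - Real.negMulLog b

/-- output of `gad ⊗ id` on the pure state `|0⟩ ⊗ U + |1⟩ ⊗ W` after tracing the second party. -/
noncomputable def outBlock {ι κ : Type} [Fintype κ] (γ ν : ℝ) (U W : Matrix ι κ ℂ) :
    Matrix (ι ⊕ ι) (ι ⊕ ι) ℂ :=
  fromBlocks
    (((1 - γ * ν : ℝ) : ℂ) • (U * Uᴴ) + ((γ * (1 - ν) : ℝ) : ℂ) • (W * Wᴴ))
    (((Real.sqrt (1 - γ) : ℝ) : ℂ) • (U * Wᴴ))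
    (((Real.sqrt (1 - γ) : ℝ) : ℂ) • (W * Uᴴ))
    (((γ * ν : ℝ) : ℂ) • (U * Uᴴ) + ((1 - γ * (1 - ν) : ℝ) : ℂ) • (W * Wᴴ))

/-- The key inequality at parameters `(γ, ν)`. -/
def KeyIneq (γ ν : ℝ) : Prop :=
  ∀ (ι κ : Type) [Fintype ι] [DecidableEq ι] [Fintype κ] [DecidableEq κ] (U W : Matrix ι κ ℂ),
    ent (U * Uᴴ) + ent (W * Wᴴ) + G γ ν (hs U) (hs W) ≤ ent (outBlock γ ν U W)

/-- minimal one-letter output entropy (nats) at excited-state population `q` -/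
noncomputable def fmin (γ ν q : ℝ) : ℝ :=
  eta2 1 (γ * (1 - γ) * (q - ν) ^ 2 + γ * ν * (1 - ν))

/-- one-letter objective in nats -/
noncomputable def obj (γ ν q : ℝ) : ℝ :=
  Real.binEntropy ((1 - γ) * q + γ * ν) - fmin γ ν q

end Vale.Agent.P358
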