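import Mathlib

/-!
Statement-level definitions for P358 (classical capacity of the generalized
amplitude-damping channel).
-/

open Matrix
open scoped ComplexOrder

namespace Vale.Agent.P358

/-- The generalized amplitude-damping channel with damping strength `γ` and stationary
excited-state population `ν`, as a linear map on all `2 × 2` complex matrices. On a matrix
`!![1-q, z; conj z, q]` it gives `!![1-t, √(1-γ) z; √(1-γ) conj z, t]` with
`t = (1-γ) q + γ ν`. -/
noncomputable def gad (γ ν : ℝ) (ρ : Matrix (Fin 2) (Fin 2) ℂ) : Matrix (Fin 2) (Fin 2) ℂ :=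
  !![ρ.trace - ((1 - γ : ℝ) * ρ 1 1 + (γ * ν : ℝ) * ρ.trace), (Real.sqrt (1 - γ) : ℝ) * ρ 0 1;
     (Real.sqrt (1 - γ) : ℝ) * ρ 1 0, (1 - γ : ℝ) * ρ 1 1 + (γ * ν : ℝ) * ρ.trace]

/-- The `n`-fold tensor power of a linear map `N` on `2 × 2` matrices: a linear map on matrices
indexed by the computational basis `Fin n → Fin 2` of `n` qubits. -/
noncomputable def tensorPow (N : Matrix (Fin 2) (Fin 2) ℂ → Matrix (Fin 2) (Fin 2) ℂ) (n : ℕ)
    (ρ : Matrix (Fin n → Fin 2) (Fin n → Fin 2) ℂ) : Matrix (Fin n → Fin 2) (Fin n → Fin 2) ℂ :=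
  Matrix.of fun x y => ∑ u : Fin n → Fin 2, ∑ v : Fin n → Fin 2,
    (∏ i, N (Matrix.single (u i) (v i) 1) (x i) (y i)) * ρ u v

/-- A density matrix: positive semidefinite with trace one. -/
def IsDensity {ι : Type} [Fintype ι] (ρ : Matrix ι ι ℂ) : Prop :=
  ρ.PosSemidef ∧ ρ.trace = 1

open Classical in
/-- The von Neumann entropy in bits, `-∑ λ log₂ λ` over the eigenvalues of a Hermitian matrix. -/
noncomputable def vnEntropy {ι : Type} [Fintype ι] [DecidableEq ι] (ρ : Matrix ι ι ℂ) : ℝ :=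
  if h : ρ.IsHermitian then - ∑ i, h.eigenvalues i * Real.logb 2 (h.eigenvalues i) else 0

/-- The set of Holevo quantities of all finite ensembles of input states of `Φ`. -/
def holevoSet {ι κ : Type} [Fintype ι] [Fintype κ] [DecidableEq κ]
    (Φ : Matrix ι ι ℂ → Matrix κ κ ℂ) : Set ℝ :=
  {x | ∃ (k : ℕ) (q : Fin k → ℝ) (ρ : Fin k → Matrix ι ι ℂ),
    (∀ a, 0 ≤ q a) ∧ ∑ a, q a = 1 ∧ (∀ a, IsDensity (ρ a)) ∧
    x = vnEntropy (∑ a, (q a : ℂ) • Φ (ρ a)) - ∑ a, q a * vnEntropy (Φ (ρ a))}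

/-- The Holevo capacity. -/
noncomputable def holevo {ι κ : Type} [Fintype ι] [Fintype κ] [DecidableEq κ]
    (Φ : Matrix ι ι ℂ → Matrix κ κ ℂ) : ℝ :=
  sSup (holevoSet Φ)

/-- The unassisted classical capacity of a qubit channel: the regularized Holevo capacity. -/
noncomputable def classicalCapacity
    (N : Matrix (Fin 2) (Fin 2) ℂ → Matrix (Fin 2) (Fin 2) ℂ) : ℝ :=
  sSup {x | ∃ n : ℕ, 1 ≤ n ∧ x = holevo (tensorPow N n) / n}

end Vale.Agent.P358
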