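import Vale.Agent.P358_h28.Key0

/-!
Package A: properties of the unnormalised entropy `ent`.
-/

open Matrix
open scoped ComplexOrder

namespace Vale.Agent.P358

variable {ι κ : Type} [Fintype ι] [DecidableEq ι] [Fintype κ] [DecidableEq κ]

theorem vnEntropy_eq (A : Matrix ι ι ℂ) : vnEntropy A = ent A / Real.log 2 := by
  unfold vnEntropy ent
  by_cases h : A.IsHermitian
  · rw [dif_pos h, dif_pos h, Finset.sum_div, ← Finset.sum_neg_distrib]
    apply Finset.sum_congr rfl
    intro i _
    rw [Real.negMulLog, Real.logb]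
    ring
  · rw [dif_neg h, dif_neg h, zero_div]

theorem ent_eq_of_charpoly_eq {A B : Matrix ι ι ℂ} (hA : A.IsHermitian) (hB : B.IsHermitian)
    (h : A.charpoly = B.charpoly) : ent A = ent B := ent_eq_of_charpoly' hA hB h

theorem ent_of_not_herm {A : Matrix ι ι ℂ} (hA : ¬ A.IsHermitian) : ent A = 0 := by
  unfold ent
  rw [dif_neg hA]

theorem ent_reindex (e : κ ≃ ι) (A : Matrix ι ι ℂ) : ent (A.submatrix e e) = ent A := by
  by_cases hA : A.IsHermitian
  · exact ent_submatrix e hA
  · have hB : ¬ (A.submatrix e e).IsHermitian := by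
      intro h
      apply hA
      have h2 := h.submatrix e.symm
      rw [submatrix_submatrix] at h2
      simpa using h2
    rw [ent_of_not_herm hA, ent_of_not_herm hB]

/-- `U Uᴴ` and `Uᴴ U` have the same entropy. -/
theorem ent_mul_conjTranspose_comm (U : Matrix ι κ ℂ) : ent (U * Uᴴ) = ent (Uᴴ * U) := by
  have hA : (U * Uᴴ).IsHermitian := isHermitian_mul_conjTranspose_self U
  have hB : (Uᴴ * U).IsHermitian := isHermitian_conjTranspose_mul_self U
  have h := charpoly_mul_comm' U Uᴴ
  have h2 : ((Polynomial.X ^ Fintype.card κ * (U * Uᴴ).charpoly).roots.map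
      fun z : ℂ => Real.negMulLog z.re).sum = ((Polynomial.X ^ Fintype.card ι *
      (Uᴴ * U).charpoly).roots.map fun z : ℂ => Real.negMulLog z.re).sum := by rw [h]
  rw [Polynomial.roots_mul, Polynomial.roots_mul, Polynomial.roots_X_pow, Polynomial.roots_X_pow,
    Multiset.map_add, Multiset.map_add, Multiset.sum_add, Multiset.sum_add] at h2
  · simp only [Multiset.nsmul_singleton, Multiset.map_replicate, Complex.zero_re,
      Real.negMulLog_zero, Multiset.sum_replicate, smul_zero, zero_add] at h2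
    rw [ent_eq_roots hA, ent_eq_roots hB]
    exact h2
  · exact mul_ne_zero (pow_ne_zero _ Polynomial.X_ne_zero) (charpoly_monic _).ne_zero
  · exact mul_ne_zero (pow_ne_zero _ Polynomial.X_ne_zero) (charpoly_monic _).ne_zero

theorem ent_diagonal (d : ι → ℝ) : ent (Matrix.diagonal (fun i => (d i : ℂ)) : Matrix ι ι ℂ)
    = ∑ i, Real.negMulLog (d i) := by
  have h := ent_conj_diagonal (V := (1 : Matrix ι ι ℂ)) (one_mem _) d
  rw [conjTranspose_one, Matrix.one_mul, Matrix.mul_one] at h
  exact h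

theorem ent_unitary_conj {A V : Matrix ι ι ℂ} (hV : V ∈ Matrix.unitaryGroup ι ℂ) :
    ent (V * A * Vᴴ) = ent A := by
  have hVs : Vᴴ * V = 1 := by
    have := Matrix.mem_unitaryGroup_iff'.1 hV
    rwa [star_eq_conjTranspose] at this
  by_cases hA : A.IsHermitian
  · have hB : (V * A * Vᴴ).IsHermitian := by
      rw [IsHermitian, conjTranspose_mul, conjTranspose_mul, conjTranspose_conjTranspose, hA.eq,
        Matrix.mul_assoc]
    apply ent_eq_of_charpoly' hB hA
    rw [charpoly_mul_comm, ← Matrix.mul_assoc, hVs, Matrix.one_mul]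
  · have hB : ¬ (V * A * Vᴴ).IsHermitian := by
      intro h
      apply hA
      have e : A = Vᴴ * (V * A * Vᴴ) * V := by
        calc A = (Vᴴ * V) * A * (Vᴴ * V) := by rw [hVs, Matrix.one_mul, Matrix.mul_one]
          _ = Vᴴ * (V * A * Vᴴ) * V := by simp only [Matrix.mul_assoc]
      rw [e, IsHermitian, conjTranspose_mul, conjTranspose_mul, conjTranspose_conjTranspose, h.eq]
      simp only [Matrix.mul_assoc]
    rw [ent_of_not_herm hA, ent_of_not_herm hB]

theorem ent_smul {A : Matrix ι ι ℂ} (hA : A.PosSemidef) {c : ℝ} (_hc : 0 ≤ c) :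
    ent ((c : ℂ) • A) = c * ent A + Real.negMulLog c * A.trace.re := ent_smul' hA.isHermitian c

/-- spectral decomposition with a unitary matrix and nonnegative eigenvalues -/
theorem exists_spectral {A : Matrix ι ι ℂ} (hA : A.IsHermitian) :
    ∃ V ∈ Matrix.unitaryGroup ι ℂ, A = V * diagonal (fun k => ((hA.eigenvalues k : ℝ) : ℂ)) * Vᴴ := by
  have h1 := hA.spectral_theorem
  rw [Unitary.conjStarAlgAut_apply] at h1
  refine ⟨(hA.eigenvectorUnitary : Matrix ι ι ℂ), hA.eigenvectorUnitary.2, ?_⟩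
  conv_lhs => rw [h1]
  rw [star_eq_conjTranspose]
  congr 1

theorem diag_conj_entry (V : Matrix ι ι ℂ) (d : ι → ℝ) (i : ι) :
    ((V * diagonal (fun k => ((d k : ℝ) : ℂ)) * Vᴴ) i i).re = ∑ k, Complex.normSq (V i k) * d k := by
  rw [Matrix.mul_apply, Complex.re_sum]
  apply Finset.sum_congr rfl
  intro k _
  rw [Matrix.mul_diagonal, conjTranspose_apply, Complex.star_def]
  have : V i k * ((d k : ℝ) : ℂ) * (starRingEnd ℂ) (V i k)
      = ((Complex.normSq (V i k) * d k : ℝ) : ℂ) := by
    rw [mul_right_comm, Complex.mul_conj]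
    push_cast
    ring
  rw [this, Complex.ofReal_re]

theorem unitary_row_sum {V : Matrix ι ι ℂ} (hV : V ∈ Matrix.unitaryGroup ι ℂ) (i : ι) :
    ∑ k, Complex.normSq (V i k) = 1 := by
  have h1 := Matrix.mem_unitaryGroup_iff.1 hV
  have h2 := congrArg Complex.re (congrFun (congrFun h1 i) i)
  rw [star_eq_conjTranspose, Matrix.mul_apply, Complex.re_sum, Matrix.one_apply_eq,
    Complex.one_re] at h2
  rw [← h2]
  apply Finset.sum_congr rfl
  intro k _
  rw [conjTranspose_apply, Complex.star_def, Complex.mul_conj, Complex.ofReal_re]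

theorem unitary_col_sum {V : Matrix ι ι ℂ} (hV : V ∈ Matrix.unitaryGroup ι ℂ) (k : ι) :
    ∑ i, Complex.normSq (V i k) = 1 := by
  have h1 := Matrix.mem_unitaryGroup_iff'.1 hV
  have h2 := congrArg Complex.re (congrFun (congrFun h1 k) k)
  rw [star_eq_conjTranspose, Matrix.mul_apply, Complex.re_sum, Matrix.one_apply_eq,
    Complex.one_re] at h2
  rw [← h2]
  apply Finset.sum_congr rfl
  intro i _
  rw [conjTranspose_apply, Complex.star_def, mul_comm, Complex.mul_conj, Complex.ofReal_re]

/-- entropy is at most the entropy of the diagonal -/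
theorem ent_le_diag {A : Matrix ι ι ℂ} (hA : A.PosSemidef) :
    ent A ≤ ∑ i, Real.negMulLog (A i i).re := by
  obtain ⟨V, hV, hAV⟩ := exists_spectral hA.isHermitian
  set d := hA.isHermitian.eigenvalues with hd
  have hd0 : ∀ k, 0 ≤ d k := fun k => hA.eigenvalues_nonneg k
  have h1 : ∀ i, (A i i).re = ∑ k, Complex.normSq (V i k) * d k := by
    intro i
    conv_lhs => rw [hAV]
    exact diag_conj_entry V d i
  have h2 : ∀ i, ∑ k, Complex.normSq (V i k) * Real.negMulLog (d k) ≤
      Real.negMulLog (A i i).re := by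
    intro i
    rw [h1 i]
    have := Real.concaveOn_negMulLog.le_map_sum (t := Finset.univ)
      (w := fun k => Complex.normSq (V i k)) (p := d) (fun k _ => Complex.normSq_nonneg _)
      (unitary_row_sum hV i) (fun k _ => hd0 k)
    simpa only [smul_eq_mul] using this
  calc ent A = ∑ k, Real.negMulLog (d k) := ent_of_herm hA.isHermitian
    _ = ∑ k, (∑ i, Complex.normSq (V i k)) * Real.negMulLog (d k) := by
        apply Finset.sum_congr rfl
        intro k _
        rw [unitary_col_sum hV k, one_mul]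
    _ = ∑ i, ∑ k, Complex.normSq (V i k) * Real.negMulLog (d k) := by
        simp_rw [Finset.sum_mul]
        rw [Finset.sum_comm]
    _ ≤ ∑ i, Real.negMulLog (A i i).re := Finset.sum_le_sum fun i _ => h2 i

theorem ent_concave {k : ℕ} (p : Fin k → ℝ) (hp : ∀ a, 0 ≤ p a) (hp1 : ∑ a, p a = 1)
    (A : Fin k → Matrix ι ι ℂ) (hA : ∀ a, (A a).PosSemidef) :
    ∑ a, p a * ent (A a) ≤ ent (∑ a, (p a : ℂ) • A a) := by
  have hH : (∑ a, (p a : ℂ) • A a).IsHermitian := by
    rw [IsHermitian, conjTranspose_sum]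
    apply Finset.sum_congr rfl
    intro a _
    rw [conjTranspose_smul, (hA a).isHermitian.eq, Complex.star_def, Complex.conj_ofReal]
  obtain ⟨V, hV, hAV⟩ := exists_spectral hH
  set B := ∑ a, (p a : ℂ) • A a with hB
  set d := hH.eigenvalues with hd
  have hVs : Vᴴ * V = 1 := by
    have := Matrix.mem_unitaryGroup_iff'.1 hV
    rwa [star_eq_conjTranspose] at this
  have hVstar : Vᴴ ∈ Matrix.unitaryGroup ι ℂ := by
    rw [Matrix.mem_unitaryGroup_iff, star_eq_conjTranspose, conjTranspose_conjTranspose]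
    exact hVs
  have hdiag : Vᴴ * B * V = diagonal (fun k => ((d k : ℝ) : ℂ)) := by
    calc Vᴴ * B * V = Vᴴ * (V * diagonal (fun k => ((d k : ℝ) : ℂ)) * Vᴴ) * V := by rw [← hAV]
      _ = (Vᴴ * V) * diagonal (fun k => ((d k : ℝ) : ℂ)) * (Vᴴ * V) := by
          simp only [Matrix.mul_assoc]
      _ = _ := by rw [hVs, Matrix.one_mul, Matrix.mul_one]
  set C : Fin k → Matrix ι ι ℂ := fun a => Vᴴ * A a * V with hC
  have hCpos : ∀ a, (C a).PosSemidef := fun a => (hA a).conjTranspose_mul_mul_same V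
  have hCent : ∀ a, ent (C a) = ent (A a) := by
    intro a
    have := ent_unitary_conj (A := A a) hVstar
    rwa [conjTranspose_conjTranspose] at this
  have hdi : ∀ i, d i = ∑ a, p a * (C a i i).re := by
    intro i
    have h1 : ((Vᴴ * B * V) i i).re = d i := by
      rw [hdiag, diagonal_apply_eq, Complex.ofReal_re]
    have h2 : Vᴴ * B * V = ∑ a, (p a : ℂ) • C a := by
      rw [hB, Matrix.mul_sum, Matrix.sum_mul]
      apply Finset.sum_congr rfl
      intro a _
      rw [Matrix.mul_smul, Matrix.smul_mul]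
    rw [← h1, h2, Matrix.sum_apply, Complex.re_sum]
    apply Finset.sum_congr rfl
    intro a _
    rw [Matrix.smul_apply, smul_eq_mul, Complex.re_ofReal_mul]
  have hdiag0 : ∀ a i, 0 ≤ (C a i i).re := fun a i =>
    (Complex.le_def.1 ((hCpos a).diag_nonneg (i := i))).1
  have hconc : ∀ i, ∑ a, p a * Real.negMulLog (C a i i).re ≤ Real.negMulLog (d i) := by
    intro i
    rw [hdi i]
    have := Real.concaveOn_negMulLog.le_map_sum (t := Finset.univ)
      (w := p) (p := fun a => (C a i i).re) (fun a _ => hp a) hp1 (fun a _ => hdiag0 a i)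
    simpa only [smul_eq_mul] using this
  calc ∑ a, p a * ent (A a) = ∑ a, p a * ent (C a) := by simp_rw [hCent]
    _ ≤ ∑ a, p a * ∑ i, Real.negMulLog (C a i i).re :=
        Finset.sum_le_sum fun a _ => mul_le_mul_of_nonneg_left (ent_le_diag (hCpos a)) (hp a)
    _ = ∑ i, ∑ a, p a * Real.negMulLog (C a i i).re := by
        simp_rw [Finset.mul_sum]
        rw [Finset.sum_comm]
    _ ≤ ∑ i, Real.negMulLog (d i) := Finset.sum_le_sum fun i _ => hconc i
    _ = ent B := (ent_of_herm hH).symm

theorem ent_fin_two {A : Matrix (Fin 2) (Fin 2) ℂ} (hA : A.IsHermitian) :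
    ent A = eta2 A.trace.re A.det.re := by
  rw [ent_of_herm hA, trace_re_eq_sum hA, hA.det_eq_prod_eigenvalues, Fin.sum_univ_two,
    Fin.sum_univ_two, Fin.prod_univ_two]
  set x := hA.eigenvalues 0
  set y := hA.eigenvalues 1
  have h1 : ((x : ℂ) * (y : ℂ)).re = x * y := by
    rw [← Complex.ofReal_mul, Complex.ofReal_re]
  have h1' : (((x : ℝ) : ℂ) * ((y : ℝ) : ℂ)).re = x * y := h1
  unfold eta2
  have h2 : (x + y) ^ 2 - 4 * (x * y) = (x - y) ^ 2 := by ring
  erw [h1', h2, Real.sqrt_sq_eq_abs]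
  rcases le_total y x with h | h
  · rw [abs_of_nonneg (by linarith : 0 ≤ x - y)]
    congr 2 <;> ring
  · rw [abs_of_nonpos (by linarith : x - y ≤ 0), add_comm (Real.negMulLog x)]
    congr 2 <;> ring

/-- tensor product of matrices indexed by functions -/
def tens {n : ℕ} (A : Fin n → Matrix (Fin 2) (Fin 2) ℂ) :
    Matrix (Fin n → Fin 2) (Fin n → Fin 2) ℂ :=
  Matrix.of fun x y => ∏ i, A i (x i) (y i)

theorem tens_mul {n : ℕ} (A B : Fin n → Matrix (Fin 2) (Fin 2) ℂ) :
    tens A * tens B = tens (fun i => A i * B i) := by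
  ext x y
  simp only [tens, Matrix.mul_apply, Matrix.of_apply]
  rw [Finset.prod_univ_sum, Fintype.piFinset_univ]
  apply Finset.sum_congr rfl
  intro z _
  rw [← Finset.prod_mul_distrib]

theorem tens_conjTranspose {n : ℕ} (A : Fin n → Matrix (Fin 2) (Fin 2) ℂ) :
    (tens A)ᴴ = tens (fun i => (A i)ᴴ) := by
  ext x y
  simp only [tens, conjTranspose_apply, Matrix.of_apply, Complex.star_def, map_prod]

theorem tens_diagonal {n : ℕ} (d : Fin n → Fin 2 → ℂ) :
    tens (fun i => diagonal (d i)) = diagonal (fun x => ∏ i, d i (x i)) := by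
  ext x y
  simp only [tens, Matrix.of_apply]
  by_cases h : x = y
  · subst h
    rw [diagonal_apply_eq]
    apply Finset.prod_congr rfl
    intro i _
    rw [diagonal_apply_eq]
  · rw [diagonal_apply_ne _ h]
    obtain ⟨i, hi⟩ := Function.ne_iff.1 h
    exact Finset.prod_eq_zero (Finset.mem_univ i) (diagonal_apply_ne _ hi)

theorem tens_one {n : ℕ} : tens (fun _ : Fin n => (1 : Matrix (Fin 2) (Fin 2) ℂ)) = 1 := by
  have := tens_diagonal (n := n) (fun _ _ => 1)
  simp only [Finset.prod_const_one, diagonal_one] at this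
  exact this

theorem sum_negMulLog_prod {n : ℕ} (d : Fin n → Fin 2 → ℝ) (hd : ∀ i, ∑ b, d i b = 1) :
    ∑ x : Fin n → Fin 2, Real.negMulLog (∏ i, d i (x i)) = ∑ i, ∑ b, Real.negMulLog (d i b) := by
  induction n with
  | zero => simp
  | succ n ih =>
    have hprod : ∑ y : Fin n → Fin 2, ∏ i, d i.succ (y i) = 1 := by
      have := Finset.prod_univ_sum (fun _ : Fin n => (Finset.univ : Finset (Fin 2)))
        (fun i b => d i.succ b)
      rw [Fintype.piFinset_univ] at this
      rw [← this]
      exact Finset.prod_eq_one fun i _ => hd i.succ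
    have ih' := ih (fun i => d i.succ) (fun i => hd i.succ)
    have hR : ∑ i : Fin (n + 1), ∑ b, Real.negMulLog (d i b) = ∑ b, Real.negMulLog (d 0 b) +
        ∑ i : Fin n, ∑ b, Real.negMulLog (d i.succ b) := Fin.sum_univ_succ _
    rw [hR, ← ih', ← (Fin.consEquiv (fun _ : Fin (n + 1) => Fin 2)).sum_comp,
      Fintype.sum_prod_type]
    have hL : ∀ (b : Fin 2) (y : Fin n → Fin 2),
        Real.negMulLog (∏ i, d i ((Fin.consEquiv (fun _ : Fin (n + 1) => Fin 2)) (b, y) i))
        = (∏ i, d i.succ (y i)) * Real.negMulLog (d 0 b)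
          + d 0 b * Real.negMulLog (∏ i, d i.succ (y i)) := by
      intro b y
      rw [Fin.prod_univ_succ, Real.negMulLog_mul]
      rfl
    simp_rw [hL, Finset.sum_add_distrib, ← Finset.sum_mul, ← Finset.mul_sum]
    rw [hprod, ← Finset.sum_mul, hd 0]
    simp only [one_mul]

/-- product state: all one-site factors density matrices -/
theorem ent_pi {n : ℕ} (A : Fin n → Matrix (Fin 2) (Fin 2) ℂ) (hA : ∀ i, IsDensity (A i)) :
    ent (Matrix.of fun x y : Fin n → Fin 2 => ∏ i, A i (x i) (y i)) = ∑ i, ent (A i) := by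
  have hH : ∀ i, (A i).IsHermitian := fun i => (hA i).1.isHermitian
  choose V hV hAV using fun i => exists_spectral (hH i)
  have e1 : (Matrix.of fun x y : Fin n → Fin 2 => ∏ i, A i (x i) (y i)) = tens A := rfl
  have e2 : tens A = tens V * diagonal (fun x : Fin n → Fin 2 =>
      ((∏ i, (hH i).eigenvalues (x i) : ℝ) : ℂ)) * (tens V)ᴴ := by
    have e3 : A = fun i => V i * diagonal (fun k => (((hH i).eigenvalues k : ℝ) : ℂ)) * (V i)ᴴ :=
      funext hAV
    conv_lhs => rw [e3]
    rw [← tens_mul, ← tens_mul, tens_diagonal, tens_conjTranspose]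
    push_cast
    rfl
  have hVu : tens V ∈ Matrix.unitaryGroup (Fin n → Fin 2) ℂ := by
    rw [Matrix.mem_unitaryGroup_iff, star_eq_conjTranspose, tens_conjTranspose, tens_mul]
    have : (fun i => V i * (V i)ᴴ) = fun _ : Fin n => (1 : Matrix (Fin 2) (Fin 2) ℂ) := by
      funext i
      have := Matrix.mem_unitaryGroup_iff.1 (hV i)
      rwa [star_eq_conjTranspose] at this
    rw [this, tens_one]
  rw [e1, e2, ent_conj_diagonal hVu (fun x => ∏ i, (hH i).eigenvalues (x i)),
    sum_negMulLog_prod (fun i => (hH i).eigenvalues)]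
  · apply Finset.sum_congr rfl
    intro i _
    rw [ent_of_herm (hH i)]
  · intro i
    have h1 := trace_re_eq_sum (hH i)
    rw [(hA i).2, Complex.one_re] at h1
    exact h1.symm

end Vale.Agent.P358
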