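import Vale.Agent.P358_h28.Reduction5

/-!
From the key inequality to the final statement.
-/

open Matrix
open scoped ComplexOrder

namespace Vale.Agent.P358

theorem final_of_keyIneq {γ ν : ℝ} (hγ : γ ∈ Set.Icc (0:ℝ) 1) (hν : ν ∈ Set.Icc (0:ℝ) 1)
    (hK : KeyIneq γ ν) :
    (∀ n : ℕ, 1 ≤ n → IsGreatest (holevoSet (tensorPow (gad γ ν) n)) (n * holevo (gad γ ν))) ∧
    classicalCapacity (gad γ ν) = holevo (gad γ ν) ∧
    IsGreatest ((fun q : ℝ => (Real.binEntropy ((1 - γ) * q + γ * ν) - Real.binEntropy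
      ((1 + Real.sqrt (1 - 4 * (γ * (1 - γ) * (q - ν) ^ 2 + γ * ν * (1 - ν)))) / 2)) /
        Real.log 2) '' Set.Icc (0:ℝ) 1) (classicalCapacity (gad γ ν)) := by
  obtain ⟨_, h2, h3⟩ := main_of_keyIneq hγ hν hK
  have hfun : (fun q : ℝ => (Real.binEntropy ((1 - γ) * q + γ * ν) - Real.binEntropy
      ((1 + Real.sqrt (1 - 4 * (γ * (1 - γ) * (q - ν) ^ 2 + γ * ν * (1 - ν)))) / 2)) /
        Real.log 2) = fun q => obj γ ν q / Real.log 2 := by
    funext q
    unfold obj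
    rw [fmin_eq_binEntropy, disc]
  refine ⟨fun n _ => ?_, h2, ?_⟩
  · obtain ⟨q, hq, hqv⟩ := h3.1
    have hlog : 0 < Real.log 2 := Real.log_pos (by norm_num)
    have hM : ∀ x ∈ Set.Icc (0:ℝ) 1, obj γ ν x ≤ obj γ ν q := by
      intro x hx
      have h4 := h3.2 ⟨x, hx, rfl⟩
      rw [← hqv] at h4
      exact (div_le_div_iff_of_pos_right hlog).1 h4
    rw [← hqv]
    exact ⟨lower_bound hγ hν n hq, fun x hx => upper_bound hγ hν hK hM x hx⟩
  · rw [hfun, h2]; exact h3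

end Vale.Agent.P358
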