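import Mathlib

/-!
The abstract comparison theorem: a Hermitian matrix function `D(s)` on `[0,1]` satisfying a
second-order positivity condition, bounded at both ends by diagonal exponentials, is bounded in
between.
-/

open Matrix
open scoped ComplexOrder

namespace Vale.Agent.P358

/-- real part of the sesquilinear form -/
noncomputable def bf {J : Type*} [Fintype J] (A : Matrix J J ℂ) (u v : J → ℂ) : ℝ :=
  (star u ⬝ᵥ (A *ᵥ v)).re

section
variable {J : Type*} [Fintype J]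

theorem bf_eq (A : Matrix J J ℂ) (u v : J → ℂ) :
    bf A u v = (∑ p, ∑ q, star (u p) * v q * A p q).re := by
  unfold bf
  simp only [dotProduct, mulVec, Finset.mul_sum, Pi.star_apply]
  congr 1
  refine Finset.sum_congr rfl fun p _ => Finset.sum_congr rfl fun q _ => ?_
  ring

theorem bf_add_left (A : Matrix J J ℂ) (u u' v : J → ℂ) : bf A (u + u') v = bf A u v + bf A u' v := by
  simp [bf, add_dotProduct]

theorem bf_add_right (A : Matrix J J ℂ) (u v v' : J → ℂ) :
    bf A u (v + v') = bf A u v + bf A u v' := by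
  simp [bf, mulVec_add, dotProduct_add]

theorem bf_smul_left (A : Matrix J J ℂ) (c : ℝ) (u v : J → ℂ) :
    bf A ((c : ℂ) • u) v = c * bf A u v := by
  simp [bf, smul_dotProduct, star_smul]

theorem bf_smul_right (A : Matrix J J ℂ) (c : ℝ) (u v : J → ℂ) :
    bf A u ((c : ℂ) • v) = c * bf A u v := by
  simp [bf, mulVec_smul, dotProduct_smul]

theorem bf_comm {A : Matrix J J ℂ} (hA : A.IsHermitian) (u v : J → ℂ) :
    bf A u v = bf A v u := by
  rw [bf_eq, bf_eq, Finset.sum_comm]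
  rw [← Complex.conj_re, map_sum]
  congr 1
  refine Finset.sum_congr rfl fun p _ => ?_
  rw [map_sum]
  refine Finset.sum_congr rfl fun q _ => ?_
  have h := hA.apply p q
  simp only [map_mul, RCLike.star_def, Complex.conj_conj] at h ⊢
  rw [h]; ring

theorem bf_add_mat (A B : Matrix J J ℂ) (u v : J → ℂ) : bf (A + B) u v = bf A u v + bf B u v := by
  simp [bf, add_mulVec, dotProduct_add]

theorem bf_sub_mat (A B : Matrix J J ℂ) (u v : J → ℂ) : bf (A - B) u v = bf A u v - bf B u v := by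
  simp [bf, sub_mulVec, dotProduct_sub]

/-- second derivative test -/
theorem second_deriv_le {φ φ1 : ℝ → ℝ} {φ2 s0 : ℝ} (h1 : ∀ s, HasDerivAt φ (φ1 s) s)
    (h2 : HasDerivAt φ1 φ2 s0) (hmax : IsLocalMax φ s0) : φ2 ≤ 0 := by
  by_contra hcon
  rw [not_le] at hcon
  have e1 : deriv φ = φ1 := funext fun s => (h1 s).deriv
  have hz : φ1 s0 = 0 := hmax.hasDerivAt_eq_zero (h1 s0)
  have hmin : IsLocalMin φ s0 := by
    apply isLocalMin_of_deriv_deriv_pos
    · rw [e1, h2.deriv]; exact hcon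
    · rw [e1]; exact hz
    · exact (h1 s0).continuousAt
  have hconst : φ =ᶠ[nhds s0] fun _ => φ s0 := by
    filter_upwards [hmax, hmin] with s hs1 hs2
    exact le_antisymm hs1 hs2
  have h3 : deriv (deriv φ) s0 = deriv (deriv (fun _ => φ s0)) s0 :=
    (hconst.deriv).deriv_eq
  rw [e1, h2.deriv] at h3
  simp at h3
  linarith

theorem posSemidef_of_bf {A : Matrix J J ℂ} (hA : A.IsHermitian) (h : ∀ v, 0 ≤ bf A v v) :
    A.PosSemidef := by
  refine PosSemidef.of_dotProduct_mulVec_nonneg hA fun x => ?_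
  rw [Complex.nonneg_iff]
  refine ⟨h x, ?_⟩
  exact (hA.im_star_dotProduct_mulVec_self x).symm

theorem bf_nonneg {A : Matrix J J ℂ} (hA : A.PosSemidef) (v : J → ℂ) : 0 ≤ bf A v v := by
  have := hA.dotProduct_mulVec_nonneg v
  exact (Complex.nonneg_iff.1 this).1

theorem nsq_eq (v : J → ℂ) : (star v ⬝ᵥ v) = ((∑ p, Complex.normSq (v p) : ℝ) : ℂ) := by
  simp only [dotProduct, Pi.star_apply, RCLike.star_def, Complex.ofReal_sum]
  refine Finset.sum_congr rfl fun p _ => ?_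
  rw [Complex.normSq_eq_conj_mul_self]

/-- at a maximiser of the form on the sphere one has the eigenvector equation -/
theorem eigen_of_max [DecidableEq J] {M : Matrix J J ℂ} (hM : M.IsHermitian) {μ : ℝ} {v : J → ℂ}
    (hu : ∀ u, bf M u u ≤ μ * ∑ p, Complex.normSq (u p))
    (hv : bf M v v = μ * ∑ p, Complex.normSq (v p)) :
    M *ᵥ v = (μ : ℂ) • v := by
  set P : Matrix J J ℂ := (μ : ℂ) • (1 : Matrix J J ℂ) - M with hP
  have hPh : P.IsHermitian := by
    rw [hP]
    apply IsHermitian.sub _ hM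
    ext p q
    by_cases h : p = q
    · subst h; simp
    · have h' : ¬ q = p := fun h2 => h h2.symm
      simp [h, h']
  have hform : ∀ u, star u ⬝ᵥ (P *ᵥ u) = ((μ * ∑ p, Complex.normSq (u p) - bf M u u : ℝ) : ℂ) := by
    intro u
    have him := hM.im_star_dotProduct_mulVec_self u
    have h1 : star u ⬝ᵥ (M *ᵥ u) = ((bf M u u : ℝ) : ℂ) := by
      apply Complex.ext
      · simp [bf]
      · simpa using him
    rw [hP, sub_mulVec, dotProduct_sub, smul_mulVec, one_mulVec, dotProduct_smul, nsq_eq, h1]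
    simp
  have hPpos : P.PosSemidef := by
    refine PosSemidef.of_dotProduct_mulVec_nonneg hPh fun x => ?_
    rw [hform]
    rw [Complex.zero_le_real]
    linarith [hu x]
  have h0 : star v ⬝ᵥ (P *ᵥ v) = 0 := by
    rw [hform, hv]; simp
  have h2 := (hPpos.dotProduct_mulVec_zero_iff v).1 h0
  rw [hP, sub_mulVec, smul_mulVec, one_mulVec, sub_eq_zero] at h2
  exact h2.symm

/-- exponent used in the comparison -/
noncomputable def cc (a β : J → ℝ) (ε s : ℝ) (p : J) : ℝ :=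
  -(a p + s * β p) / 2 + ε * (s * (s - 1)) / 2

noncomputable def cc1 (β : J → ℝ) (ε s : ℝ) (p : J) : ℝ :=
  -β p / 2 + ε * (2 * s - 1) / 2

omit [Fintype J] in
theorem hasDerivAt_cc (a β : J → ℝ) (ε s : ℝ) (p : J) :
    HasDerivAt (fun t => cc a β ε t p) (cc1 β ε s p) s := by
  unfold cc cc1
  have h1 : HasDerivAt (fun t : ℝ => t) 1 s := hasDerivAt_id s
  have h2 := (((h1.mul_const (β p)).const_add (a p)).fun_neg.div_const 2).fun_add
    (((h1.fun_mul (h1.sub_const 1)).const_mul ε).div_const 2)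
  exact h2.congr_deriv (by ring)

omit [Fintype J] in
theorem hasDerivAt_cc1 (β : J → ℝ) (ε s : ℝ) (p : J) :
    HasDerivAt (fun t => cc1 β ε t p) ε s := by
  unfold cc1
  have h1 : HasDerivAt (fun t : ℝ => t) 1 s := hasDerivAt_id s
  have h2 := ((((h1.const_mul 2).sub_const 1).const_mul ε).div_const 2).const_add (-β p / 2)
  exact h2.congr_deriv (by ring)

/-- real exponential weight, as a complex number -/
noncomputable def ew (a β : J → ℝ) (ε s : ℝ) (p q : J) : ℂ :=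
  ((Real.exp (cc a β ε s p + cc a β ε s q) : ℝ) : ℂ)

omit [Fintype J] in
theorem hasDerivAt_ew (a β : J → ℝ) (ε s : ℝ) (p q : J) :
    HasDerivAt (fun t => ew a β ε t p q)
      (ew a β ε s p q * ((cc1 β ε s p + cc1 β ε s q : ℝ) : ℂ)) s := by
  unfold ew
  have h := ((hasDerivAt_cc a β ε s p).fun_add (hasDerivAt_cc a β ε s q)).exp
  have h2 := h.ofReal_comp
  exact h2.congr_deriv (by push_cast; ring)

/-- the rescaled form as a function of `s` -/
noncomputable def phi (D : ℝ → Matrix J J ℂ) (a β : J → ℝ) (ε : ℝ) (v : J → ℂ) (s : ℝ) : ℝ :=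
  (∑ p, ∑ q, star (v p) * v q * (ew a β ε s p q * D s p q)).re

noncomputable def phi1 (D D1 : ℝ → Matrix J J ℂ) (a β : J → ℝ) (ε : ℝ) (v : J → ℂ) (s : ℝ) : ℝ :=
  (∑ p, ∑ q, star (v p) * v q * (ew a β ε s p q *
    (((cc1 β ε s p + cc1 β ε s q : ℝ) : ℂ) * D s p q + D1 s p q))).re

noncomputable def phi2 (D D1 D2 : ℝ → Matrix J J ℂ) (a β : J → ℝ) (ε : ℝ) (v : J → ℂ)
    (s : ℝ) : ℝ :=
  (∑ p, ∑ q, star (v p) * v q * (ew a β ε s p q *
    ((((cc1 β ε s p + cc1 β ε s q) ^ 2 + 2 * ε : ℝ) : ℂ) * D s p q +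
      ((2 * (cc1 β ε s p + cc1 β ε s q) : ℝ) : ℂ) * D1 s p q + D2 s p q))).re

theorem hasDerivAt_phi {D D1 : ℝ → Matrix J J ℂ} {a β : J → ℝ} {ε : ℝ} {v : J → ℂ} {s : ℝ}
    (h1 : ∀ p q, HasDerivAt (fun t => D t p q) (D1 s p q) s) :
    HasDerivAt (phi D a β ε v) (phi1 D D1 a β ε v s) s := by
  have h : HasDerivAt (fun t => ∑ p, ∑ q, star (v p) * v q * (ew a β ε t p q * D t p q))
      (∑ p, ∑ q, star (v p) * v q * (ew a β ε s p q *
        (((cc1 β ε s p + cc1 β ε s q : ℝ) : ℂ) * D s p q + D1 s p q))) s := by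
    refine HasDerivAt.fun_sum fun p _ => HasDerivAt.fun_sum fun q _ => ?_
    have h2 := ((hasDerivAt_ew a β ε s p q).fun_mul (h1 p q)).const_mul (star (v p) * v q)
    exact h2.congr_deriv (by ring)
  exact (Complex.reCLM.hasFDerivAt.comp_hasDerivAt s h)

theorem hasDerivAt_phi1 {D D1 D2 : ℝ → Matrix J J ℂ} {a β : J → ℝ} {ε : ℝ} {v : J → ℂ} {s : ℝ}
    (h1 : ∀ p q, HasDerivAt (fun t => D t p q) (D1 s p q) s)
    (h2 : ∀ p q, HasDerivAt (fun t => D1 t p q) (D2 s p q) s) :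
    HasDerivAt (phi1 D D1 a β ε v) (phi2 D D1 D2 a β ε v s) s := by
  have h : HasDerivAt (fun t => ∑ p, ∑ q, star (v p) * v q * (ew a β ε t p q *
        (((cc1 β ε t p + cc1 β ε t q : ℝ) : ℂ) * D t p q + D1 t p q)))
      (∑ p, ∑ q, star (v p) * v q * (ew a β ε s p q *
        ((((cc1 β ε s p + cc1 β ε s q) ^ 2 + 2 * ε : ℝ) : ℂ) * D s p q +
          ((2 * (cc1 β ε s p + cc1 β ε s q) : ℝ) : ℂ) * D1 s p q + D2 s p q))) s := by
    refine HasDerivAt.fun_sum fun p _ => HasDerivAt.fun_sum fun q _ => ?_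
    have h3 := ((hasDerivAt_cc1 β ε s p).fun_add (hasDerivAt_cc1 β ε s q)).ofReal_comp
    have h4 := ((hasDerivAt_ew a β ε s p q).fun_mul
      ((h3.fun_mul (h1 p q)).fun_add (h2 p q))).const_mul (star (v p) * v q)
    exact h4.congr_deriv (by push_cast; ring)
  exact (Complex.reCLM.hasFDerivAt.comp_hasDerivAt s h)

/-- the scaled matrix at `s` -/
noncomputable def Msc (D : ℝ → Matrix J J ℂ) (a β : J → ℝ) (ε s : ℝ) : Matrix J J ℂ :=
  Matrix.of fun p q => ew a β ε s p q * D s p q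

omit [Fintype J] in
theorem Msc_herm {D : ℝ → Matrix J J ℂ} {a β : J → ℝ} {ε s : ℝ} (hD : (D s).IsHermitian) :
    (Msc D a β ε s).IsHermitian := by
  ext p q
  simp only [Msc, Matrix.conjTranspose_apply, Matrix.of_apply, star_mul']
  rw [hD.apply p q]
  congr 1
  simp only [ew, RCLike.star_def, Complex.conj_ofReal]
  rw [add_comm]

theorem phi_eq (D : ℝ → Matrix J J ℂ) (a β : J → ℝ) (ε s : ℝ) (v : J → ℂ) :
    phi D a β ε v s = bf (Msc D a β ε s) v v := by
  rw [bf_eq]; rfl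

/-- interior maximum is impossible -/
theorem act_interior [DecidableEq J] {D D1 D2 : ℝ → Matrix J J ℂ} {a β : J → ℝ} {ε μ s0 : ℝ}
    {v : J → ℂ} (hε : 0 < ε) (hμ : 0 < μ) (hH : (D s0).IsHermitian)
    (h1 : ∀ s p q, HasDerivAt (fun t => D t p q) (D1 s p q) s)
    (h2 : ∀ p q, HasDerivAt (fun t => D1 t p q) (D2 s0 p q) s0)
    (hpos : ∀ x y : J → ℂ,
      0 ≤ bf (D2 s0) x x + bf (D1 s0) y x + bf (D1 s0) x y + bf (D s0) y y)
    (hv : ∑ p, Complex.normSq (v p) = 1) (hvmax : bf (Msc D a β ε s0) v v = μ)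
    (hu : ∀ u, bf (Msc D a β ε s0) u u ≤ μ * ∑ p, Complex.normSq (u p))
    (hloc : IsLocalMax (phi D a β ε v) s0) : False := by
  have hle : phi2 D D1 D2 a β ε v s0 ≤ 0 :=
    second_deriv_le (fun s => hasDerivAt_phi (h1 s)) (hasDerivAt_phi1 (h1 s0) h2) hloc
  have heig := eigen_of_max (Msc_herm hH) hu (by rw [hv, hvmax, mul_one])
  -- vectors
  set E : J → ℝ := cc1 β ε s0 with hE
  set Y : J → ℂ := fun p => ((Real.exp (cc a β ε s0 p) : ℝ) : ℂ) * v p with hY
  set Z : J → ℂ := fun p => ((2 * E p : ℝ) : ℂ) * Y p with hZ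
  have key := hpos Y Z
  set v1 : J → ℂ := fun p => ((E p : ℝ) : ℂ) * v p with hv1
  set v2 : J → ℂ := fun p => ((E p ^ 2 : ℝ) : ℂ) * v p with hv2
  have hew : ∀ p q, ew a β ε s0 p q = ((Real.exp (cc a β ε s0 p) : ℝ) : ℂ) *
      ((Real.exp (cc a β ε s0 q) : ℝ) : ℂ) := by
    intro p q
    rw [ew, Real.exp_add, Complex.ofReal_mul]
  have hphi2 : phi2 D D1 D2 a β ε v s0 =
      (bf (D2 s0) Y Y + bf (D1 s0) Z Y + bf (D1 s0) Y Z + bf (D s0) Z Z) +
      (bf (Msc D a β ε s0) v2 v + bf (Msc D a β ε s0) v v2 - 2 * bf (Msc D a β ε s0) v1 v1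
        + 2 * ε * bf (Msc D a β ε s0) v v) := by
    simp only [bf_eq, phi2]
    have e2 : (2 : ℝ) = ((2 : ℂ)).re := by simp
    have hmul : ∀ (c : ℝ) (z : ℂ), c * z.re = ((c : ℂ) * z).re := by
      intro c z; simp
    rw [hmul 2, hmul (2 * ε)]
    simp only [← Complex.add_re, ← Complex.sub_re, Finset.mul_sum, ← Finset.sum_add_distrib,
      ← Finset.sum_sub_distrib]
    congr 1
    refine Finset.sum_congr rfl fun p _ => Finset.sum_congr rfl fun q _ => ?_
    simp only [hZ, hY, hv1, hv2, star_mul', RCLike.star_def, Complex.conj_ofReal, Msc,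
      Matrix.of_apply, hew, hE]
    push_cast
    ring
  have hself : ∀ u : J → ℂ, (∀ p, ∃ c : ℝ, u p = (c : ℂ) * v p) →
      bf (Msc D a β ε s0) u v = μ * ∑ p, (star (u p) * v p).re := by
    intro u _
    rw [bf, heig, dotProduct_smul, smul_eq_mul]
    simp [dotProduct, Finset.mul_sum]
  have e1 : bf (Msc D a β ε s0) v2 v = μ * ∑ p, E p ^ 2 * Complex.normSq (v p) := by
    rw [hself v2 (fun p => ⟨_, rfl⟩)]
    congr 1
    refine Finset.sum_congr rfl fun p _ => ?_
    simp only [hv2, star_mul', RCLike.star_def, Complex.conj_ofReal, mul_assoc]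
    rw [← Complex.normSq_eq_conj_mul_self, ← Complex.ofReal_mul, Complex.ofReal_re]
  have e2 : bf (Msc D a β ε s0) v v2 = μ * ∑ p, E p ^ 2 * Complex.normSq (v p) := by
    rw [bf_comm (Msc_herm hH), e1]
  have e3 : bf (Msc D a β ε s0) v1 v1 ≤ μ * ∑ p, E p ^ 2 * Complex.normSq (v p) := by
    refine (hu v1).trans (le_of_eq ?_)
    congr 1
    refine Finset.sum_congr rfl fun p _ => ?_
    simp only [hv1, map_mul, Complex.normSq_ofReal]
    ring
  rw [hphi2, e1, e2, hvmax] at hle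
  nlinarith [mul_pos hε hμ]

theorem isCompact_sphereC : IsCompact {v : J → ℂ | ∑ p, Complex.normSq (v p) = 1} := by
  have hK : IsCompact (Set.pi Set.univ fun _ : J => Metric.closedBall (0:ℂ) 1) :=
    isCompact_univ_pi fun _ => isCompact_closedBall _ _
  refine hK.of_isClosed_subset ?_ ?_
  · exact isClosed_eq (by fun_prop) continuous_const
  · intro v hv p _
    rw [mem_closedBall_zero_iff]
    have h1 : Complex.normSq (v p) ≤ 1 := by
      rw [← (show ∑ p, Complex.normSq (v p) = 1 from hv)]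
      exact Finset.single_le_sum (f := fun p => Complex.normSq (v p))
        (fun i _ => Complex.normSq_nonneg _) (Finset.mem_univ p)
    rw [Complex.normSq_eq_norm_sq] at h1
    nlinarith [norm_nonneg (v p)]

theorem form_scale {M : Matrix J J ℂ} {μ : ℝ}
    (h : ∀ u : J → ℂ, ∑ p, Complex.normSq (u p) = 1 → bf M u u ≤ μ) (u : J → ℂ) :
    bf M u u ≤ μ * ∑ p, Complex.normSq (u p) := by
  set N := ∑ p, Complex.normSq (u p) with hN
  have hNn : 0 ≤ N := Finset.sum_nonneg fun p _ => Complex.normSq_nonneg _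
  rcases hNn.eq_or_lt with h0 | hpos'
  · have hz : u = 0 := by
      funext p
      have := (Finset.sum_eq_zero_iff_of_nonneg
        (fun p _ => Complex.normSq_nonneg (u p))).1 (hN.symm.trans h0.symm) p (Finset.mem_univ p)
      exact Complex.normSq_eq_zero.1 this
    rw [hz, ← h0]; simp [bf]
  · set c := Real.sqrt N with hc
    have hcpos : 0 < c := Real.sqrt_pos.2 hpos'
    have hcc : c * c = N := Real.mul_self_sqrt hNn
    have h5 := h (((c⁻¹ : ℝ) : ℂ) • u) (by
      simp only [Pi.smul_apply, smul_eq_mul, map_mul, Complex.normSq_ofReal]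
      rw [← Finset.mul_sum, ← hN, ← hcc]
      field_simp)
    rw [bf_smul_left, bf_smul_right] at h5
    have h6 : bf M u u = (c * c) * (c⁻¹ * (c⁻¹ * bf M u u)) := by
      field_simp
    rw [h6, ← hcc, mul_comm μ]
    exact mul_le_mul_of_nonneg_left h5 (by positivity)

theorem phi_end {D : ℝ → Matrix J J ℂ} {a β : J → ℝ} {ε t : ℝ} {b : J → ℝ}
    (hb : ∀ p, cc a β ε t p = -(b p) / 2)
    (hbound : ∀ u, bf (D t) u u ≤ ∑ p, Real.exp (b p) * Complex.normSq (u p)) {v0 : J → ℂ}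
    (hv0' : ∑ p, Complex.normSq (v0 p) = 1) : phi D a β ε v0 t ≤ 1 := by
  have h3 := hbound fun p => ((Real.exp (-(b p) / 2) : ℝ) : ℂ) * v0 p
  have h4 : bf (D t) (fun p => ((Real.exp (-(b p) / 2) : ℝ) : ℂ) * v0 p)
      (fun p => ((Real.exp (-(b p) / 2) : ℝ) : ℂ) * v0 p) = phi D a β ε v0 t := by
    rw [bf_eq, phi]
    congr 1
    refine Finset.sum_congr rfl fun p _ => Finset.sum_congr rfl fun q _ => ?_
    rw [ew, hb, hb, Real.exp_add, Complex.ofReal_mul]
    simp only [star_mul', RCLike.star_def, Complex.conj_ofReal]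
    ring
  rw [h4] at h3
  refine h3.trans (le_of_eq ?_)
  rw [← hv0']
  refine Finset.sum_congr rfl fun p _ => ?_
  rw [map_mul, Complex.normSq_ofReal, ← mul_assoc, ← Real.exp_add, ← Real.exp_add]
  rw [show b p + (-b p / 2 + -b p / 2) = 0 by ring, Real.exp_zero, one_mul]

theorem phi_continuous {D : ℝ → Matrix J J ℂ} {a β : J → ℝ} {ε : ℝ}
    (hDc : ∀ p q, Continuous fun t => D t p q) :
    Continuous fun x : ℝ × (J → ℂ) => phi D a β ε x.2 x.1 := by
  unfold phi ew cc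
  have : ∀ p q, Continuous fun x : ℝ × (J → ℂ) => D x.1 p q := fun p q =>
    (hDc p q).comp continuous_fst
  fun_prop

/-- the scaled form is at most one on the unit sphere -/
theorem act_le_one [DecidableEq J] {D D1 D2 : ℝ → Matrix J J ℂ} {a β : J → ℝ} {ε : ℝ}
    (hε : 0 < ε) (hH : ∀ s, (D s).IsHermitian)
    (h1 : ∀ s p q, HasDerivAt (fun t => D t p q) (D1 s p q) s)
    (h2 : ∀ s p q, HasDerivAt (fun t => D1 t p q) (D2 s p q) s)
    (hpos : ∀ s ∈ Set.Ioo (0:ℝ) 1, ∀ x y : J → ℂ,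
      0 ≤ bf (D2 s) x x + bf (D1 s) y x + bf (D1 s) x y + bf (D s) y y)
    (hD0 : ∀ v, bf (D 0) v v ≤ ∑ p, Real.exp (a p) * Complex.normSq (v p))
    (hD1 : ∀ v, bf (D 1) v v ≤ ∑ p, Real.exp (a p + β p) * Complex.normSq (v p))
    {s : ℝ} (hs : s ∈ Set.Icc (0:ℝ) 1) {v : J → ℂ} (hv : ∑ p, Complex.normSq (v p) = 1) :
    phi D a β ε v s ≤ 1 := by
  by_contra hcon
  rw [not_le] at hcon
  have hK : IsCompact (Set.Icc (0:ℝ) 1 ×ˢ {v : J → ℂ | ∑ p, Complex.normSq (v p) = 1}) :=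
    isCompact_Icc.prod isCompact_sphereC
  have hDc : ∀ p q, Continuous fun t => D t p q := fun p q =>
    continuous_iff_continuousAt.2 fun t => (h1 t p q).continuousAt
  have hcont : Continuous fun x : ℝ × (J → ℂ) => phi D a β ε x.2 x.1 := phi_continuous hDc
  obtain ⟨s0, hs0, v0, hv0', hmax'⟩ : ∃ s0 ∈ Set.Icc (0:ℝ) 1, ∃ v0 : J → ℂ,
      ∑ p, Complex.normSq (v0 p) = 1 ∧ ∀ t ∈ Set.Icc (0:ℝ) 1, ∀ u : J → ℂ,
        ∑ p, Complex.normSq (u p) = 1 → phi D a β ε u t ≤ phi D a β ε v0 s0 := by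
    obtain ⟨x, hx, hmax⟩ := hK.exists_isMaxOn ⟨(s, v), hs, hv⟩ hcont.continuousOn
    rw [isMaxOn_iff] at hmax
    exact ⟨x.1, hx.1, x.2, hx.2, fun t ht u hu => hmax (t, u) ⟨ht, hu⟩⟩
  clear hcont hK
  have hμ1 : 1 < phi D a β ε v0 s0 := lt_of_lt_of_le hcon (hmax' s hs v hv)
  have hne0 : s0 ≠ 0 := by
    rintro rfl
    have := phi_end (D := D) (a := a) (β := β) (ε := ε) (t := 0) (b := a)
      (fun p => by unfold cc; ring) hD0 hv0'
    linarith
  have hne1 : s0 ≠ 1 := by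
    rintro rfl
    have := phi_end (D := D) (a := a) (β := β) (ε := ε) (t := 1) (b := fun p => a p + β p)
      (fun p => by unfold cc; ring) hD1 hv0'
    linarith
  have hs0' : s0 ∈ Set.Ioo (0:ℝ) 1 :=
    ⟨lt_of_le_of_ne hs0.1 (Ne.symm hne0), lt_of_le_of_ne hs0.2 hne1⟩
  have hu : ∀ u, bf (Msc D a β ε s0) u u ≤ phi D a β ε v0 s0 * ∑ p, Complex.normSq (u p) := by
    apply form_scale
    intro u hu
    rw [← phi_eq]
    exact hmax' s0 hs0 u hu
  refine act_interior hε (by linarith : 0 < phi D a β ε v0 s0) (hH s0) h1 (h2 s0) (hpos s0 hs0')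
    hv0' (phi_eq D a β ε s0 v0).symm hu ?_
  filter_upwards [Icc_mem_nhds hs0'.1 hs0'.2] with t ht
  exact hmax' t ht v0 hv0'

/-- **Abstract comparison theorem.** -/
theorem cmp_diag [DecidableEq J] {D D1 D2 : ℝ → Matrix J J ℂ} {a β : J → ℝ}
    (hH : ∀ s, (D s).IsHermitian)
    (h1 : ∀ s p q, HasDerivAt (fun t => D t p q) (D1 s p q) s)
    (h2 : ∀ s p q, HasDerivAt (fun t => D1 t p q) (D2 s p q) s)
    (hpos : ∀ s ∈ Set.Ioo (0:ℝ) 1, ∀ x y : J → ℂ,
      0 ≤ bf (D2 s) x x + bf (D1 s) y x + bf (D1 s) x y + bf (D s) y y)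
    (hD0 : ∀ v, bf (D 0) v v ≤ ∑ p, Real.exp (a p) * Complex.normSq (v p))
    (hD1 : ∀ v, bf (D 1) v v ≤ ∑ p, Real.exp (a p + β p) * Complex.normSq (v p))
    {s : ℝ} (hs : s ∈ Set.Icc (0:ℝ) 1) (v : J → ℂ) :
    bf (D s) v v ≤ ∑ p, Real.exp (a p + s * β p) * Complex.normSq (v p) := by
  -- first the limit `ε → 0`
  have hlim : ∀ u : J → ℂ, ∑ p, Complex.normSq (u p) = 1 → phi D a β 0 u s ≤ 1 := by
    intro u hu
    have hcont : Continuous fun ε => phi D a β ε u s := by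
      unfold phi ew cc
      fun_prop
    have ht : Filter.Tendsto (fun ε => phi D a β ε u s) (nhdsWithin 0 (Set.Ioi 0))
        (nhds (phi D a β 0 u s)) := (hcont.tendsto 0).mono_left nhdsWithin_le_nhds
    refine le_of_tendsto ht ?_
    filter_upwards [self_mem_nhdsWithin] with ε hε
    exact act_le_one hε hH h1 h2 hpos hD0 hD1 hs hu
  -- normalise
  set w : J → ℂ := fun p => ((Real.exp ((a p + s * β p) / 2) : ℝ) : ℂ) * v p with hw
  have hN : ∑ p, Real.exp (a p + s * β p) * Complex.normSq (v p) = ∑ p, Complex.normSq (w p) := by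
    refine Finset.sum_congr rfl fun p _ => ?_
    rw [hw]
    simp only [map_mul, Complex.normSq_ofReal]
    rw [← Real.exp_add]
    congr 2
    ring
  have hv' : bf (D s) v v = bf (Msc D a β 0 s) w w := by
    rw [bf_eq, bf_eq]
    congr 1
    refine Finset.sum_congr rfl fun p _ => Finset.sum_congr rfl fun q _ => ?_
    simp only [hw, star_mul', RCLike.star_def, Complex.conj_ofReal, Msc, Matrix.of_apply, ew, cc]
    rw [show -(a p + s * β p) / 2 + 0 * (s * (s - 1)) / 2 + (-(a q + s * β q) / 2 +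
      0 * (s * (s - 1)) / 2) = -((a p + s * β p) / 2) + -((a q + s * β q) / 2) by ring,
      Real.exp_add, Real.exp_neg, Real.exp_neg]
    have n1 : ((Real.exp ((a p + s * β p) / 2) : ℝ) : ℂ) ≠ 0 := by
      exact_mod_cast (Real.exp_pos _).ne'
    have n2 : ((Real.exp ((a q + s * β q) / 2) : ℝ) : ℂ) ≠ 0 := by
      exact_mod_cast (Real.exp_pos _).ne'
    push_cast at n1 n2 ⊢
    field_simp
  rw [hN, hv']
  have h7 := form_scale (M := Msc D a β 0 s) (μ := 1) (fun u hu => by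
    rw [← phi_eq]; exact hlim u hu) w
  rwa [one_mul] at h7

end

end Vale.Agent.P358
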