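import Vale.Agent.P358_h28.GenExp

/-!
The comparison theorem in matrix form.
-/

open Matrix NormedSpace
open scoped ComplexOrder

set_option linter.unusedSectionVars false

namespace Vale.Agent.P358

section
variable {I J : Type} [Fintype I] [DecidableEq I] [Fintype J] [DecidableEq J]

/-- entrywise derivative -/
def HasED (X : ℝ → Matrix I J ℂ) (X1 : Matrix I J ℂ) (s : ℝ) : Prop :=
  ∀ p q, HasDerivAt (fun t => X t p q) (X1 p q) s

theorem HasED.const_mul {K : Type} {X : ℝ → Matrix I J ℂ} {X1 : Matrix I J ℂ} {s : ℝ}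
    (h : HasED X X1 s) (A : Matrix K I ℂ) : HasED (fun t => A * X t) (A * X1) s := by
  intro p q
  simp only [Matrix.mul_apply]
  exact HasDerivAt.fun_sum fun k _ => (h k q).const_mul _

theorem HasED.mul_const {K : Type} {X : ℝ → Matrix I J ℂ} {X1 : Matrix I J ℂ} {s : ℝ}
    (h : HasED X X1 s) (A : Matrix J K ℂ) : HasED (fun t => X t * A) (X1 * A) s := by
  intro p q
  simp only [Matrix.mul_apply]
  exact HasDerivAt.fun_sum fun k _ => (h p k).mul_const _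

theorem HasED.sub {X Y : ℝ → Matrix I J ℂ} {X1 Y1 : Matrix I J ℂ} {s : ℝ}
    (h : HasED X X1 s) (h' : HasED Y Y1 s) : HasED (fun t => X t - Y t) (X1 - Y1) s := by
  intro p q
  exact (h p q).fun_sub (h' p q)

theorem hasED_diagonal {f f1 : ℝ → I → ℝ} {s : ℝ}
    (h : ∀ i, HasDerivAt (fun t => f t i) (f1 s i) s) :
    HasED (fun t => (diagonal fun i => ((f t i : ℝ) : ℂ) : Matrix I I ℂ))
      (diagonal fun i => ((f1 s i : ℝ) : ℂ)) s := by
  intro p q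
  by_cases hpq : p = q
  · subst hpq
    simp only [diagonal_apply_eq]
    exact (h p).ofReal_comp
  · simp only [diagonal_apply_ne _ hpq]
    exact hasDerivAt_const _ _

theorem smul_sd (V : Matrix I I ℂ) (g : I → ℝ) (t : ℝ) :
    (t : ℂ) • sd V g = sd V fun k => t * g k := by
  unfold sd
  rw [← Matrix.smul_mul, ← Matrix.mul_smul]
  congr 2
  ext p q
  by_cases h : p = q
  · subst h; simp
  · simp [h]

theorem hasED_exp {G : Matrix I I ℂ} (hG : G.IsHermitian) (s : ℝ) :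
    HasED (fun t : ℝ => exp ((t : ℂ) • G)) (exp ((s : ℂ) • G) * G) s := by
  obtain ⟨W, hW, hGW⟩ := exists_sd hG
  generalize hG.eigenvalues = g at hGW
  subst hGW
  have e : (fun t : ℝ => exp ((t : ℂ) • sd W g)) =
      fun t => W * diagonal (fun k => ((Real.exp (t * g k) : ℝ) : ℂ)) * Wᴴ := by
    funext t
    rw [smul_sd, exp_sd hW]; rfl
  rw [e, smul_sd, exp_sd hW, sd_mul hW]
  unfold sd
  refine HasED.mul_const (HasED.const_mul ?_ W) Wᴴ
  refine hasED_diagonal (f1 := fun s k => Real.exp (s * g k) * g k) fun k => ?_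
  have h1 : HasDerivAt (fun t : ℝ => t * g k) (g k) s := by
    simpa using (hasDerivAt_id s).mul_const (g k)
  exact h1.exp

/-- the exponential family -/
noncomputable def Sx (ℓ G : Matrix J J ℂ) (s : ℝ) : Matrix J J ℂ := exp (ℓ + (s : ℂ) • G)

theorem herm_smul {G : Matrix J J ℂ} (hG : G.IsHermitian) (s : ℝ) :
    ((s : ℂ) • G).IsHermitian := by
  rw [IsHermitian, conjTranspose_smul, hG.eq]
  simp

theorem Sx_eq {ℓ G : Matrix J J ℂ} (hc : Commute ℓ G) (s : ℝ) :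
    Sx ℓ G s = exp ℓ * exp ((s : ℂ) • G) :=
  Matrix.exp_add_of_commute _ _ (hc.smul_right _)

theorem Sx_psd {ℓ G : Matrix J J ℂ} (hℓ : ℓ.IsHermitian) (hG : G.IsHermitian) (s : ℝ) :
    (Sx ℓ G s).PosSemidef := exp_herm_posSemidef (hℓ.add (herm_smul hG s))

theorem Sx_comm {ℓ G : Matrix J J ℂ} (hc : Commute ℓ G) (s : ℝ) :
    Sx ℓ G s * G = G * Sx ℓ G s := by
  have h : Commute (ℓ + (s : ℂ) • G) G := hc.add_left ((Commute.refl G).smul_left _)
  exact h.exp_left.eq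

theorem Sx_deriv {ℓ G : Matrix J J ℂ} (hG : G.IsHermitian) (hc : Commute ℓ G) (s : ℝ) :
    HasED (Sx ℓ G) (Sx ℓ G s * G) s := by
  have e : Sx ℓ G = fun t : ℝ => exp ℓ * exp ((t : ℂ) • G) := funext fun t => Sx_eq hc t
  rw [e]
  simp only [Matrix.mul_assoc]
  exact (hasED_exp hG s).const_mul _

theorem bf_conj (Λ : Matrix J I ℂ) (X : Matrix J J ℂ) (u v : I → ℂ) :
    bf (Λᴴ * X * Λ) u v = bf X (Λ *ᵥ u) (Λ *ᵥ v) := by
  unfold bf
  rw [star_mulVec, ← Matrix.mulVec_mulVec, ← Matrix.mulVec_mulVec, dotProduct_mulVec]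

theorem bf_mul_right (X G : Matrix J J ℂ) (u v : J → ℂ) : bf (X * G) u v = bf X u (G *ᵥ v) := by
  unfold bf
  rw [← Matrix.mulVec_mulVec]

theorem bf_mul_left {G : Matrix J J ℂ} (hG : G.IsHermitian) (X : Matrix J J ℂ) (u v : J → ℂ) :
    bf (G * X) u v = bf X (G *ᵥ u) v := by
  unfold bf
  rw [← Matrix.mulVec_mulVec, star_mulVec, hG.eq, dotProduct_mulVec]

/-- **Lemma A** -/
theorem cmp_a {Λ : Matrix J I ℂ} {a β : I → ℝ} {ℓ G : Matrix J J ℂ} (hℓ : ℓ.IsHermitian)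
    (hG : G.IsHermitian) (hc : Commute ℓ G)
    (e0 : ∀ m : I → ℂ, bf (Sx ℓ G 0) (Λ *ᵥ m) (Λ *ᵥ m) ≤
      ∑ i, Real.exp (a i) * Complex.normSq (m i))
    (e1 : ∀ m : I → ℂ, bf (Sx ℓ G 1) (Λ *ᵥ m) (Λ *ᵥ m) ≤
      ∑ i, Real.exp (a i + β i) * Complex.normSq (m i))
    {s : ℝ} (hs : s ∈ Set.Icc (0:ℝ) 1) (m : I → ℂ) :
    bf (Sx ℓ G s) (Λ *ᵥ m) (Λ *ᵥ m) ≤
      ∑ i, Real.exp (a i + s * β i) * Complex.normSq (m i) := by
  have h := cmp_diag (D := fun s => Λᴴ * Sx ℓ G s * Λ) (D1 := fun s => Λᴴ * (Sx ℓ G s * G) * Λ)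
    (D2 := fun s => Λᴴ * (Sx ℓ G s * G * G) * Λ) (a := a) (β := β) ?_ ?_ ?_ ?_ ?_ ?_ hs m
  · rwa [bf_conj] at h
  · intro t
    exact ((Sx_psd hℓ hG t).conjTranspose_mul_mul_same Λ).isHermitian
  · intro t
    exact ((Sx_deriv hG hc t).const_mul _).mul_const _
  · intro t
    exact (((Sx_deriv hG hc t).mul_const G).const_mul _).mul_const _
  · intro t _ x y
    simp only [bf_conj]
    have hcm := Sx_comm hc t
    have e2 : bf (Sx ℓ G t * G * G) (Λ *ᵥ x) (Λ *ᵥ x) =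
        bf (Sx ℓ G t) (G *ᵥ (Λ *ᵥ x)) (G *ᵥ (Λ *ᵥ x)) := by
      rw [bf_mul_right, hcm, bf_mul_left hG]
    have e3 : bf (Sx ℓ G t * G) (Λ *ᵥ x) (Λ *ᵥ y) =
        bf (Sx ℓ G t) (G *ᵥ (Λ *ᵥ x)) (Λ *ᵥ y) := by
      rw [hcm, bf_mul_left hG]
    rw [e2, e3, bf_mul_right]
    have h5 := bf_nonneg (Sx_psd hℓ hG t) (G *ᵥ (Λ *ᵥ x) + Λ *ᵥ y)
    rw [bf_add_left, bf_add_right, bf_add_right] at h5
    linarith
  · intro v
    rw [bf_conj]; exact e0 v
  · intro v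
    rw [bf_conj]; exact e1 v

theorem bf_diagonal (f : I → ℝ) (u v : I → ℂ) :
    bf (diagonal fun i => ((f i : ℝ) : ℂ)) u v = ∑ i, f i * (star (u i) * v i).re := by
  unfold bf
  simp only [dotProduct, mulVec_diagonal, Pi.star_apply, Complex.re_sum]
  refine Finset.sum_congr rfl fun i _ => ?_
  rw [← Complex.re_ofReal_mul]
  congr 1
  ring

theorem bf_conj' (Λ : Matrix J I ℂ) (X : Matrix I I ℂ) (u v : J → ℂ) :
    bf (Λ * X * Λᴴ) u v = bf X (Λᴴ *ᵥ u) (Λᴴ *ᵥ v) := by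
  have := bf_conj Λᴴ X u v
  rwa [conjTranspose_conjTranspose] at this

/-- the compared family -/
noncomputable def Dx (Λ : Matrix J I ℂ) (a β : I → ℝ) (ℓ G : Matrix J J ℂ) (s : ℝ) :
    Matrix J J ℂ :=
  Λ * (diagonal fun i => ((Real.exp (a i + s * β i) : ℝ) : ℂ)) * Λᴴ - Sx ℓ G s

noncomputable def Dx1 (Λ : Matrix J I ℂ) (a β : I → ℝ) (ℓ G : Matrix J J ℂ) (s : ℝ) :
    Matrix J J ℂ :=
  Λ * (diagonal fun i => ((Real.exp (a i + s * β i) * β i : ℝ) : ℂ)) * Λᴴ - Sx ℓ G s * G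

noncomputable def Dx2 (Λ : Matrix J I ℂ) (a β : I → ℝ) (ℓ G : Matrix J J ℂ) (s : ℝ) :
    Matrix J J ℂ :=
  Λ * (diagonal fun i => ((Real.exp (a i + s * β i) * β i * β i : ℝ) : ℂ)) * Λᴴ
    - Sx ℓ G s * G * G

theorem Dx_deriv {Λ : Matrix J I ℂ} {a β : I → ℝ} {ℓ G : Matrix J J ℂ}
    (hG : G.IsHermitian) (hc : Commute ℓ G) (s : ℝ) :
    HasED (Dx Λ a β ℓ G) (Dx1 Λ a β ℓ G s) s := by
  refine HasED.sub ?_ (Sx_deriv hG hc s)
  refine HasED.mul_const (HasED.const_mul ?_ _) _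
  refine hasED_diagonal (f1 := fun s i => Real.exp (a i + s * β i) * β i) fun i => ?_
  have h1 : HasDerivAt (fun t : ℝ => a i + t * β i) (β i) s := by
    simpa using ((hasDerivAt_id s).mul_const (β i)).const_add (a i)
  exact h1.exp

theorem Dx1_deriv {Λ : Matrix J I ℂ} {a β : I → ℝ} {ℓ G : Matrix J J ℂ}
    (hG : G.IsHermitian) (hc : Commute ℓ G) (s : ℝ) :
    HasED (Dx1 Λ a β ℓ G) (Dx2 Λ a β ℓ G s) s := by
  refine HasED.sub ?_ ((Sx_deriv hG hc s).mul_const _)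
  refine HasED.mul_const (HasED.const_mul ?_ _) _
  refine hasED_diagonal (f1 := fun s i => Real.exp (a i + s * β i) * β i * β i) fun i => ?_
  have h1 : HasDerivAt (fun t : ℝ => a i + t * β i) (β i) s := by
    simpa using ((hasDerivAt_id s).mul_const (β i)).const_add (a i)
  exact h1.exp.mul_const _

/-- **Lemma B** -/
theorem cmp_b {Λ : Matrix J I ℂ} (hΛ : Λ * Λᴴ = 1) {a β : I → ℝ} {ℓ G : Matrix J J ℂ}
    (hℓ : ℓ.IsHermitian) (hG : G.IsHermitian) (hc : Commute ℓ G)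
    (hGΛ : G = Λ * (diagonal fun i => ((β i : ℝ) : ℂ)) * Λᴴ)
    (e0 : ∀ m : I → ℂ, bf (Sx ℓ G 0) (Λ *ᵥ m) (Λ *ᵥ m) ≤
      ∑ i, Real.exp (a i) * Complex.normSq (m i))
    (e1 : ∀ m : I → ℂ, bf (Sx ℓ G 1) (Λ *ᵥ m) (Λ *ᵥ m) ≤
      ∑ i, Real.exp (a i + β i) * Complex.normSq (m i))
    {A B : J → ℝ}
    (f0 : ∀ v, bf (Dx Λ a β ℓ G 0) v v ≤ ∑ p, Real.exp (A p) * Complex.normSq (v p))
    (f1 : ∀ v, bf (Dx Λ a β ℓ G 1) v v ≤ ∑ p, Real.exp (A p + B p) * Complex.normSq (v p))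
    {s : ℝ} (hs : s ∈ Set.Icc (0:ℝ) 1) (v : J → ℂ) :
    bf (Dx Λ a β ℓ G s) v v ≤ ∑ p, Real.exp (A p + s * B p) * Complex.normSq (v p) := by
  refine cmp_diag (D := Dx Λ a β ℓ G) (D1 := Dx1 Λ a β ℓ G) (D2 := Dx2 Λ a β ℓ G)
    ?_ (fun t => Dx_deriv hG hc t) (fun t => Dx1_deriv hG hc t) ?_ f0 f1 hs v
  · intro t
    refine IsHermitian.sub ?_ (Sx_psd hℓ hG t).isHermitian
    exact (PosSemidef.mul_mul_conjTranspose_same (PosSemidef.diagonal (fun i => by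
      rw [Pi.zero_apply, Complex.zero_le_real]; exact (Real.exp_pos _).le)) Λ).isHermitian
  · intro t ht x y
    have hcm := Sx_comm hc t
    have e2 : bf (Sx ℓ G t * G * G) x x = bf (Sx ℓ G t) (G *ᵥ x) (G *ᵥ x) := by
      rw [bf_mul_right, hcm, bf_mul_left hG]
    have e3 : bf (Sx ℓ G t * G) x y = bf (Sx ℓ G t) (G *ᵥ x) y := by
      rw [hcm, bf_mul_left hG]
    simp only [Dx, Dx1, Dx2, bf_sub_mat, bf_conj', e2, e3, bf_mul_right (Sx ℓ G t) G y x,
      bf_diagonal]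
    set x' := Λᴴ *ᵥ x with hx'
    set y' := Λᴴ *ᵥ y with hy'
    set m : I → ℂ := fun i => ((β i : ℝ) : ℂ) * x' i + y' i with hm
    have hΛm : Λ *ᵥ m = G *ᵥ x + y := by
      have h1 : m = (diagonal fun i => ((β i : ℝ) : ℂ)) *ᵥ x' + y' := by
        funext i
        simp [hm, mulVec_diagonal]
      rw [h1, mulVec_add, hx', hy', mulVec_mulVec, mulVec_mulVec, mulVec_mulVec, hΛ, one_mulVec,
        ← hGΛ]
    have h5 := cmp_a hℓ hG hc e0 e1 (Set.Ioo_subset_Icc_self ht) m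
    rw [hΛm, bf_add_left, bf_add_right, bf_add_right] at h5
    have h6 : ∑ i, Real.exp (a i + t * β i) * Complex.normSq (m i) =
        ∑ i, Real.exp (a i + t * β i) * β i * β i * (star (x' i) * x' i).re +
        ∑ i, Real.exp (a i + t * β i) * β i * (star (y' i) * x' i).re +
        ∑ i, Real.exp (a i + t * β i) * β i * (star (x' i) * y' i).re +
        ∑ i, Real.exp (a i + t * β i) * (star (y' i) * y' i).re := by
      rw [← Finset.sum_add_distrib, ← Finset.sum_add_distrib, ← Finset.sum_add_distrib]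
      refine Finset.sum_congr rfl fun i _ => ?_
      simp only [hm, Complex.normSq_apply, Complex.add_re, Complex.mul_re, Complex.ofReal_re,
        Complex.ofReal_im, Complex.add_im, Complex.mul_im, RCLike.star_def, Complex.conj_re,
        Complex.conj_im]
      ring
    rw [h6] at h5
    linarith

theorem deriv_nonneg_of_zero {f : ℝ → ℝ} {f' : ℝ} (h0 : f 0 = 0)
    (hf : ∀ s ∈ Set.Icc (0:ℝ) 1, 0 ≤ f s) (h : HasDerivAt f f' 0) : 0 ≤ f' := by
  have h1 := (hasDerivWithinAt_iff_tendsto_slope' (Set.self_notMem_Ioi)).1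
    (h.hasDerivWithinAt (s := Set.Ioi 0))
  refine ge_of_tendsto h1 ?_
  have h2 : Set.Ioc (0:ℝ) 1 ∈ nhdsWithin (0:ℝ) (Set.Ioi 0) := Ioc_mem_nhdsGT one_pos
  filter_upwards [h2] with s hs
  rw [slope_def_field, h0]
  simp only [sub_zero]
  exact div_nonneg (hf s ⟨hs.1.le, hs.2⟩) hs.1.le

/-- **Lemma C** -/
theorem deriv_at_zero {D : ℝ → Matrix J J ℂ} {D1 : Matrix J J ℂ} (hD : HasED D D1 0)
    {A B : J → ℝ} {v : J → ℂ}
    (h : ∀ s ∈ Set.Icc (0:ℝ) 1, bf (D s) v v ≤ ∑ p, Real.exp (A p + s * B p) *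
      Complex.normSq (v p))
    (h0 : bf (D 0) v v = ∑ p, Real.exp (A p) * Complex.normSq (v p)) :
    bf D1 v v ≤ ∑ p, B p * Real.exp (A p) * Complex.normSq (v p) := by
  have hd1 : HasDerivAt (fun s => bf (D s) v v) (bf D1 v v) 0 := by
    simp only [bf_eq]
    have h2 : HasDerivAt (fun s => ∑ p, ∑ q, star (v p) * v q * D s p q)
        (∑ p, ∑ q, star (v p) * v q * D1 p q) 0 :=
      HasDerivAt.fun_sum fun p _ => HasDerivAt.fun_sum fun q _ => (hD p q).const_mul _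
    exact (Complex.reCLM.hasFDerivAt.comp_hasDerivAt (0:ℝ) h2)
  have hd2 : HasDerivAt (fun s => ∑ p, Real.exp (A p + s * B p) * Complex.normSq (v p))
      (∑ p, B p * Real.exp (A p) * Complex.normSq (v p)) 0 := by
    refine HasDerivAt.fun_sum fun p _ => ?_
    have h1 : HasDerivAt (fun t : ℝ => A p + t * B p) (B p) 0 := by
      simpa using ((hasDerivAt_id (0:ℝ)).mul_const (B p)).const_add (A p)
    refine (h1.exp.mul_const (Complex.normSq (v p))).congr_deriv ?_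
    simp only [zero_mul, add_zero]
    ring
  have h3 := deriv_nonneg_of_zero (f := fun s => ∑ p, Real.exp (A p + s * B p) *
    Complex.normSq (v p) - bf (D s) v v) (by
      simp only [zero_mul, add_zero]; rw [h0, sub_self]) (fun s hs => by
      have := h s hs
      simpa using this) (hd2.fun_sub hd1)
  linarith

end

end Vale.Agent.P358
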