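import Vale.Agent.P358_h28.GenExp

/-!
Existence of the Hermitian solution of `exp H - exp (lam + Dl H) = ω` and its minimality.
-/

open Matrix NormedSpace
open scoped ComplexOrder

set_option linter.unusedSectionVars false

namespace Vale.Agent.P358

section
variable {J R : Type} [Fintype J] [DecidableEq J] [DecidableEq R]

/-- block-diagonal part -/
def Dl (r : J → R) (A : Matrix J J ℂ) : Matrix J J ℂ :=
  Matrix.of fun p q => if r p = r q then A p q else 0

/-- block-constant diagonal matrix -/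
noncomputable def lamM (r : J → R) (lam : R → ℝ) : Matrix J J ℂ :=
  diagonal fun p => ((lam (r p) : ℝ) : ℂ)

/-- block-diagonal -/
def BD (r : J → R) (A : Matrix J J ℂ) : Prop := ∀ p q, r p ≠ r q → A p q = 0

theorem Dl_BD (r : J → R) (A : Matrix J J ℂ) : BD r (Dl r A) := by
  intro p q h
  simp [Dl, h]

theorem lamM_BD (r : J → R) (lam : R → ℝ) : BD r (lamM r lam) := by
  intro p q h
  have : p ≠ q := fun h2 => h (by rw [h2])
  simp [lamM, this]

theorem BD.add {r : J → R} {A B : Matrix J J ℂ} (hA : BD r A) (hB : BD r B) : BD r (A + B) := by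
  intro p q h
  simp [hA p q h, hB p q h]

theorem BD.comm_ind {r : J → R} {A : Matrix J J ℂ} (hA : BD r A) (f : R → ℂ) :
    Commute A (diagonal fun p => f (r p)) := by
  ext p q
  rw [mul_diagonal, diagonal_mul]
  by_cases h : r p = r q
  · rw [h, mul_comm]
  · rw [hA p q h, zero_mul, mul_zero]

theorem BD_of_comm {r : J → R} {A : Matrix J J ℂ}
    (h : ∀ f : R → ℂ, Commute A (diagonal fun p => f (r p))) : BD r A := by
  intro p q hpq
  have h1 := congrFun (congrFun (h (fun x => if x = r q then 1 else 0)).eq p) q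
  rw [mul_diagonal, diagonal_mul] at h1
  simpa [hpq] using h1

theorem BD.exp {r : J → R} {A : Matrix J J ℂ} (hA : BD r A) : BD r (exp A) :=
  BD_of_comm fun f => (hA.comm_ind f).exp_left

theorem lamM_comm {r : J → R} {A : Matrix J J ℂ} (hA : BD r A) (lam : R → ℝ) :
    Commute (lamM r lam) A := (hA.comm_ind fun x => ((lam x : ℝ) : ℂ)).symm

theorem lamM_herm (r : J → R) (lam : R → ℝ) : (lamM r lam).IsHermitian := by
  unfold lamM
  rw [IsHermitian, diagonal_conjTranspose]
  congr 1
  funext p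
  simp

theorem Dl_herm {r : J → R} {A : Matrix J J ℂ} (hA : A.IsHermitian) : (Dl r A).IsHermitian := by
  ext p q
  have := hA.apply p q
  simp only [Dl, conjTranspose_apply, of_apply]
  by_cases h : r p = r q
  · rw [if_pos h, if_pos h.symm, this]
  · rw [if_neg h, if_neg (fun h2 => h h2.symm), star_zero]

theorem Dl_sub (r : J → R) (A B : Matrix J J ℂ) : Dl r (A - B) = Dl r A - Dl r B := by
  ext p q
  by_cases h : r p = r q <;> simp [Dl, h]

theorem Dl_smul (r : J → R) (c : ℂ) (A : Matrix J J ℂ) : Dl r (c • A) = c • Dl r A := by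
  ext p q
  by_cases h : r p = r q <;> simp [Dl, h]

theorem trace_Dl_mul {r : J → R} {X : Matrix J J ℂ} (hX : BD r X) (A : Matrix J J ℂ) :
    (Dl r A * X).trace = (A * X).trace := by
  unfold Matrix.trace
  simp only [diag_apply, Matrix.mul_apply]
  refine Finset.sum_congr rfl fun p _ => Finset.sum_congr rfl fun q _ => ?_
  by_cases h : r p = r q
  · simp [Dl, h]
  · rw [hX q p (fun h2 => h h2.symm), mul_zero, mul_zero]

/-- the functional -/
noncomputable def EE (r : J → R) (lam : R → ℝ) (ω H : Matrix J J ℂ) : ℝ :=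
  (exp H).trace.re - (exp (lamM r lam + Dl r H)).trace.re - (ω * H).trace.re

theorem trace_exp_Dl_le {r : J → R} {H : Matrix J J ℂ} (hH : H.IsHermitian) :
    (exp (Dl r H)).trace.re ≤ (exp H).trace.re := by
  have h := klein hH (Dl_herm (r := r) hH)
  have h2 : ((H - Dl r H) * exp (Dl r H)).trace = 0 := by
    rw [Matrix.sub_mul, trace_sub, trace_Dl_mul (Dl_BD r H).exp, sub_self]
  rw [h2] at h
  simpa using h

theorem exp_lamM (r : J → R) (lam : R → ℝ) :
    exp (lamM r lam) = lamM r fun x => Real.exp (lam x) := by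
  unfold lamM
  rw [Matrix.exp_diagonal]
  congr 1
  funext p
  rw [Pi.coe_exp, ← Complex.exp_eq_exp_ℂ, Complex.ofReal_exp]

theorem trace_exp_lam_le {r : J → R} {lam : R → ℝ} {c : ℝ} (hc : ∀ p, Real.exp (lam (r p)) ≤ c)
    {H : Matrix J J ℂ} (hH : H.IsHermitian) :
    (exp (lamM r lam + Dl r H)).trace.re ≤ c * (exp (Dl r H)).trace.re := by
  rw [Matrix.exp_add_of_commute _ _ (lamM_comm (Dl_BD r H) lam), exp_lamM]
  unfold Matrix.trace
  rw [Complex.re_sum, Complex.re_sum, Finset.mul_sum]
  refine Finset.sum_le_sum fun p _ => ?_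
  rw [diag_apply, diag_apply, lamM, diagonal_mul, Complex.re_ofReal_mul]
  refine mul_le_mul_of_nonneg_right (hc p) ?_
  have := (exp_herm_posSemidef (Dl_herm (r := r) hH)).diag_nonneg (i := p)
  exact (Complex.nonneg_iff.1 this).1

/-- scalar coercivity -/
theorem scalar_coercive {c' m M : ℝ} (hc : 0 < c') (hm : 0 < m) (hM : 0 ≤ M) :
    ∃ C : ℝ, 0 ≤ C ∧ ∀ d x : ℝ, m ≤ x → x ≤ M → m * |d| - C ≤ c' * Real.exp d - d * x := by
  set K := (M + m) / c' with hK
  have hKpos : 0 < K := by positivity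
  refine ⟨|(M + m) * (1 - Real.log K)|, abs_nonneg _, fun d x hx1 hx2 => ?_⟩
  rcases le_or_gt 0 d with hd | hd
  · have h1 : (d - Real.log K) + 1 ≤ Real.exp (d - Real.log K) := Real.add_one_le_exp _
    have h2 : Real.exp d = K * Real.exp (d - Real.log K) := by
      rw [Real.exp_sub, Real.exp_log hKpos]; field_simp
    have h3 : c' * K = M + m := by rw [hK]; field_simp
    have h4 : c' * Real.exp d = (M + m) * Real.exp (d - Real.log K) := by
      rw [h2, ← mul_assoc, h3]
    rw [h4, abs_of_nonneg hd]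
    have h5 := neg_abs_le ((M + m) * (1 - Real.log K))
    have h6 : (M + m) * ((d - Real.log K) + 1) ≤ (M + m) * Real.exp (d - Real.log K) :=
      mul_le_mul_of_nonneg_left h1 (by positivity)
    have h7 : d * x ≤ d * M := mul_le_mul_of_nonneg_left hx2 hd
    nlinarith
  · rw [abs_of_neg hd]
    have h1 := abs_nonneg ((M + m) * (1 - Real.log K))
    have h2 : 0 < c' * Real.exp d := mul_pos hc (Real.exp_pos d)
    nlinarith

/-- matrix coercivity -/
theorem EE_coercive {r : J → R} {lam : R → ℝ} {c : ℝ} (hc1 : c < 1)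
    (hc : ∀ p, Real.exp (lam (r p)) ≤ c) (hc0 : 0 ≤ c) {ω : Matrix J J ℂ} (hω : ω.PosDef) :
    ∃ m C : ℝ, 0 < m ∧ ∀ H : Matrix J J ℂ, H.IsHermitian → ∀ p q,
      m * ‖H p q‖ - C ≤ EE r lam ω H := by
  obtain ⟨W, hW, hωW⟩ := exists_sd hω.isHermitian
  have hw : ∀ k, 0 < hω.isHermitian.eigenvalues k := fun k => hω.eigenvalues_pos k
  generalize hω.isHermitian.eigenvalues = w at hωW hw
  obtain ⟨m, hm, hmw⟩ : ∃ m : ℝ, 0 < m ∧ ∀ k, m ≤ w k := by
    by_cases hJ : Nonempty J
    · obtain ⟨k0, hk0⟩ := Finite.exists_min w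
      exact ⟨w k0, hw k0, hk0⟩
    · exact ⟨1, one_pos, fun k => (hJ ⟨k⟩).elim⟩
  set M := ∑ k, w k with hMdef
  have hMw : ∀ k, w k ≤ M := fun k =>
    Finset.single_le_sum (f := w) (fun i _ => (hw i).le) (Finset.mem_univ k)
  have hM0 : 0 ≤ M := Finset.sum_nonneg fun k _ => (hw k).le
  obtain ⟨C, hC, hCs⟩ := scalar_coercive (c' := 1 - c) (m := m) (M := M) (by linarith) hm hM0
  refine ⟨m, Fintype.card J * C, hm, fun H hH p q => ?_⟩
  obtain ⟨V, hV, hHV⟩ := exists_sd hH
  generalize hH.eigenvalues = d at hHV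
  -- lower bound of EE
  have h1 : (exp (lamM r lam + Dl r H)).trace.re ≤ c * (exp H).trace.re :=
    (trace_exp_lam_le hc hH).trans (mul_le_mul_of_nonneg_left (trace_exp_Dl_le hH) hc0)
  set y : J → ℝ := fun j => ∑ i, Complex.normSq ((Wᴴ * V) i j) * w i with hy
  have hy1 : ∀ j, m ≤ y j := by
    intro j
    calc m = ∑ i, Complex.normSq ((Wᴴ * V) i j) * m := by
          rw [← Finset.sum_mul, unitary_col_sum (conj_mul_mem hW hV), one_mul]
      _ ≤ y j := Finset.sum_le_sum fun i _ =>
          mul_le_mul_of_nonneg_left (hmw i) (Complex.normSq_nonneg _)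
  have hy2 : ∀ j, y j ≤ M := by
    intro j
    calc y j ≤ ∑ i, Complex.normSq ((Wᴴ * V) i j) * M := Finset.sum_le_sum fun i _ =>
          mul_le_mul_of_nonneg_left (hMw i) (Complex.normSq_nonneg _)
      _ = M := by rw [← Finset.sum_mul, unitary_col_sum (conj_mul_mem hW hV), one_mul]
  have h2 : (ω * H).trace.re = ∑ j, d j * y j := by
    rw [hωW, hHV, trace_sd_mul_sd, Finset.sum_comm]
    refine Finset.sum_congr rfl fun j _ => ?_
    rw [hy, Finset.mul_sum]
    refine Finset.sum_congr rfl fun i _ => ?_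
    ring
  have h3 : (exp H).trace.re = ∑ j, Real.exp (d j) := by
    rw [hHV, exp_sd hV, trace_sd hV]
  have h4 : m * ∑ j, |d j| - Fintype.card J * C ≤ EE r lam ω H := by
    calc m * ∑ j, |d j| - Fintype.card J * C = ∑ j, (m * |d j| - C) := by
          rw [Finset.sum_sub_distrib, Finset.mul_sum]; simp
      _ ≤ ∑ j, ((1 - c) * Real.exp (d j) - d j * y j) :=
          Finset.sum_le_sum fun j _ => hCs _ _ (hy1 j) (hy2 j)
      _ = (1 - c) * (exp H).trace.re - (ω * H).trace.re := by
          rw [h2, h3, Finset.mul_sum, Finset.sum_sub_distrib]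
      _ ≤ EE r lam ω H := by
          unfold EE
          linarith
  refine le_trans ?_ h4
  have h5 : ‖H p q‖ ≤ ∑ j, |d j| := by
    rw [hHV]
    unfold sd
    rw [Matrix.mul_apply]
    refine (norm_sum_le _ _).trans (Finset.sum_le_sum fun j _ => ?_)
    rw [mul_diagonal, conjTranspose_apply, norm_mul, norm_mul, norm_star, Complex.norm_real,
      Real.norm_eq_abs]
    have n1 := entry_norm_bound_of_unitary hV p j
    have n2 := entry_norm_bound_of_unitary hV q j
    have n3 : ‖V p j‖ * |d j| ≤ 1 * |d j| := mul_le_mul_of_nonneg_right n1 (abs_nonneg _)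
    calc ‖V p j‖ * |d j| * ‖V q j‖ ≤ (1 * |d j|) * 1 :=
          mul_le_mul n3 n2 (norm_nonneg _) (by positivity)
      _ = |d j| := by ring
  nlinarith

theorem continuous_Dl (r : J → R) : Continuous (Dl r : Matrix J J ℂ → Matrix J J ℂ) := by
  refine continuous_matrix fun p q => ?_
  by_cases h : r p = r q
  · simp only [Dl, of_apply, if_pos h]; fun_prop
  · simp only [Dl, of_apply, if_neg h]; fun_prop

theorem continuous_EE (r : J → R) (lam : R → ℝ) (ω : Matrix J J ℂ) : Continuous (EE r lam ω) := by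
  unfold EE
  have h1 : Continuous fun H : Matrix J J ℂ => (exp H).trace.re :=
    Complex.continuous_re.comp (matrix_exp_continuous.matrix_trace)
  have h2 : Continuous fun H : Matrix J J ℂ => (exp (lamM r lam + Dl r H)).trace.re :=
    Complex.continuous_re.comp
      ((matrix_exp_continuous.comp (continuous_const.add (continuous_Dl r))).matrix_trace)
  have h3 : Continuous fun H : Matrix J J ℂ => (ω * H).trace.re :=
    Complex.continuous_re.comp ((continuous_const.matrix_mul continuous_id).matrix_trace)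
  exact (h1.sub h2).sub h3

theorem exists_min_EE {r : J → R} {lam : R → ℝ} {c : ℝ} (hc1 : c < 1)
    (hc : ∀ p, Real.exp (lam (r p)) ≤ c) (hc0 : 0 ≤ c) {ω : Matrix J J ℂ} (hω : ω.PosDef) :
    ∃ H : Matrix J J ℂ, H.IsHermitian ∧ ∀ H' : Matrix J J ℂ, H'.IsHermitian →
      EE r lam ω H ≤ EE r lam ω H' := by
  obtain ⟨m, C, hm, hbd⟩ := EE_coercive hc1 hc hc0 hω
  set R0 : ℝ := (EE r lam ω 0 + C) / m with hR0
  set K : Set (Matrix J J ℂ) := {H | H.IsHermitian ∧ ∀ p q, ‖H p q‖ ≤ R0} with hK
  have hin : ∀ H : Matrix J J ℂ, H.IsHermitian → EE r lam ω H ≤ EE r lam ω 0 → H ∈ K := by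
    intro H hH hE
    refine ⟨hH, fun p q => ?_⟩
    have := hbd H hH p q
    rw [hR0, le_div_iff₀ hm]
    linarith
  have h0K : (0 : Matrix J J ℂ) ∈ K := hin 0 isHermitian_zero le_rfl
  have hcomp : IsCompact K := by
    have hP : IsCompact (Set.pi Set.univ fun _ : J =>
        Set.pi Set.univ fun _ : J => Metric.closedBall (0:ℂ) R0) :=
      isCompact_univ_pi fun _ => isCompact_univ_pi fun _ => isCompact_closedBall _ _
    have hP1 : IsCompact {H : J → J → ℂ | ∀ p q, ‖H p q‖ ≤ R0} := by
      convert hP using 1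
      ext H
      simp [Set.mem_pi]
    have hP' : IsCompact {H : Matrix J J ℂ | ∀ p q, ‖H p q‖ ≤ R0} := hP1
    refine hP'.of_isClosed_subset ?_ (fun H hH => hH.2)
    have hc1 : IsClosed {H : Matrix J J ℂ | H.IsHermitian} :=
      isClosed_eq (continuous_id.matrix_conjTranspose) continuous_id
    exact hc1.inter hP'.isClosed
  obtain ⟨H, hHK, hmin⟩ := hcomp.exists_isMinOn ⟨0, h0K⟩ (continuous_EE r lam ω).continuousOn
  rw [isMinOn_iff] at hmin
  refine ⟨H, hHK.1, fun H' hH' => ?_⟩
  by_cases hle : EE r lam ω H' ≤ EE r lam ω 0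
  · exact hmin H' (hin H' hH' hle)
  · exact (hmin 0 h0K).trans (le_of_lt (not_le.1 hle))

/-- first-order condition at a minimiser -/
theorem stationary {r : J → R} {lam : R → ℝ} {ω : Matrix J J ℂ} (hω : ω.IsHermitian)
    {H : Matrix J J ℂ} (hH : H.IsHermitian)
    (hmin : ∀ H' : Matrix J J ℂ, H'.IsHermitian → EE r lam ω H ≤ EE r lam ω H') :
    exp H - exp (lamM r lam + Dl r H) = ω := by
  set B' := lamM r lam + Dl r H with hB'
  have hB'h : B'.IsHermitian := (lamM_herm r lam).add (Dl_herm hH)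
  have hB'BD : BD r B' := (lamM_BD r lam).add (Dl_BD r H)
  set Z := exp H - exp B' - ω with hZ
  have hZh : Z.IsHermitian :=
    (((exp_herm_posSemidef hH).isHermitian).sub (exp_herm_posSemidef hB'h).isHermitian).sub hω
  have key : ∀ t : ℝ, 0 < t →
      (Z * exp (H - (t : ℂ) • Z)).trace.re - (Z * exp B').trace.re - (ω * Z).trace.re ≤ 0 := by
    intro t ht
    have hHt : (H - (t : ℂ) • Z).IsHermitian := by
      refine hH.sub ?_
      rw [IsHermitian, conjTranspose_smul, hZh.eq]
      simp
    have k1 := klein hH hHt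
    have e1 : H - (H - (t : ℂ) • Z) = (t : ℂ) • Z := by abel
    rw [e1, Matrix.smul_mul, trace_smul, smul_eq_mul, Complex.re_ofReal_mul] at k1
    have hAt : (lamM r lam + Dl r (H - (t : ℂ) • Z)).IsHermitian :=
      (lamM_herm r lam).add (Dl_herm hHt)
    have k2 := klein hAt hB'h
    have e2 : lamM r lam + Dl r (H - (t : ℂ) • Z) - B' = -((t : ℂ) • Dl r Z) := by
      rw [hB', Dl_sub, Dl_smul]; abel
    rw [e2, Matrix.neg_mul, Matrix.smul_mul, trace_neg, trace_smul, trace_Dl_mul hB'BD.exp,
      Complex.neg_re, smul_eq_mul, Complex.re_ofReal_mul] at k2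
    have k3 := hmin _ hHt
    unfold EE at k3
    rw [Matrix.mul_sub, Matrix.mul_smul, trace_sub, trace_smul, Complex.sub_re, smul_eq_mul,
      Complex.re_ofReal_mul] at k3
    have k4 : t * ((Z * exp (H - (t : ℂ) • Z)).trace.re - (Z * exp B').trace.re -
        (ω * Z).trace.re) ≤ 0 := by
      rw [← hB'] at k3
      linarith
    by_contra hcon
    rw [not_le] at hcon
    have := mul_pos ht hcon
    linarith
  have hcont : Continuous fun t : ℝ => (Z * exp (H - (t : ℂ) • Z)).trace.re -
      (Z * exp B').trace.re - (ω * Z).trace.re := by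
    have h1 : Continuous fun t : ℝ => H - (t : ℂ) • Z :=
      continuous_const.sub (Complex.continuous_ofReal.smul continuous_const)
    have h2 : Continuous fun t : ℝ => (Z * exp (H - (t : ℂ) • Z)).trace.re :=
      Complex.continuous_re.comp
        ((continuous_const.matrix_mul (matrix_exp_continuous.comp h1)).matrix_trace)
    exact (h2.sub continuous_const).sub continuous_const
  have hlim := (hcont.tendsto 0).mono_left (nhdsWithin_le_nhds (s := Set.Ioi 0))
  have hle := le_of_tendsto hlim (by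
    filter_upwards [self_mem_nhdsWithin] with t ht
    exact key t ht)
  have hZZ : (Zᴴ * Z).trace.re ≤ 0 := by
    rw [hZh.eq]
    have e3 : (Z * Z).trace = (Z * exp H).trace - (Z * exp B').trace - (Z * ω).trace := by
      conv_lhs => rw [show Z * Z = Z * (exp H - exp B' - ω) from rfl]
      rw [Matrix.mul_sub, Matrix.mul_sub, trace_sub, trace_sub]
    rw [e3, Complex.sub_re, Complex.sub_re, trace_mul_comm Z ω]
    simpa using hle
  have hpsd := posSemidef_conjTranspose_mul_self Z
  have htr := Complex.nonneg_iff.1 hpsd.trace_nonneg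
  have hz0 : (Zᴴ * Z).trace = 0 := by
    apply Complex.ext
    · rw [Complex.zero_re]; exact le_antisymm hZZ htr.1
    · rw [Complex.zero_im]; exact htr.2.symm
  have hZ0 : Z = 0 := trace_conjTranspose_mul_self_eq_zero_iff.1 hz0
  rw [hZ] at hZ0
  exact sub_eq_zero.1 hZ0

/-- **Existence** together with the variational lower bound for the entropy. -/
theorem exists_H {r : J → R} {lam : R → ℝ} {c : ℝ} (hc1 : c < 1)
    (hc : ∀ p, Real.exp (lam (r p)) ≤ c) (hc0 : 0 ≤ c) {ω : Matrix J J ℂ} (hω : ω.PosDef) :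
    ∃ H : Matrix J J ℂ, H.IsHermitian ∧ exp H - exp (lamM r lam + Dl r H) = ω ∧
      ∀ N : Matrix J J ℂ, N.PosSemidef → BD r N →
        ent N + (N * lamM r lam).trace.re - (ω * H).trace.re ≤ ent (ω + N) := by
  obtain ⟨H, hH, hmin⟩ := exists_min_EE hc1 hc hc0 hω
  have hst := stationary hω.isHermitian hH hmin
  refine ⟨H, hH, hst, fun N hN hNBD => ?_⟩
  obtain ⟨V, hV, k, hk1, hk2⟩ := exists_log (hω.add_posSemidef hN)
  set H' := sd V k with hH'
  have hH'h : H'.IsHermitian := sd_herm V k
  have hg := gibbs hN ((lamM_herm r lam).add (Dl_herm (r := r) hH'h))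
  have hm := hmin H' hH'h
  unfold EE at hm
  rw [hk1] at hm
  -- trace identities
  have t1 : (ω + N).trace.re = ω.trace.re + N.trace.re := by rw [trace_add, Complex.add_re]
  have t2 : ((ω + N) * H').trace.re = (ω * H').trace.re + (N * H').trace.re := by
    rw [Matrix.add_mul, trace_add, Complex.add_re]
  have t3 : (N * (lamM r lam + Dl r H')).trace.re =
      (N * lamM r lam).trace.re + (N * H').trace.re := by
    rw [Matrix.mul_add, trace_add, Complex.add_re, trace_mul_comm N (Dl r H'),
      trace_Dl_mul hNBD, trace_mul_comm H' N]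
  have t4 : (exp H).trace.re - (exp (lamM r lam + Dl r H)).trace.re = ω.trace.re := by
    rw [← Complex.sub_re, ← trace_sub, hst]
  rw [t1] at hm
  rw [t2] at hk2
  rw [t3] at hg
  linarith

end

end Vale.Agent.P358
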