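import Vale.Agent.P358_h28.GenAct
import Vale.Agent.P358_h28.Ent

/-!
Matrix exponentials of Hermitian matrices, trace inequalities.
-/

open Matrix NormedSpace
open scoped ComplexOrder

namespace Vale.Agent.P358

variable {ι : Type} [Fintype ι] [DecidableEq ι]

set_option backward.isDefEq.respectTransparency false in
theorem matrix_exp_continuous : Continuous (exp : Matrix ι ι ℂ → Matrix ι ι ℂ) := by
  open scoped Matrix.Norms.Operator in exact exp_continuous

/-- spectral form -/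
noncomputable def sd (V : Matrix ι ι ℂ) (d : ι → ℝ) : Matrix ι ι ℂ :=
  V * diagonal (fun k => ((d k : ℝ) : ℂ)) * Vᴴ

theorem exists_sd {A : Matrix ι ι ℂ} (hA : A.IsHermitian) :
    ∃ V ∈ Matrix.unitaryGroup ι ℂ, A = sd V hA.eigenvalues := exists_spectral hA

theorem star_mul_self_of_mem {V : Matrix ι ι ℂ} (hV : V ∈ Matrix.unitaryGroup ι ℂ) :
    Vᴴ * V = 1 := by
  have := Matrix.mem_unitaryGroup_iff'.1 hV
  rwa [star_eq_conjTranspose] at this

theorem mul_star_self_of_mem {V : Matrix ι ι ℂ} (hV : V ∈ Matrix.unitaryGroup ι ℂ) :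
    V * Vᴴ = 1 := by
  have := Matrix.mem_unitaryGroup_iff.1 hV
  rwa [star_eq_conjTranspose] at this

theorem exp_sd {V : Matrix ι ι ℂ} (hV : V ∈ Matrix.unitaryGroup ι ℂ) (d : ι → ℝ) :
    exp (sd V d) = sd V fun k => Real.exp (d k) := by
  have h1 := star_mul_self_of_mem hV
  have h2 := mul_star_self_of_mem hV
  have hu : IsUnit V := ⟨⟨V, Vᴴ, h2, h1⟩, rfl⟩
  have hinv : V⁻¹ = Vᴴ := Matrix.inv_eq_right_inv h2
  unfold sd
  rw [← hinv, Matrix.exp_conj _ _ hu, Matrix.exp_diagonal]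
  have h3 : exp (fun k => ((d k : ℝ) : ℂ)) = fun k => ((Real.exp (d k) : ℝ) : ℂ) := by
    funext k
    rw [Pi.coe_exp, ← Complex.exp_eq_exp_ℂ, Complex.ofReal_exp]
  rw [h3]

theorem sd_mul {V : Matrix ι ι ℂ} (hV : V ∈ Matrix.unitaryGroup ι ℂ) (a b : ι → ℝ) :
    sd V a * sd V b = sd V fun k => a k * b k := by
  have h1 := star_mul_self_of_mem hV
  unfold sd
  have : V * diagonal (fun k => ((a k : ℝ) : ℂ)) * Vᴴ * (V * diagonal (fun k => ((b k : ℝ) : ℂ)) * Vᴴ)
      = V * (diagonal (fun k => ((a k : ℝ) : ℂ)) * (Vᴴ * V) * diagonal (fun k => ((b k : ℝ) : ℂ)))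
        * Vᴴ := by
    simp only [Matrix.mul_assoc]
  rw [this, h1, Matrix.mul_one, diagonal_mul_diagonal]
  simp only [Complex.ofReal_mul]

theorem sd_herm (V : Matrix ι ι ℂ) (a : ι → ℝ) : (sd V a).IsHermitian := by
  unfold sd
  rw [IsHermitian, conjTranspose_mul, conjTranspose_mul, conjTranspose_conjTranspose,
    diagonal_conjTranspose, Matrix.mul_assoc]
  congr 3
  funext k
  simp

theorem sd_posSemidef (V : Matrix ι ι ℂ) {a : ι → ℝ} (ha : ∀ k, 0 ≤ a k) :
    (sd V a).PosSemidef := by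
  unfold sd
  refine PosSemidef.mul_mul_conjTranspose_same (PosSemidef.diagonal ?_) V
  intro k
  simpa using ha k

theorem trace_sd {V : Matrix ι ι ℂ} (hV : V ∈ Matrix.unitaryGroup ι ℂ) (a : ι → ℝ) :
    (sd V a).trace.re = ∑ k, a k := by
  unfold sd
  rw [trace_mul_comm, ← Matrix.mul_assoc, star_mul_self_of_mem hV, Matrix.one_mul, trace_diagonal,
    Complex.re_sum]
  simp

theorem ent_sd {V : Matrix ι ι ℂ} (hV : V ∈ Matrix.unitaryGroup ι ℂ) (a : ι → ℝ) :
    ent (sd V a) = ∑ k, Real.negMulLog (a k) := by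
  unfold sd
  rw [ent_unitary_conj hV, ent_diagonal]

theorem trace_sd_mul_sd (V W : Matrix ι ι ℂ) (a b : ι → ℝ) :
    ((sd V a) * (sd W b)).trace.re = ∑ i, ∑ j, Complex.normSq ((Vᴴ * W) i j) * (a i * b j) := by
  unfold sd
  have h : (V * diagonal (fun k => ((a k : ℝ) : ℂ)) * Vᴴ * (W * diagonal (fun k => ((b k : ℝ) : ℂ)) *
      Wᴴ)).trace = (diagonal (fun k => ((a k : ℝ) : ℂ)) * ((Vᴴ * W) *
      diagonal (fun k => ((b k : ℝ) : ℂ)) * (Vᴴ * W)ᴴ)).trace := by
    rw [conjTranspose_mul, conjTranspose_conjTranspose]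
    rw [show V * diagonal (fun k => ((a k : ℝ) : ℂ)) * Vᴴ * (W * diagonal (fun k => ((b k : ℝ) : ℂ)) *
      Wᴴ) = V * (diagonal (fun k => ((a k : ℝ) : ℂ)) * Vᴴ * W * diagonal (fun k => ((b k : ℝ) : ℂ)) *
      Wᴴ) by simp only [Matrix.mul_assoc], trace_mul_comm]
    simp only [Matrix.mul_assoc]
  rw [h, trace, Complex.re_sum]
  refine Finset.sum_congr rfl fun i _ => ?_
  rw [diag_apply, diagonal_mul, Complex.re_ofReal_mul, diag_conj_entry, Finset.mul_sum]
  refine Finset.sum_congr rfl fun j _ => ?_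
  ring

theorem conj_mul_mem {V W : Matrix ι ι ℂ} (hV : V ∈ Matrix.unitaryGroup ι ℂ)
    (hW : W ∈ Matrix.unitaryGroup ι ℂ) : Vᴴ * W ∈ Matrix.unitaryGroup ι ℂ :=
  mul_mem (by
    have := Unitary.star_mem hV
    rwa [star_eq_conjTranspose] at this) hW

theorem sum_ij_left {V W : Matrix ι ι ℂ} (hV : V ∈ Matrix.unitaryGroup ι ℂ)
    (hW : W ∈ Matrix.unitaryGroup ι ℂ) (f : ι → ℝ) :
    ∑ i, f i = ∑ i, ∑ j, Complex.normSq ((Vᴴ * W) i j) * f i := by
  refine Finset.sum_congr rfl fun i _ => ?_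
  rw [← Finset.sum_mul, unitary_row_sum (conj_mul_mem hV hW), one_mul]

theorem sum_ij_right {V W : Matrix ι ι ℂ} (hV : V ∈ Matrix.unitaryGroup ι ℂ)
    (hW : W ∈ Matrix.unitaryGroup ι ℂ) (f : ι → ℝ) :
    ∑ j, f j = ∑ i, ∑ j, Complex.normSq ((Vᴴ * W) i j) * f j := by
  rw [Finset.sum_comm]
  refine Finset.sum_congr rfl fun j _ => ?_
  rw [← Finset.sum_mul, unitary_col_sum (conj_mul_mem hV hW), one_mul]

/-- Klein's inequality for the exponential -/
theorem klein {A B : Matrix ι ι ℂ} (hA : A.IsHermitian) (hB : B.IsHermitian) :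
    (exp B).trace.re + ((A - B) * exp B).trace.re ≤ (exp A).trace.re := by
  obtain ⟨V, hV, hAV⟩ := exists_sd hA
  obtain ⟨W, hW, hBW⟩ := exists_sd hB
  generalize hA.eigenvalues = a at hAV
  generalize hB.eigenvalues = b at hBW
  subst hAV hBW
  rw [exp_sd hV, exp_sd hW, Matrix.sub_mul, trace_sub, Complex.sub_re, sd_mul hW, trace_sd hV,
    trace_sd hW, trace_sd hW, trace_sd_mul_sd, sum_ij_left hV hW (fun k => Real.exp (a k)),
    sum_ij_right hV hW (fun k => Real.exp (b k)),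
    sum_ij_right hV hW (fun k => b k * Real.exp (b k)), ← Finset.sum_sub_distrib,
    ← Finset.sum_add_distrib]
  refine Finset.sum_le_sum fun i _ => ?_
  rw [← Finset.sum_sub_distrib, ← Finset.sum_add_distrib]
  refine Finset.sum_le_sum fun j _ => ?_
  rw [← mul_sub, ← mul_add]
  refine mul_le_mul_of_nonneg_left ?_ (Complex.normSq_nonneg _)
  have h1 : (a i - b j) + 1 ≤ Real.exp (a i - b j) := Real.add_one_le_exp _
  have h2 : Real.exp (a i) = Real.exp (b j) * Real.exp (a i - b j) := by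
    rw [← Real.exp_add]; ring_nf
  rw [h2]
  nlinarith [Real.exp_pos (b j)]

theorem gibbs_scalar {a k : ℝ} (ha : 0 ≤ a) : Real.negMulLog a ≤ Real.exp k - a * k - a := by
  rcases ha.eq_or_lt with h | h
  · rw [← h]; simp [Real.exp_nonneg]
  · have h1 : (k - Real.log a) + 1 ≤ Real.exp (k - Real.log a) := Real.add_one_le_exp _
    have h2 : Real.exp k = a * Real.exp (k - Real.log a) := by
      rw [Real.exp_sub, Real.exp_log h]; field_simp
    rw [h2, Real.negMulLog]
    nlinarith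

/-- Gibbs variational inequality -/
theorem gibbs {A K : Matrix ι ι ℂ} (hA : A.PosSemidef) (hK : K.IsHermitian) :
    ent A ≤ (exp K).trace.re - (A * K).trace.re - A.trace.re := by
  obtain ⟨V, hV, hAV⟩ := exists_sd hA.isHermitian
  obtain ⟨W, hW, hKW⟩ := exists_sd hK
  have ha : ∀ k, 0 ≤ hA.isHermitian.eigenvalues k := fun k => hA.eigenvalues_nonneg k
  generalize hA.isHermitian.eigenvalues = a at hAV ha
  generalize hK.eigenvalues = k at hKW
  subst hAV hKW
  have e1 := sum_ij_left hV hW (fun k => Real.negMulLog (a k))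
  have e2 := sum_ij_left hV hW a
  have e3 := sum_ij_right hV hW (fun j => Real.exp (k j))
  rw [exp_sd hW, ent_sd hV, trace_sd hW, trace_sd hV, trace_sd_mul_sd, e1, e2, e3,
    ← Finset.sum_sub_distrib, ← Finset.sum_sub_distrib]
  refine Finset.sum_le_sum fun i _ => ?_
  rw [← Finset.sum_sub_distrib, ← Finset.sum_sub_distrib]
  refine Finset.sum_le_sum fun j _ => ?_
  rw [← mul_sub, ← mul_sub]
  exact mul_le_mul_of_nonneg_left (gibbs_scalar (ha i)) (Complex.normSq_nonneg _)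

/-- logarithm of a positive definite matrix -/
theorem exists_log {A : Matrix ι ι ℂ} (hA : A.PosDef) :
    ∃ V ∈ Matrix.unitaryGroup ι ℂ, ∃ k : ι → ℝ, exp (sd V k) = A ∧
      ent A = -(A * sd V k).trace.re := by
  obtain ⟨V, hV, hAV⟩ := exists_sd hA.isHermitian
  have ha : ∀ k, 0 < hA.isHermitian.eigenvalues k := fun k => hA.eigenvalues_pos k
  generalize hA.isHermitian.eigenvalues = a at hAV ha
  subst hAV
  refine ⟨V, hV, fun k => Real.log (a k), ?_, ?_⟩
  · rw [exp_sd hV]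
    congr 1
    funext k
    exact Real.exp_log (ha k)
  · rw [ent_sd hV, sd_mul hV, trace_sd hV, ← Finset.sum_neg_distrib]
    refine Finset.sum_congr rfl fun k _ => ?_
    rw [Real.negMulLog]; ring

theorem exp_herm_posSemidef {A : Matrix ι ι ℂ} (hA : A.IsHermitian) : (exp A).PosSemidef := by
  obtain ⟨V, hV, hAV⟩ := exists_sd hA
  rw [hAV, exp_sd hV]
  exact sd_posSemidef V fun k => (Real.exp_pos _).le

end Vale.Agent.P358
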