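import Vale.Agent.P358_h28.GenMain

/-!
The key inequality for all parameters.
-/

open Matrix
open scoped ComplexOrder

set_option linter.unusedSectionVars false

namespace Vale.Agent.P358

section
variable {ι κ : Type} [Fintype ι] [DecidableEq ι] [Fintype κ] [DecidableEq κ]

theorem ent_blocks {A : Matrix ι ι ℂ} {B : Matrix κ κ ℂ} (hA : A.IsHermitian)
    (hB : B.IsHermitian) : ent (fromBlocks A 0 0 B) = ent A + ent B := by
  have hC : (fromBlocks A 0 0 B).IsHermitian := IsHermitian.fromBlocks hA (by simp) hB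
  rw [ent_eq_roots hA, ent_eq_roots hB, ent_eq_roots hC, charpoly_fromBlocks_zero₁₂,
    Polynomial.roots_mul]
  · rw [Multiset.map_add, Multiset.sum_add]
  · exact mul_ne_zero (charpoly_monic A).ne_zero (charpoly_monic B).ne_zero

/-- the coherent part -/
def omM (α α' k : ℝ) (U W : Matrix ι κ ℂ) : Matrix (ι ⊕ ι) (ι ⊕ ι) ℂ :=
  fromBlocks ((α : ℂ) • (U * Uᴴ)) ((k : ℂ) • (U * Wᴴ)) ((k : ℂ) • (W * Uᴴ))
    ((α' : ℂ) • (W * Wᴴ))

theorem vecMul_eq_zero_of_posDef {U : Matrix ι κ ℂ} (hU : (U * Uᴴ).PosDef) {x : ι → ℂ}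
    (hx : x ᵥ* U = 0) : x = 0 := by
  have h1 : x ᵥ* (U * Uᴴ) = 0 := by
    rw [← vecMul_vecMul, hx, zero_vecMul]
  have h2 := Matrix.vecMul_injective_of_isUnit hU.isUnit
  apply h2
  simpa using h1

theorem omM_posDef {α α' k : ℝ} (hα : 0 < α) (hk : k ^ 2 < α * α') {U W : Matrix ι κ ℂ}
    (hU : (U * Uᴴ).PosDef) (hW : (W * Wᴴ).PosDef) : (omM α α' k U W).PosDef := by
  set s : ℝ := Real.sqrt α with hs
  have hs0 : 0 < s := Real.sqrt_pos.2 hα
  have hss : s * s = α := Real.mul_self_sqrt hα.le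
  have hδ : 0 < α' - k ^ 2 / α := by
    rw [sub_pos, div_lt_iff₀ hα]; linarith
  set t : ℝ := Real.sqrt (α' - k ^ 2 / α) with ht
  have ht0 : 0 < t := Real.sqrt_pos.2 hδ
  have htt : t * t = α' - k ^ 2 / α := Real.mul_self_sqrt hδ.le
  set Q : Matrix (ι ⊕ ι) (κ ⊕ κ) ℂ :=
    fromBlocks ((s : ℂ) • U) 0 (((k / s : ℝ) : ℂ) • W) ((t : ℂ) • W) with hQ
  have hQQ : Q * Qᴴ = omM α α' k U W := by
    rw [hQ, fromBlocks_conjTranspose, fromBlocks_multiply]
    unfold omM
    simp only [conjTranspose_smul, conjTranspose_zero, Matrix.mul_zero, Matrix.zero_mul, smul_zero,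
      add_zero, Matrix.smul_mul, Matrix.mul_smul, smul_smul, RCLike.star_def, Complex.conj_ofReal,
      ← Complex.ofReal_mul, ← add_smul, ← Complex.ofReal_add, hss, htt]
    congr 3
    · field_simp
    · field_simp
    · have h2 : k / s * (k / s) = k ^ 2 / α := by rw [← hss]; field_simp
      rw [h2]; ring
  rw [← hQQ]
  refine PosDef.mul_conjTranspose_self Q ?_
  intro x y hxy
  have hz : (x - y) ᵥ* Q = 0 := by
    rw [sub_vecMul]; exact sub_eq_zero.2 hxy
  set z := x - y with hzdef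
  rw [hQ, vecMul_fromBlocks] at hz
  have h1 : (z ∘ Sum.inl) ᵥ* (0 : Matrix ι κ ℂ) + (z ∘ Sum.inr) ᵥ* ((t : ℂ) • W) = 0 := by
    funext j
    exact congrFun hz (Sum.inr j)
  have h2 : (z ∘ Sum.inl) ᵥ* ((s : ℂ) • U) + (z ∘ Sum.inr) ᵥ* (((k / s : ℝ) : ℂ) • W) = 0 := by
    funext j
    exact congrFun hz (Sum.inl j)
  rw [vecMul_zero, zero_add, vecMul_smul] at h1
  have hz1 : z ∘ Sum.inr = 0 := by
    apply vecMul_eq_zero_of_posDef hW
    exact (smul_eq_zero.1 h1).resolve_left (by exact_mod_cast ht0.ne')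
  rw [hz1, zero_vecMul, add_zero, vecMul_smul] at h2
  have hz0 : z ∘ Sum.inl = 0 := by
    apply vecMul_eq_zero_of_posDef hU
    exact (smul_eq_zero.1 h2).resolve_left (by exact_mod_cast hs0.ne')
  have hz' : z = 0 := by
    funext j
    rcases j with j | j
    · exact congrFun hz0 j
    · exact congrFun hz1 j
  exact sub_eq_zero.1 hz'

/-- the scalar `2 × 2` matrix -/
noncomputable def wM (α α' k a b : ℝ) : Matrix (Fin 2) (Fin 2) ℂ :=
  !![((α * a : ℝ) : ℂ), ((k * (Real.sqrt a * Real.sqrt b) : ℝ) : ℂ);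
     ((k * (Real.sqrt a * Real.sqrt b) : ℝ) : ℂ), ((α' * b : ℝ) : ℂ)]

theorem wM_posDef {α α' k a b : ℝ} (hα : 0 < α) (hk : k ^ 2 < α * α') (ha : 0 < a) (hb : 0 < b) :
    (wM α α' k a b).PosDef := by
  set s : ℝ := Real.sqrt α with hs
  have hs0 : 0 < s := Real.sqrt_pos.2 hα
  have hss : s * s = α := Real.mul_self_sqrt hα.le
  have hδ : 0 < α' - k ^ 2 / α := by
    rw [sub_pos, div_lt_iff₀ hα]; linarith
  set t : ℝ := Real.sqrt (α' - k ^ 2 / α) with ht
  have ht0 : 0 < t := Real.sqrt_pos.2 hδ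
  have htt : t * t = α' - k ^ 2 / α := Real.mul_self_sqrt hδ.le
  set x := Real.sqrt a with hx
  set y := Real.sqrt b with hy
  have hx0 : 0 < x := Real.sqrt_pos.2 ha
  have hy0 : 0 < y := Real.sqrt_pos.2 hb
  have hxx : x * x = a := Real.mul_self_sqrt ha.le
  have hyy : y * y = b := Real.mul_self_sqrt hb.le
  set Q : Matrix (Fin 2) (Fin 2) ℂ :=
    !![((s * x : ℝ) : ℂ), 0; ((k / s * y : ℝ) : ℂ), ((t * y : ℝ) : ℂ)] with hQ
  have hQQ : Q * Qᴴ = wM α α' k a b := by
    unfold wM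
    rw [hQ, ← hx, ← hy]
    ext i j
    fin_cases i <;> fin_cases j <;>
      simp only [Matrix.mul_apply, Fin.sum_univ_two, conjTranspose_apply, Fin.zero_eta, Fin.mk_one,
        of_apply, cons_val_zero, cons_val_one, cons_val', cons_val_fin_one,
        RCLike.star_def, Complex.conj_ofReal, map_zero, mul_zero, zero_mul, add_zero,
        ← Complex.ofReal_mul, ← Complex.ofReal_add]
    · congr 1; rw [← hss, ← hxx]; ring
    · congr 1; field_simp
    · congr 1; field_simp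
    · congr 1
      have h2 : k / s * y * (k / s * y) = k ^ 2 / α * b := by rw [← hss, ← hyy]; field_simp
      have h3 : t * y * (t * y) = (t * t) * (y * y) := by ring
      rw [h2, h3, htt, hyy]; ring
  rw [← hQQ]
  refine PosDef.mul_conjTranspose_self Q ?_
  apply Matrix.vecMul_injective_of_isUnit
  rw [Matrix.isUnit_iff_isUnit_det, isUnit_iff_ne_zero, hQ, det_fin_two_of]
  have : s * x * (t * y) ≠ 0 := by positivity
  simp only [zero_mul, sub_zero, ← Complex.ofReal_mul]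
  exact_mod_cast this

/-- row index -/
def rr (ι : Type) : ι ⊕ ι → Fin 2 := Sum.elim (fun _ => 0) (fun _ => 1)

theorem P5_blocks [Nonempty ι] {α α' k : ℝ} (hα : 0 < α) (hk : k ^ 2 < α * α')
    {U W : Matrix ι κ ℂ} {u w : ι → ℝ} (hu : ∀ i, 0 < u i) (hw : ∀ i, 0 < w i)
    (hU : U * Uᴴ = diagonal fun i => ((u i : ℝ) : ℂ))
    (hW : W * Wᴴ = diagonal fun i => ((w i : ℝ) : ℂ))
    {N0 N1 : Matrix ι ι ℂ} (hN0 : N0.PosSemidef) (hN1 : N1.PosSemidef)
    (hn0 : 0 < N0.trace.re) (hn1 : 0 < N1.trace.re) :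
    ent N0 + ent N1 + eta2 (α * (∑ i, u i) + N0.trace.re + (α' * (∑ i, w i) + N1.trace.re))
        ((α * (∑ i, u i) + N0.trace.re) * (α' * (∑ i, w i) + N1.trace.re) -
          k ^ 2 * ((∑ i, u i) * (∑ i, w i)))
      - Real.negMulLog N0.trace.re - Real.negMulLog N1.trace.re
      + ∑ i, Real.negMulLog (α * u i) + ∑ i, Real.negMulLog (α' * w i)
      - Real.negMulLog (α * ∑ i, u i) - Real.negMulLog (α' * ∑ i, w i) ≤
      ent (omM α α' k U W + fromBlocks N0 0 0 N1) := by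
  set a := ∑ i, u i with ha
  set b := ∑ i, w i with hb
  have ha0 : 0 < a := Finset.sum_pos (fun i _ => hu i) Finset.univ_nonempty
  have hb0 : 0 < b := Finset.sum_pos (fun i _ => hw i) Finset.univ_nonempty
  set x := Real.sqrt a with hx
  set y := Real.sqrt b with hy
  have hx0 : 0 < x := Real.sqrt_pos.2 ha0
  have hy0 : 0 < y := Real.sqrt_pos.2 hb0
  have hxx : x * x = a := Real.mul_self_sqrt ha0.le
  have hyy : y * y = b := Real.mul_self_sqrt hb0.le
  have hxc : ((x : ℝ) : ℂ) ≠ 0 := by exact_mod_cast hx0.ne'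
  have hyc : ((y : ℝ) : ℂ) ≠ 0 := by exact_mod_cast hy0.ne'
  have hxxc : ((x : ℝ) : ℂ) * ((x : ℝ) : ℂ) = ((a : ℝ) : ℂ) := by rw [← Complex.ofReal_mul, hxx]
  have hyyc : ((y : ℝ) : ℂ) * ((y : ℝ) : ℂ) = ((b : ℝ) : ℂ) := by rw [← Complex.ofReal_mul, hyy]
  have hUpd : (U * Uᴴ).PosDef := by
    rw [hU]; exact PosDef.diagonal fun i => by exact_mod_cast hu i
  have hWpd : (W * Wᴴ).PosDef := by
    rw [hW]; exact PosDef.diagonal fun i => by exact_mod_cast hw i
  have hω := omM_posDef hα hk hUpd hWpd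
  have hwp := wM_posDef hα hk ha0 hb0
  set n : Fin 2 → ℝ := ![N0.trace.re, N1.trace.re] with hn
  set vv : κ → ι ⊕ ι → ℂ := fun c => Sum.elim (fun i => U i c / (x : ℂ)) (fun i => W i c / (y : ℂ))
    with hvv
  have hNpsd : (fromBlocks N0 0 0 N1).PosSemidef := by
    have := hN0
    refine PosSemidef.of_dotProduct_mulVec_nonneg
      (IsHermitian.fromBlocks hN0.isHermitian (by simp) hN1.isHermitian) fun z => ?_
    rw [fromBlocks_mulVec]
    have e : star z ⬝ᵥ Sum.elim (N0 *ᵥ (z ∘ Sum.inl) + (0 : Matrix ι ι ℂ) *ᵥ (z ∘ Sum.inr))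
        ((0 : Matrix ι ι ℂ) *ᵥ (z ∘ Sum.inl) + N1 *ᵥ (z ∘ Sum.inr)) =
        star (z ∘ Sum.inl) ⬝ᵥ (N0 *ᵥ (z ∘ Sum.inl)) +
        star (z ∘ Sum.inr) ⬝ᵥ (N1 *ᵥ (z ∘ Sum.inr)) := by
      simp [dotProduct, Fintype.sum_sum_type]
    rw [e]
    exact add_nonneg (hN0.dotProduct_mulVec_nonneg _) (hN1.dotProduct_mulVec_nonneg _)
  have hUe : ∀ i j, ∑ c, U i c * star (U j c) = (U * Uᴴ) i j := fun i j => by
    simp [Matrix.mul_apply]
  have hWe : ∀ i j, ∑ c, W i c * star (W j c) = (W * Wᴴ) i j := fun i j => by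
    simp [Matrix.mul_apply]
  have key := main_P5 (r := rr ι) (n := n) (w := wM α α' k a b) (ω := omM α α' k U W)
    (N := fromBlocks N0 0 0 N1) ?_ hwp hω ?_ vv ?_ ?_ hNpsd ?_ ?_
  · -- translate
    have t1 : (wM α α' k a b + diagonal fun x => ((n x : ℝ) : ℂ)).trace.re =
        α * a + N0.trace.re + (α' * b + N1.trace.re) := by
      rw [trace_fin_two]
      simp [wM, hn]
    have t2 : (wM α α' k a b + diagonal fun x => ((n x : ℝ) : ℂ)).det.re =
        (α * a + N0.trace.re) * (α' * b + N1.trace.re) - k ^ 2 * (a * b) := by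
      rw [det_fin_two]
      simp only [wM, hn, Matrix.add_apply, of_apply, cons_val_zero, cons_val_one, cons_val',
        cons_val_fin_one, diagonal_apply_eq, ne_eq, zero_ne_one, not_false_eq_true,
        diagonal_apply_ne, one_ne_zero, add_zero, ← Complex.ofReal_add, ← Complex.ofReal_mul,
        ← Complex.ofReal_sub, Complex.ofReal_re]
      rw [← hx, ← hy, ← hxx, ← hyy]
      ring
    have hherm : (wM α α' k a b + diagonal fun x => ((n x : ℝ) : ℂ)).IsHermitian := by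
      refine hwp.isHermitian.add ?_
      rw [IsHermitian, diagonal_conjTranspose]
      congr 1
      funext z
      simp
    rw [ent_fin_two hherm, t1, t2, ent_blocks hN0.isHermitian hN1.isHermitian,
      Fintype.sum_sum_type, Fin.sum_univ_two, Fin.sum_univ_two] at key
    have e1 : ∀ i, (omM α α' k U W (Sum.inl i) (Sum.inl i)).re = α * u i := fun i => by
      simp [omM, hU]
    have e2 : ∀ i, (omM α α' k U W (Sum.inr i) (Sum.inr i)).re = α' * w i := fun i => by
      simp [omM, hW]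
    have e3 : (wM α α' k a b 0 0).re = α * a := by simp [wM]
    have e4 : (wM α α' k a b 1 1).re = α' * b := by simp [wM]
    simp only [e1, e2] at key
    rw [e3, e4] at key
    have e5 : n 0 = N0.trace.re := rfl
    have e6 : n 1 = N1.trace.re := rfl
    rw [e5, e6] at key
    linarith
  · intro z
    fin_cases z
    · exact hn0
    · exact hn1
  · intro p q hpq hne
    rcases p with i | i <;> rcases q with j | j
    · have : i ≠ j := fun h => hne (by rw [h])
      simp [omM, hU, this]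
    · simp [rr] at hpq
    · simp [rr] at hpq
    · have : i ≠ j := fun h => hne (by rw [h])
      simp [omM, hW, this]
  · intro p q
    rcases p with i | i <;> rcases q with j | j
    · simp only [hvv, Sum.elim_inl, rr, wM, omM, fromBlocks_apply₁₁, Matrix.smul_apply, smul_eq_mul,
        of_apply, cons_val_zero, cons_val', cons_val_fin_one]
      rw [← hUe j i, Finset.mul_sum Finset.univ (fun c => U j c * star (U i c))]
      refine Finset.sum_congr rfl fun c _ => ?_
      rw [star_div₀, RCLike.star_def, Complex.conj_ofReal, Complex.ofReal_mul, ← hxxc]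
      field_simp
    · simp only [hvv, Sum.elim_inl, Sum.elim_inr, rr, wM, omM, fromBlocks_apply₂₁, Matrix.smul_apply,
        smul_eq_mul, of_apply, cons_val_zero, cons_val_one, cons_val', cons_val_fin_one]
      rw [Matrix.mul_apply, Finset.mul_sum]
      refine Finset.sum_congr rfl fun c _ => ?_
      rw [star_div₀, RCLike.star_def, Complex.conj_ofReal, conjTranspose_apply, RCLike.star_def]
      rw [← hx, ← hy]
      push_cast
      field_simp
    · simp only [hvv, Sum.elim_inl, Sum.elim_inr, rr, wM, omM, fromBlocks_apply₁₂, Matrix.smul_apply,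
        smul_eq_mul, of_apply, cons_val_zero, cons_val_one, cons_val', cons_val_fin_one]
      rw [Matrix.mul_apply, Finset.mul_sum]
      refine Finset.sum_congr rfl fun c _ => ?_
      rw [star_div₀, RCLike.star_def, Complex.conj_ofReal, conjTranspose_apply, RCLike.star_def]
      rw [← hx, ← hy]
      push_cast
      field_simp
    · simp only [hvv, Sum.elim_inr, rr, wM, omM, fromBlocks_apply₂₂, Matrix.smul_apply, smul_eq_mul,
        of_apply, cons_val_one, cons_val', cons_val_fin_one]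
      rw [← hWe j i, Finset.mul_sum Finset.univ (fun c => W j c * star (W i c))]
      refine Finset.sum_congr rfl fun c _ => ?_
      rw [star_div₀, RCLike.star_def, Complex.conj_ofReal, Complex.ofReal_mul, ← hyyc]
      field_simp
  · intro f
    rw [Fintype.sum_sum_type, Fin.sum_univ_two]
    have e1 : ∀ i, (omM α α' k U W (Sum.inl i) (Sum.inl i)).re = α * u i := fun i => by
      simp [omM, hU]
    have e2 : ∀ i, (omM α α' k U W (Sum.inr i) (Sum.inr i)).re = α' * w i := fun i => by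
      simp [omM, hW]
    have e3 : (wM α α' k a b 0 0).re = α * a := by simp [wM]
    have e4 : (wM α α' k a b 1 1).re = α' * b := by simp [wM]
    simp only [e1, e2, e3, e4, rr, Sum.elim_inl, Sum.elim_inr]
    rw [ha, hb, Finset.mul_sum, Finset.mul_sum, Finset.mul_sum, Finset.mul_sum]
  · intro p q hpq
    rcases p with i | i <;> rcases q with j | j
    · simp [rr] at hpq
    · simp
    · simp
    · simp [rr] at hpq
  · intro f
    rw [Fintype.sum_sum_type, Fin.sum_univ_two]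
    simp only [rr, Sum.elim_inl, Sum.elim_inr, fromBlocks_apply₁₁, fromBlocks_apply₂₂]
    rw [← Finset.mul_sum, ← Finset.mul_sum]
    simp [hn, trace]

theorem ent_smul_conj {A V : Matrix ι ι ℂ} (hA : A.IsHermitian)
    (hV : V ∈ Matrix.unitaryGroup ι ℂ) (c : ℝ) :
    ent ((c : ℂ) • (Vᴴ * A * V)) = c * ent A + Real.negMulLog c * A.trace.re := by
  have hV' : Vᴴ ∈ Matrix.unitaryGroup ι ℂ := by
    have := Unitary.star_mem hV
    rwa [star_eq_conjTranspose] at this
  have h1 : (Vᴴ * A * V).IsHermitian := by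
    rw [IsHermitian, conjTranspose_mul, conjTranspose_mul, conjTranspose_conjTranspose, hA.eq,
      Matrix.mul_assoc]
  rw [ent_smul' h1]
  have h2 := ent_unitary_conj (A := A) hV'
  rw [conjTranspose_conjTranspose] at h2
  rw [h2, trace_mul_comm, ← Matrix.mul_assoc, mul_star_self_of_mem hV, Matrix.one_mul]

/-- key inequality for full-rank operators -/
theorem key_posDef [Nonempty ι] {γ ν : ℝ} (hγ0 : 0 < γ) (hγ1 : γ ≤ 1) (hν0 : 0 < ν) (hν1 : ν < 1)
    {U W : Matrix ι κ ℂ} (hU : (U * Uᴴ).PosDef) (hW : (W * Wᴴ).PosDef) :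
    ent (U * Uᴴ) + ent (W * Wᴴ) + G γ ν (hs U) (hs W) ≤ ent (outBlock γ ν U W) := by
  set α := 1 - γ * ν with hα
  set α' := 1 - γ * (1 - ν) with hα'
  set β := γ * (1 - ν) with hβ
  set β' := γ * ν with hβ'
  set k := Real.sqrt (1 - γ) with hk
  have hkk : k ^ 2 = 1 - γ := Real.sq_sqrt (by linarith)
  have hβ0 : 0 < β := mul_pos hγ0 (by linarith)
  have hβ'0 : 0 < β' := mul_pos hγ0 hν0
  have hα0 : 0 < α := by
    have : γ * ν < 1 := by nlinarith
    rw [hα]; linarith
  have hk2 : k ^ 2 < α * α' := by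
    have h1 : α * α' - k ^ 2 = β * β' := by rw [hkk, hα, hα', hβ, hβ']; ring
    have h2 : 0 < β * β' := mul_pos hβ0 hβ'0
    linarith
  obtain ⟨V0, hV0, hUV⟩ := exists_sd hU.isHermitian
  obtain ⟨V1, hV1, hWV⟩ := exists_sd hW.isHermitian
  have hu : ∀ i, 0 < hU.isHermitian.eigenvalues i := fun i => hU.eigenvalues_pos i
  have hw : ∀ i, 0 < hW.isHermitian.eigenvalues i := fun i => hW.eigenvalues_pos i
  generalize hU.isHermitian.eigenvalues = u at hUV hu
  generalize hW.isHermitian.eigenvalues = w at hWV hw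
  have s0 := star_mul_self_of_mem hV0
  have s0' := mul_star_self_of_mem hV0
  have s1 := star_mul_self_of_mem hV1
  have s1' := mul_star_self_of_mem hV1
  have hUt : (V0ᴴ * U) * (V0ᴴ * U)ᴴ = diagonal fun i => ((u i : ℝ) : ℂ) := by
    rw [conjTranspose_mul, conjTranspose_conjTranspose]
    calc V0ᴴ * U * (Uᴴ * V0) = V0ᴴ * (U * Uᴴ) * V0 := by simp only [Matrix.mul_assoc]
      _ = (V0ᴴ * V0) * (diagonal fun i => ((u i : ℝ) : ℂ)) * (V0ᴴ * V0) := by
          rw [hUV, sd]; simp only [Matrix.mul_assoc]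
      _ = _ := by rw [s0, Matrix.one_mul, Matrix.mul_one]
  have hWt : (V1ᴴ * W) * (V1ᴴ * W)ᴴ = diagonal fun i => ((w i : ℝ) : ℂ) := by
    rw [conjTranspose_mul, conjTranspose_conjTranspose]
    calc V1ᴴ * W * (Wᴴ * V1) = V1ᴴ * (W * Wᴴ) * V1 := by simp only [Matrix.mul_assoc]
      _ = (V1ᴴ * V1) * (diagonal fun i => ((w i : ℝ) : ℂ)) * (V1ᴴ * V1) := by
          rw [hWV, sd]; simp only [Matrix.mul_assoc]
      _ = _ := by rw [s1, Matrix.one_mul, Matrix.mul_one]
  set N0 : Matrix ι ι ℂ := (β : ℂ) • (V0ᴴ * (W * Wᴴ) * V0) with hN0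
  set N1 : Matrix ι ι ℂ := (β' : ℂ) • (V1ᴴ * (U * Uᴴ) * V1) with hN1
  have hN0p : N0.PosSemidef := by
    have h1 := hW.posSemidef.conjTranspose_mul_mul_same V0
    exact h1.smul (by exact_mod_cast hβ0.le)
  have hN1p : N1.PosSemidef := by
    have h1 := hU.posSemidef.conjTranspose_mul_mul_same V1
    exact h1.smul (by exact_mod_cast hβ'0.le)
  have ha : hs U = ∑ i, u i := by rw [hs, hUV, trace_sd hV0]
  have hb : hs W = ∑ i, w i := by rw [hs, hWV, trace_sd hV1]
  have ha0 : 0 < ∑ i, u i := Finset.sum_pos (fun i _ => hu i) Finset.univ_nonempty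
  have hb0 : 0 < ∑ i, w i := Finset.sum_pos (fun i _ => hw i) Finset.univ_nonempty
  have htr0 : N0.trace.re = β * ∑ i, w i := by
    rw [hN0, trace_smul, smul_eq_mul, Complex.re_ofReal_mul, trace_mul_comm, ← Matrix.mul_assoc,
      s0', Matrix.one_mul, hWV, trace_sd hV1]
  have htr1 : N1.trace.re = β' * ∑ i, u i := by
    rw [hN1, trace_smul, smul_eq_mul, Complex.re_ofReal_mul, trace_mul_comm, ← Matrix.mul_assoc,
      s1', Matrix.one_mul, hUV, trace_sd hV0]
  have key := P5_blocks (α := α) (α' := α') (k := k) hα0 hk2 hu hw hUt hWt hN0p hN1p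
    (by rw [htr0]; positivity) (by rw [htr1]; positivity)
  -- the big matrix
  have hbig : (fromBlocks V0 0 0 V1 : Matrix (ι ⊕ ι) (ι ⊕ ι) ℂ)ᴴ * outBlock γ ν U W *
      fromBlocks V0 0 0 V1 = omM α α' k (V0ᴴ * U) (V1ᴴ * W) + fromBlocks N0 0 0 N1 := by
    unfold outBlock omM
    rw [fromBlocks_conjTranspose, fromBlocks_multiply, fromBlocks_multiply, fromBlocks_add]
    simp only [conjTranspose_zero, Matrix.zero_mul, Matrix.mul_zero, add_zero, zero_add,
      conjTranspose_mul, conjTranspose_conjTranspose]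
    congr 1
    · rw [hN0]
      simp only [Matrix.mul_add, Matrix.add_mul, Matrix.mul_smul, Matrix.smul_mul, Matrix.mul_assoc]
      rfl
    · simp only [Matrix.mul_smul, Matrix.smul_mul, Matrix.mul_assoc]
      rfl
    · simp only [Matrix.mul_smul, Matrix.smul_mul, Matrix.mul_assoc]
      rfl
    · rw [hN1, add_comm]
      simp only [Matrix.mul_add, Matrix.add_mul, Matrix.mul_smul, Matrix.smul_mul, Matrix.mul_assoc]
      rfl
  have hVmem : (fromBlocks V0 0 0 V1 : Matrix (ι ⊕ ι) (ι ⊕ ι) ℂ)ᴴ ∈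
      Matrix.unitaryGroup (ι ⊕ ι) ℂ := by
    rw [Matrix.mem_unitaryGroup_iff, star_eq_conjTranspose, conjTranspose_conjTranspose,
      fromBlocks_conjTranspose, fromBlocks_multiply]
    simp [s0, s1]
  have hent : ent (omM α α' k (V0ᴴ * U) (V1ᴴ * W) + fromBlocks N0 0 0 N1) =
      ent (outBlock γ ν U W) := by
    rw [← hbig]
    have := ent_unitary_conj (A := outBlock γ ν U W) hVmem
    rwa [conjTranspose_conjTranspose] at this
  rw [hent, htr0, htr1] at key
  have eN0 : ent N0 = β * ent (W * Wᴴ) + Real.negMulLog β * ∑ i, w i := by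
    rw [hN0, ent_smul_conj hW.isHermitian hV0, hWV, trace_sd hV1]
  have eN1 : ent N1 = β' * ent (U * Uᴴ) + Real.negMulLog β' * ∑ i, u i := by
    rw [hN1, ent_smul_conj hU.isHermitian hV1, hUV, trace_sd hV0]
  have eU : ∑ i, Real.negMulLog (α * u i) =
      α * ent (U * Uᴴ) + Real.negMulLog α * ∑ i, u i := by
    rw [hUV, ent_sd hV0, Finset.mul_sum, Finset.mul_sum, ← Finset.sum_add_distrib]
    refine Finset.sum_congr rfl fun i _ => ?_
    rw [Real.negMulLog_mul]; ring
  have eW : ∑ i, Real.negMulLog (α' * w i) =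
      α' * ent (W * Wᴴ) + Real.negMulLog α' * ∑ i, w i := by
    rw [hWV, ent_sd hV1, Finset.mul_sum, Finset.mul_sum, ← Finset.sum_add_distrib]
    refine Finset.sum_congr rfl fun i _ => ?_
    rw [Real.negMulLog_mul]; ring
  have m1 : Real.negMulLog (β * ∑ i, w i) = (∑ i, w i) * Real.negMulLog β +
    β * Real.negMulLog (∑ i, w i) := Real.negMulLog_mul _ _
  have m2 : Real.negMulLog (β' * ∑ i, u i) = (∑ i, u i) * Real.negMulLog β' +
    β' * Real.negMulLog (∑ i, u i) := Real.negMulLog_mul _ _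
  have m3 : Real.negMulLog (α * ∑ i, u i) = (∑ i, u i) * Real.negMulLog α +
    α * Real.negMulLog (∑ i, u i) := Real.negMulLog_mul _ _
  have m4 : Real.negMulLog (α' * ∑ i, w i) = (∑ i, w i) * Real.negMulLog α' +
    α' * Real.negMulLog (∑ i, w i) := Real.negMulLog_mul _ _
  rw [eN0, eN1, eU, eW, m1, m2, m3, m4] at key
  rw [ha, hb, G]
  have hT : α * (∑ i, u i) + β * (∑ i, w i) + (α' * (∑ i, w i) + β' * ∑ i, u i) =
      (∑ i, u i) + ∑ i, w i := by
    rw [hα, hα', hβ, hβ']; ring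
  have hD : (α * (∑ i, u i) + β * ∑ i, w i) * (α' * (∑ i, w i) + β' * ∑ i, u i) -
      k ^ 2 * ((∑ i, u i) * ∑ i, w i) = Dab γ ν (∑ i, u i) (∑ i, w i) := by
    rw [hkk, Dab, hα, hα', hβ, hβ']; ring
  rw [hT, hD] at key
  have f1 : α + β' = 1 := by rw [hα, hβ']; ring
  have f2 : α' + β = 1 := by rw [hα', hβ]; ring
  have h1 : α * ent (U * Uᴴ) + β' * ent (U * Uᴴ) = ent (U * Uᴴ) := by
    rw [← add_mul, f1, one_mul]
  have h2 : α' * ent (W * Wᴴ) + β * ent (W * Wᴴ) = ent (W * Wᴴ) := by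
    rw [← add_mul, f2, one_mul]
  have h3 : α * Real.negMulLog (∑ i, u i) + β' * Real.negMulLog (∑ i, u i) =
      Real.negMulLog (∑ i, u i) := by rw [← add_mul, f1, one_mul]
  have h4 : α' * Real.negMulLog (∑ i, w i) + β * Real.negMulLog (∑ i, w i) =
      Real.negMulLog (∑ i, w i) := by rw [← add_mul, f2, one_mul]
  linarith

theorem exists_factor {A : Matrix ι ι ℂ} (hA : A.PosSemidef) :
    ∃ C : Matrix ι ι ℂ, A = C * Cᴴ := by
  obtain ⟨V, hV, hAV⟩ := exists_sd hA.isHermitian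
  have ha : ∀ k, 0 ≤ hA.isHermitian.eigenvalues k := fun k => hA.eigenvalues_nonneg k
  generalize hA.isHermitian.eigenvalues = a at hAV ha
  refine ⟨V * diagonal fun k => ((Real.sqrt (a k) : ℝ) : ℂ), ?_⟩
  rw [conjTranspose_mul, diagonal_conjTranspose, hAV, sd]
  have : (diagonal fun k => ((a k : ℝ) : ℂ)) =
      (diagonal fun k => ((Real.sqrt (a k) : ℝ) : ℂ)) *
      diagonal (star fun k => ((Real.sqrt (a k) : ℝ) : ℂ)) := by
    rw [diagonal_mul_diagonal]
    congr 1
    funext k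
    rw [Pi.star_apply, RCLike.star_def, Complex.conj_ofReal, ← Complex.ofReal_mul,
      Real.mul_self_sqrt (ha k)]
  rw [this]
  simp only [Matrix.mul_assoc]

/-- pinching -/
theorem ent_pinch {P R : Matrix ι ι ℂ} {X Y : Matrix ι ι ℂ}
    (h : (fromBlocks P X Y R).PosSemidef) : ent (fromBlocks P X Y R) ≤ ent P + ent R := by
  have hP : P.IsHermitian := by
    have := h.isHermitian
    rw [IsHermitian, fromBlocks_conjTranspose, fromBlocks_inj] at this
    exact this.1
  have hR : R.IsHermitian := by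
    have := h.isHermitian
    rw [IsHermitian, fromBlocks_conjTranspose, fromBlocks_inj] at this
    exact this.2.2.2
  obtain ⟨V0, hV0, hPV⟩ := exists_sd hP
  obtain ⟨V1, hV1, hRV⟩ := exists_sd hR
  generalize hP.eigenvalues = p at hPV
  generalize hR.eigenvalues = q at hRV
  have s0 := star_mul_self_of_mem hV0
  have s1 := star_mul_self_of_mem hV1
  set 𝒱 : Matrix (ι ⊕ ι) (ι ⊕ ι) ℂ := fromBlocks V0 0 0 V1 with h𝒱
  have hVmem : 𝒱ᴴ ∈ Matrix.unitaryGroup (ι ⊕ ι) ℂ := by
    rw [Matrix.mem_unitaryGroup_iff, star_eq_conjTranspose, conjTranspose_conjTranspose,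
      h𝒱, fromBlocks_conjTranspose, fromBlocks_multiply]
    simp [s0, s1]
  have e1 := ent_unitary_conj (A := fromBlocks P X Y R) hVmem
  rw [conjTranspose_conjTranspose] at e1
  rw [← e1]
  refine (ent_le_diag (h.conjTranspose_mul_mul_same 𝒱)).trans (le_of_eq ?_)
  have hb : 𝒱ᴴ * fromBlocks P X Y R * 𝒱 =
      fromBlocks (V0ᴴ * P * V0) (V0ᴴ * X * V1) (V1ᴴ * Y * V0) (V1ᴴ * R * V1) := by
    rw [h𝒱, fromBlocks_conjTranspose, fromBlocks_multiply, fromBlocks_multiply]
    simp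
  have d0 : V0ᴴ * P * V0 = diagonal fun i => ((p i : ℝ) : ℂ) := by
    calc V0ᴴ * P * V0 = (V0ᴴ * V0) * (diagonal fun i => ((p i : ℝ) : ℂ)) * (V0ᴴ * V0) := by
          rw [hPV, sd]; simp only [Matrix.mul_assoc]
      _ = _ := by rw [s0, Matrix.one_mul, Matrix.mul_one]
  have d1 : V1ᴴ * R * V1 = diagonal fun i => ((q i : ℝ) : ℂ) := by
    calc V1ᴴ * R * V1 = (V1ᴴ * V1) * (diagonal fun i => ((q i : ℝ) : ℂ)) * (V1ᴴ * V1) := by
          rw [hRV, sd]; simp only [Matrix.mul_assoc]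
      _ = _ := by rw [s1, Matrix.one_mul, Matrix.mul_one]
  rw [hb, Fintype.sum_sum_type, d0, d1, hPV, hRV, ent_sd hV0, ent_sd hV1]
  simp

theorem ent_add_le {A E : Matrix ι ι ℂ} (hA : A.PosSemidef) (hE : E.PosSemidef) :
    ent (A + E) ≤ ent A + ent E := by
  obtain ⟨C, hC⟩ := exists_factor hA
  obtain ⟨F, hF⟩ := exists_factor hE
  have h1 : A + E = fromCols C F * (fromCols C F)ᴴ := by
    rw [conjTranspose_fromCols_eq_fromRows_conjTranspose, fromCols_mul_fromRows, hC, hF]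
  rw [h1, ent_mul_conjTranspose_comm]
  have h2 : (fromCols C F)ᴴ * fromCols C F = fromBlocks (Cᴴ * C) (Cᴴ * F) (Fᴴ * C) (Fᴴ * F) := by
    rw [conjTranspose_fromCols_eq_fromRows_conjTranspose, fromRows_mul_fromCols]
  have h3 : (fromBlocks (Cᴴ * C) (Cᴴ * F) (Fᴴ * C) (Fᴴ * F)).PosSemidef := by
    rw [← h2]; exact posSemidef_conjTranspose_mul_self _
  rw [h2]
  refine (ent_pinch h3).trans (le_of_eq ?_)
  rw [hC, hF, ent_mul_conjTranspose_comm, ent_mul_conjTranspose_comm]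

theorem fromBlocks_diag_psd {f g : ι → ℝ} (hf : ∀ i, 0 ≤ f i) (hg : ∀ i, 0 ≤ g i) :
    (fromBlocks (diagonal fun i => ((f i : ℝ) : ℂ)) 0 0 (diagonal fun i => ((g i : ℝ) : ℂ)) :
      Matrix (ι ⊕ ι) (ι ⊕ ι) ℂ).PosSemidef := by
  rw [fromBlocks_diagonal]
  refine PosSemidef.diagonal ?_
  intro i
  rcases i with i | i
  · simpa using hf i
  · simpa using hg i

theorem omM_psd {α α' k : ℝ} (hα : 0 < α) (hk : k ^ 2 < α * α') (U W : Matrix ι κ ℂ) :
    (omM α α' k U W).PosSemidef := by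
  set s : ℝ := Real.sqrt α with hs
  have hs0 : 0 < s := Real.sqrt_pos.2 hα
  have hss : s * s = α := Real.mul_self_sqrt hα.le
  have hδ : 0 < α' - k ^ 2 / α := by
    rw [sub_pos, div_lt_iff₀ hα]; linarith
  set t : ℝ := Real.sqrt (α' - k ^ 2 / α) with ht
  have htt : t * t = α' - k ^ 2 / α := Real.mul_self_sqrt hδ.le
  set Q : Matrix (ι ⊕ ι) (κ ⊕ κ) ℂ :=
    fromBlocks ((s : ℂ) • U) 0 (((k / s : ℝ) : ℂ) • W) ((t : ℂ) • W) with hQ
  have hQQ : Q * Qᴴ = omM α α' k U W := by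
    rw [hQ, fromBlocks_conjTranspose, fromBlocks_multiply]
    unfold omM
    simp only [conjTranspose_smul, conjTranspose_zero, Matrix.mul_zero, Matrix.zero_mul, smul_zero,
      add_zero, Matrix.smul_mul, Matrix.mul_smul, smul_smul, RCLike.star_def, Complex.conj_ofReal,
      ← Complex.ofReal_mul, ← add_smul, ← Complex.ofReal_add, hss, htt]
    congr 3
    · field_simp
    · field_simp
    · have h2 : k / s * (k / s) = k ^ 2 / α := by rw [← hss]; field_simp
      rw [h2]; ring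
  rw [← hQQ]
  exact posSemidef_self_mul_conjTranspose Q

theorem outBlock_psd {γ ν : ℝ} (hγ0 : 0 < γ) (hγ1 : γ ≤ 1) (hν0 : 0 < ν) (hν1 : ν < 1)
    (U W : Matrix ι κ ℂ) : (outBlock γ ν U W).PosSemidef := by
  have hkk : Real.sqrt (1 - γ) ^ 2 = 1 - γ := Real.sq_sqrt (by linarith)
  have hβ0 : 0 < γ * (1 - ν) := mul_pos hγ0 (by linarith)
  have hβ'0 : 0 < γ * ν := mul_pos hγ0 hν0
  have hα0 : 0 < 1 - γ * ν := by nlinarith
  have hk2 : Real.sqrt (1 - γ) ^ 2 < (1 - γ * ν) * (1 - γ * (1 - ν)) := by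
    have h1 : (1 - γ * ν) * (1 - γ * (1 - ν)) - Real.sqrt (1 - γ) ^ 2 =
        (γ * (1 - ν)) * (γ * ν) := by rw [hkk]; ring
    have h2 : 0 < (γ * (1 - ν)) * (γ * ν) := mul_pos hβ0 hβ'0
    linarith
  set s : ℝ := Real.sqrt (γ * (1 - ν)) with hs
  have hss : s * s = γ * (1 - ν) := Real.mul_self_sqrt hβ0.le
  set t : ℝ := Real.sqrt (γ * ν) with ht
  have htt : t * t = γ * ν := Real.mul_self_sqrt hβ'0.le
  have h3 : outBlock γ ν U W = omM (1 - γ * ν) (1 - γ * (1 - ν)) (Real.sqrt (1 - γ)) U W +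
      (fromBlocks ((s : ℂ) • W) 0 0 ((t : ℂ) • U)) *
      (fromBlocks ((s : ℂ) • W) 0 0 ((t : ℂ) • U) : Matrix (ι ⊕ ι) (κ ⊕ κ) ℂ)ᴴ := by
    rw [fromBlocks_conjTranspose, fromBlocks_multiply]
    unfold outBlock omM
    rw [fromBlocks_add]
    simp only [conjTranspose_smul, conjTranspose_zero, Matrix.mul_zero, Matrix.zero_mul, smul_zero,
      add_zero, zero_add, Matrix.smul_mul, Matrix.mul_smul, smul_smul, RCLike.star_def,
      Complex.conj_ofReal, ← Complex.ofReal_mul, hss, htt]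
    congr 1
    rw [add_comm]
  rw [h3]
  exact (omM_psd hα0 hk2 U W).add (posSemidef_self_mul_conjTranspose _)

/-- regularised operators -/
noncomputable def Ue (U : Matrix ι κ ℂ) (ε : ℝ) : Matrix ι (κ ⊕ (ι ⊕ ι)) ℂ :=
  fromCols U (fromCols (diagonal fun _ => ((Real.sqrt ε : ℝ) : ℂ)) 0)

noncomputable def We (W : Matrix ι κ ℂ) (ε : ℝ) : Matrix ι (κ ⊕ (ι ⊕ ι)) ℂ :=
  fromCols W (fromCols 0 (diagonal fun _ => ((Real.sqrt ε : ℝ) : ℂ)))

theorem diag_sqrt_mul {ε : ℝ} (hε : 0 ≤ ε) :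
    (diagonal fun _ : ι => ((Real.sqrt ε : ℝ) : ℂ)) *
      (diagonal fun _ : ι => ((Real.sqrt ε : ℝ) : ℂ))ᴴ = diagonal fun _ => ((ε : ℝ) : ℂ) := by
  rw [diagonal_conjTranspose, diagonal_mul_diagonal]
  congr 1
  funext i
  rw [Pi.star_apply, RCLike.star_def, Complex.conj_ofReal, ← Complex.ofReal_mul,
    Real.mul_self_sqrt hε]

theorem Ue_mul (U : Matrix ι κ ℂ) {ε : ℝ} (hε : 0 ≤ ε) :
    Ue U ε * (Ue U ε)ᴴ = U * Uᴴ + diagonal fun _ => ((ε : ℝ) : ℂ) := by
  unfold Ue
  rw [conjTranspose_fromCols_eq_fromRows_conjTranspose,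
    conjTranspose_fromCols_eq_fromRows_conjTranspose, fromCols_mul_fromRows,
    fromCols_mul_fromRows, diag_sqrt_mul hε, Matrix.zero_mul, add_zero]

theorem We_mul (W : Matrix ι κ ℂ) {ε : ℝ} (hε : 0 ≤ ε) :
    We W ε * (We W ε)ᴴ = W * Wᴴ + diagonal fun _ => ((ε : ℝ) : ℂ) := by
  unfold We
  rw [conjTranspose_fromCols_eq_fromRows_conjTranspose,
    conjTranspose_fromCols_eq_fromRows_conjTranspose, fromCols_mul_fromRows,
    fromCols_mul_fromRows, diag_sqrt_mul hε, Matrix.zero_mul, zero_add]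

theorem UeWe_mul (U W : Matrix ι κ ℂ) (ε : ℝ) : Ue U ε * (We W ε)ᴴ = U * Wᴴ := by
  unfold Ue We
  rw [conjTranspose_fromCols_eq_fromRows_conjTranspose,
    conjTranspose_fromCols_eq_fromRows_conjTranspose, fromCols_mul_fromRows,
    fromCols_mul_fromRows, Matrix.zero_mul, conjTranspose_zero, Matrix.mul_zero, add_zero, add_zero]

theorem WeUe_mul (U W : Matrix ι κ ℂ) (ε : ℝ) : We W ε * (Ue U ε)ᴴ = W * Uᴴ := by
  unfold Ue We
  rw [conjTranspose_fromCols_eq_fromRows_conjTranspose,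
    conjTranspose_fromCols_eq_fromRows_conjTranspose, fromCols_mul_fromRows,
    fromCols_mul_fromRows, Matrix.zero_mul, conjTranspose_zero, Matrix.mul_zero, add_zero, add_zero]

theorem outBlock_e (γ ν : ℝ) (U W : Matrix ι κ ℂ) {ε : ℝ} (hε : 0 ≤ ε) :
    outBlock γ ν (Ue U ε) (We W ε) = outBlock γ ν U W +
      fromBlocks (diagonal fun _ => (((1 - γ * ν + γ * (1 - ν)) * ε : ℝ) : ℂ)) 0 0
        (diagonal fun _ => (((γ * ν + (1 - γ * (1 - ν))) * ε : ℝ) : ℂ)) := by
  unfold outBlock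
  rw [Ue_mul U hε, We_mul W hε, UeWe_mul, WeUe_mul, fromBlocks_add, add_zero, add_zero]
  congr 1
  · ext i j
    by_cases h : i = j
    · subst h; simp; ring
    · simp [h]
  · ext i j
    by_cases h : i = j
    · subst h; simp; ring
    · simp [h]

theorem ent_shift {A : Matrix ι ι ℂ} (hA : A.IsHermitian) (ε : ℝ) :
    ent (A + diagonal fun _ => ((ε : ℝ) : ℂ)) =
      ∑ i, Real.negMulLog (hA.eigenvalues i + ε) := by
  obtain ⟨V, hV, hAV⟩ := exists_sd hA
  generalize hA.eigenvalues = a at hAV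
  have h : A + diagonal (fun _ => ((ε : ℝ) : ℂ)) = sd V fun i => a i + ε := by
    have h1 : (diagonal fun _ : ι => ((ε : ℝ) : ℂ)) = sd V fun _ => ε := by
      rw [sd]
      have : (diagonal fun _ : ι => ((ε : ℝ) : ℂ)) = (ε : ℂ) • (1 : Matrix ι ι ℂ) := by
        ext i j
        by_cases h : i = j
        · subst h; simp
        · simp [h]
      rw [this, Matrix.mul_smul, Matrix.smul_mul, Matrix.mul_one, mul_star_self_of_mem hV]
    rw [h1, hAV, sd, sd, sd, ← Matrix.add_mul, ← Matrix.mul_add, diagonal_add]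
    congr 3
    funext i
    push_cast; rfl
  rw [h, ent_sd hV]

theorem psd_add_posDef {A : Matrix ι ι ℂ} (hA : A.PosSemidef) {ε : ℝ} (hε : 0 < ε) :
    (A + diagonal fun _ => ((ε : ℝ) : ℂ)).PosDef :=
  PosDef.posSemidef_add hA (PosDef.diagonal fun _ => by exact_mod_cast hε)

theorem trace_shift_re (A : Matrix ι ι ℂ) (ε : ℝ) :
    (A + diagonal fun _ => ((ε : ℝ) : ℂ)).trace.re = A.trace.re + Fintype.card ι * ε := by
  rw [trace_add, Complex.add_re, trace_diagonal]
  simp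

/-- the inequality at a positive regularisation -/
theorem key_eps [Nonempty ι] {γ ν : ℝ} (hγ0 : 0 < γ) (hγ1 : γ ≤ 1) (hν0 : 0 < ν) (hν1 : ν < 1)
    (U W : Matrix ι κ ℂ) {ε : ℝ} (hε : 0 < ε) :
    ∑ i, Real.negMulLog ((isHermitian_mul_conjTranspose_self U).eigenvalues i + ε) +
      ∑ i, Real.negMulLog ((isHermitian_mul_conjTranspose_self W).eigenvalues i + ε) +
      G γ ν (hs U + Fintype.card ι * ε) (hs W + Fintype.card ι * ε) ≤
    ent (outBlock γ ν U W) +
      (∑ _i : ι, Real.negMulLog ((1 - γ * ν + γ * (1 - ν)) * ε) +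
       ∑ _i : ι, Real.negMulLog ((γ * ν + (1 - γ * (1 - ν))) * ε)) := by
  have hβ0 : 0 < γ * (1 - ν) := mul_pos hγ0 (by linarith)
  have hβ'0 : 0 < γ * ν := mul_pos hγ0 hν0
  have hα0 : 0 < 1 - γ * ν := by nlinarith
  have hα'0 : 0 ≤ 1 - γ * (1 - ν) := by nlinarith
  have hU := psd_add_posDef (posSemidef_self_mul_conjTranspose U) hε
  have hW := psd_add_posDef (posSemidef_self_mul_conjTranspose W) hε
  rw [← Ue_mul U hε.le] at hU
  rw [← We_mul W hε.le] at hW
  have key := key_posDef hγ0 hγ1 hν0 hν1 hU hW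
  have e1 : hs (Ue U ε) = hs U + Fintype.card ι * ε := by
    rw [hs, Ue_mul U hε.le, trace_shift_re, hs]
  have e2 : hs (We W ε) = hs W + Fintype.card ι * ε := by
    rw [hs, We_mul W hε.le, trace_shift_re, hs]
  rw [e1, e2, Ue_mul U hε.le, We_mul W hε.le,
    ent_shift (isHermitian_mul_conjTranspose_self U),
    ent_shift (isHermitian_mul_conjTranspose_self W), outBlock_e γ ν U W hε.le] at key
  refine key.trans ?_
  have hE : (fromBlocks (diagonal fun _ => (((1 - γ * ν + γ * (1 - ν)) * ε : ℝ) : ℂ)) 0 0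
        (diagonal fun _ => (((γ * ν + (1 - γ * (1 - ν))) * ε : ℝ) : ℂ)) :
        Matrix (ι ⊕ ι) (ι ⊕ ι) ℂ).PosSemidef :=
    fromBlocks_diag_psd (fun _ => by positivity) (fun _ => by positivity)
  refine (ent_add_le (outBlock_psd hγ0 hγ1 hν0 hν1 U W) hE).trans (le_of_eq ?_)
  congr 1
  rw [fromBlocks_diagonal]
  have h3 := ent_diagonal (ι := ι ⊕ ι) (Sum.elim (fun _ => (1 - γ * ν + γ * (1 - ν)) * ε)
    (fun _ => (γ * ν + (1 - γ * (1 - ν))) * ε))
  rw [Fintype.sum_sum_type] at h3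
  simp only [Sum.elim_inl, Sum.elim_inr] at h3
  rw [← h3]
  congr 2
  funext i
  rcases i with i | i <;> rfl

theorem continuous_G (γ ν a b m : ℝ) :
    Continuous fun ε : ℝ => G γ ν (a + m * ε) (b + m * ε) := by
  unfold G eta2 Dab
  have h := Real.continuous_negMulLog
  fun_prop

theorem keyIneq_interior {γ ν : ℝ} (hγ0 : 0 < γ) (hγ1 : γ ≤ 1) (hν0 : 0 < ν) (hν1 : ν < 1) :
    KeyIneq γ ν := by
  intro ι κ _ _ _ _ U W
  rcases isEmpty_or_nonempty ι with hι | hι
  · have h1 : ∀ A : Matrix ι ι ℂ, ent A = 0 := by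
      intro A; unfold ent
      split_ifs <;> simp
    have h2 : ∀ A : Matrix (ι ⊕ ι) (ι ⊕ ι) ℂ, ent A = 0 := by
      intro A; unfold ent
      split_ifs <;> simp
    have h3 : ∀ X : Matrix ι κ ℂ, hs X = 0 := by
      intro X; simp [hs, trace]
    rw [h1, h1, h2, h3, h3]
    simp [G, eta2, Dab]
  · have hf : Continuous fun ε : ℝ =>
        ∑ i, Real.negMulLog ((isHermitian_mul_conjTranspose_self U).eigenvalues i + ε) +
        ∑ i, Real.negMulLog ((isHermitian_mul_conjTranspose_self W).eigenvalues i + ε) +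
        G γ ν (hs U + Fintype.card ι * ε) (hs W + Fintype.card ι * ε) := by
      refine Continuous.add (Continuous.add ?_ ?_) (continuous_G _ _ _ _ _)
      · exact continuous_finsetSum _ fun i _ => Real.continuous_negMulLog.comp (by fun_prop)
      · exact continuous_finsetSum _ fun i _ => Real.continuous_negMulLog.comp (by fun_prop)
    have hg : Continuous fun ε : ℝ => ent (outBlock γ ν U W) +
        (∑ _i : ι, Real.negMulLog ((1 - γ * ν + γ * (1 - ν)) * ε) +
         ∑ _i : ι, Real.negMulLog ((γ * ν + (1 - γ * (1 - ν))) * ε)) := by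
      refine continuous_const.add (Continuous.add ?_ ?_)
      · exact continuous_finsetSum _ fun i _ => Real.continuous_negMulLog.comp (by fun_prop)
      · exact continuous_finsetSum _ fun i _ => Real.continuous_negMulLog.comp (by fun_prop)
    have hf0 := (hf.tendsto 0).mono_left (nhdsWithin_le_nhds (s := Set.Ioi 0))
    have hg0 := (hg.tendsto 0).mono_left (nhdsWithin_le_nhds (s := Set.Ioi 0))
    have hle := le_of_tendsto_of_tendsto hf0 hg0 (by
      filter_upwards [self_mem_nhdsWithin] with ε hε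
      exact key_eps hγ0 hγ1 hν0 hν1 U W hε)
    simp only [add_zero, mul_zero, Real.negMulLog_zero, Finset.sum_const_zero] at hle
    rw [ent_of_herm (isHermitian_mul_conjTranspose_self U),
      ent_of_herm (isHermitian_mul_conjTranspose_self W)]
    exact hle

theorem keyIneq_gamma_zero (ν : ℝ) : KeyIneq 0 ν := by
  intro ι κ _ _ _ _ U W
  have h := keyIneq_zero (γ := 0) ⟨le_rfl, zero_le_one⟩ ι κ U W
  have e1 : outBlock 0 ν U W = outBlock 0 0 U W := by
    unfold outBlock; simp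
  have e2 : G 0 ν (hs U) (hs W) = G 0 0 (hs U) (hs W) := by
    unfold G Dab; simp
  rw [e1, e2]
  exact h

/-- **The key inequality for all parameters.** -/
theorem keyIneq_all {γ ν : ℝ} (hγ : γ ∈ Set.Icc (0:ℝ) 1) (hν : ν ∈ Set.Icc (0:ℝ) 1) :
    KeyIneq γ ν := by
  rcases hγ.1.eq_or_lt with h | hγ0
  · rw [← h]; exact keyIneq_gamma_zero ν
  rcases hν.1.eq_or_lt with h | hν0
  · rw [← h]; exact keyIneq_zero hγ
  rcases hν.2.eq_or_lt with h | hν1
  · rw [h]; exact keyIneq_one hγ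
  exact keyIneq_interior hγ0 hγ.2 hν0 hν1

end

end Vale.Agent.P358
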