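import Vale.Agent.P358_h28.GenCmp
import Vale.Agent.P358_h28.GenExist

/-!
The main entropy inequality for a positive definite matrix plus a block-diagonal one.
-/

open Matrix NormedSpace
open scoped ComplexOrder

set_option linter.unusedSectionVars false

namespace Vale.Agent.P358

section
variable {J R : Type} [Fintype J] [DecidableEq J] [Fintype R] [DecidableEq R]

/-- the isometry in eigen-coordinates -/
def LamM (r : J → R) (V : Matrix J J ℂ) (v : Matrix R R ℂ) : Matrix J (J × R) ℂ :=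
  Matrix.of fun p i => V p i.1 * star (v (r p) i.2)

theorem Lam_prod (r : J → R) (V : Matrix J J ℂ) (v : Matrix R R ℂ) (f : J → ℝ) (g : R → ℝ)
    (p q : J) :
    (LamM r V v * (diagonal fun i : J × R => ((f i.1 * g i.2 : ℝ) : ℂ)) * (LamM r V v)ᴴ) p q =
      sd V f p q * sd v g (r q) (r p) := by
  unfold sd
  rw [Matrix.mul_apply, Matrix.mul_apply, Matrix.mul_apply, Finset.sum_mul_sum,
    Fintype.sum_prod_type]
  refine Finset.sum_congr rfl fun i _ => Finset.sum_congr rfl fun x _ => ?_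
  simp only [mul_diagonal, conjTranspose_apply, LamM, of_apply, star_mul', star_star]
  push_cast
  ring

theorem sd_one {V : Matrix J J ℂ} (hV : V ∈ Matrix.unitaryGroup J ℂ) :
    sd V (fun _ => 1) = 1 := by
  unfold sd
  simp only [Complex.ofReal_one, diagonal_one, Matrix.mul_one]
  exact mul_star_self_of_mem hV

theorem Lam_iso (r : J → R) {V : Matrix J J ℂ} (hV : V ∈ Matrix.unitaryGroup J ℂ)
    {v : Matrix R R ℂ} (hv : v ∈ Matrix.unitaryGroup R ℂ) :
    LamM r V v * (LamM r V v)ᴴ = 1 := by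
  ext p q
  have h := Lam_prod r V v (fun _ => 1) (fun _ => 1) p q
  simp only [mul_one, Complex.ofReal_one, diagonal_one, Matrix.mul_one] at h
  rw [h, sd_one hV, sd_one hv]
  by_cases hpq : p = q
  · subst hpq; simp
  · simp [hpq]

/-- the matrix attached to a vector -/
def Mm (V : Matrix J J ℂ) (v : Matrix R R ℂ) (m : J × R → ℂ) : Matrix J R ℂ :=
  V * (Matrix.of fun i x => m (i, x)) * vᴴ

theorem Lam_mulVec (r : J → R) (V : Matrix J J ℂ) (v : Matrix R R ℂ) (m : J × R → ℂ) (p : J) :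
    (LamM r V v *ᵥ m) p = Mm V v m p (r p) := by
  unfold Mm
  simp only [mulVec, dotProduct, Matrix.mul_apply, conjTranspose_apply, of_apply, LamM,
    Fintype.sum_prod_type, Finset.sum_mul]
  rw [Finset.sum_comm]
  refine Finset.sum_congr rfl fun x _ => Finset.sum_congr rfl fun i _ => ?_
  ring

theorem sum_eq_trace {V : Matrix J J ℂ} (hV : V ∈ Matrix.unitaryGroup J ℂ)
    {v : Matrix R R ℂ} (hv : v ∈ Matrix.unitaryGroup R ℂ) (f : J → ℝ) (g : R → ℝ)
    (m : J × R → ℂ) :
    ∑ i : J × R, f i.1 * g i.2 * Complex.normSq (m i) =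
      (sd V f * Mm V v m * sd v g * (Mm V v m)ᴴ).trace.re := by
  have h1 := star_mul_self_of_mem hV
  have h2 := star_mul_self_of_mem hv
  set m' : Matrix J R ℂ := Matrix.of fun i x => m (i, x) with hm'
  have e1 : sd V f * Mm V v m * sd v g * (Mm V v m)ᴴ =
      V * ((diagonal fun k => ((f k : ℝ) : ℂ)) * m' * (diagonal fun k => ((g k : ℝ) : ℂ)) * m'ᴴ)
        * Vᴴ := by
    unfold sd Mm
    rw [← hm', conjTranspose_mul, conjTranspose_mul, conjTranspose_conjTranspose]
    calc V * (diagonal fun k => ((f k : ℝ) : ℂ)) * Vᴴ * (V * m' * vᴴ) *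
          (v * (diagonal fun k => ((g k : ℝ) : ℂ)) * vᴴ) * (v * (m'ᴴ * Vᴴ))
        = V * ((diagonal fun k => ((f k : ℝ) : ℂ)) * (Vᴴ * V) * m' * (vᴴ * v) *
          (diagonal fun k => ((g k : ℝ) : ℂ)) * (vᴴ * v) * m'ᴴ) * Vᴴ := by
            simp only [Matrix.mul_assoc]
      _ = _ := by rw [h1, h2]; simp only [Matrix.mul_one]
  rw [e1, trace_mul_comm, ← Matrix.mul_assoc, h1, Matrix.one_mul, trace, Complex.re_sum,
    Fintype.sum_prod_type]
  refine Finset.sum_congr rfl fun i _ => ?_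
  rw [diag_apply, Matrix.mul_apply, Complex.re_sum]
  refine Finset.sum_congr rfl fun x _ => ?_
  rw [mul_diagonal, diagonal_mul, conjTranspose_apply]
  simp only [hm', of_apply, RCLike.star_def]
  have : ((f i : ℝ) : ℂ) * m (i, x) * ((g x : ℝ) : ℂ) * (starRingEnd ℂ) (m (i, x)) =
      ((f i * g x * Complex.normSq (m (i, x)) : ℝ) : ℂ) := by
    have h3 := Complex.mul_conj (m (i, x))
    push_cast
    rw [← h3]; ring
  rw [this, Complex.ofReal_re]

theorem trace_mul_diag_conj (M : Matrix J R ℂ) (n : R → ℝ) :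
    (M * (diagonal fun x => ((n x : ℝ) : ℂ)) * Mᴴ).trace.re =
      ∑ p, ∑ x, n x * Complex.normSq (M p x) := by
  rw [trace, Complex.re_sum]
  refine Finset.sum_congr rfl fun p _ => ?_
  rw [diag_apply, Matrix.mul_apply, Complex.re_sum]
  refine Finset.sum_congr rfl fun x _ => ?_
  rw [mul_diagonal, conjTranspose_apply, RCLike.star_def]
  have : M p x * ((n x : ℝ) : ℂ) * (starRingEnd ℂ) (M p x) =
      ((n x * Complex.normSq (M p x) : ℝ) : ℂ) := by
    have h3 := Complex.mul_conj (M p x)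
    push_cast
    rw [← h3]; ring
  rw [this, Complex.ofReal_re]

theorem bf_lamM (r : J → R) (n : R → ℝ) (y : J → ℂ) :
    bf (lamM r n) y y = ∑ p, n (r p) * Complex.normSq (y p) := by
  unfold lamM
  rw [bf_diagonal (fun p => n (r p))]
  refine Finset.sum_congr rfl fun p _ => ?_
  rw [RCLike.star_def, ← Complex.normSq_eq_conj_mul_self, Complex.ofReal_re]

/-- endpoint condition at `0` -/
theorem end_zero {r : J → R} {V : Matrix J J ℂ} (hV : V ∈ Matrix.unitaryGroup J ℂ)
    {v : Matrix R R ℂ} (hv : v ∈ Matrix.unitaryGroup R ℂ) {k n : R → ℝ} (hn : ∀ x, 0 ≤ n x)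
    {w : Matrix R R ℂ} (hw : w.PosSemidef)
    (hx : sd v (fun x => Real.exp (k x)) = w + diagonal fun x => ((n x : ℝ) : ℂ))
    (m : J × R → ℂ) :
    bf (lamM r n) (LamM r V v *ᵥ m) (LamM r V v *ᵥ m) ≤
      ∑ i : J × R, Real.exp (k i.2) * Complex.normSq (m i) := by
  have h1 := sum_eq_trace hV hv (fun _ => 1) (fun x => Real.exp (k x)) m
  simp only [one_mul] at h1
  rw [h1, sd_one hV, hx, bf_lamM, Matrix.one_mul, Matrix.mul_add, Matrix.add_mul, trace_add,
    Complex.add_re, trace_mul_diag_conj]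
  have h2 : 0 ≤ (Mm V v m * w * (Mm V v m)ᴴ).trace.re :=
    (Complex.nonneg_iff.1 (hw.mul_mul_conjTranspose_same (Mm V v m)).trace_nonneg).1
  have h3 : ∑ p, n (r p) * Complex.normSq ((LamM r V v *ᵥ m) p) ≤
      ∑ p, ∑ x, n x * Complex.normSq (Mm V v m p x) := by
    refine Finset.sum_le_sum fun p _ => ?_
    rw [Lam_mulVec]
    exact Finset.single_le_sum (f := fun x => n x * Complex.normSq (Mm V v m p x))
      (fun x _ => mul_nonneg (hn x) (Complex.normSq_nonneg _)) (Finset.mem_univ (r p))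
  linarith

/-- endpoint condition at `1` -/
theorem bd_trace_le {r : J → R} {P : Matrix J J ℂ} (hP : P.PosSemidef) (hPBD : BD r P)
    (M : Matrix J R ℂ) :
    bf P (fun p => M p (r p)) (fun p => M p (r p)) ≤ (Mᴴ * P * M).trace.re := by
  set Y : Matrix J R ℂ := Matrix.of fun p x => if r p = x then M p x else 0 with hY
  set Y' : Matrix J R ℂ := Matrix.of fun p x => if r p = x then 0 else M p x with hY'
  have hM : M = Y + Y' := by
    ext p x
    by_cases h : r p = x <;> simp [hY, hY', h]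
  have hcross : (Yᴴ * P * Y').trace = 0 := by
    rw [trace]
    refine Finset.sum_eq_zero fun x _ => ?_
    rw [diag_apply, Matrix.mul_apply]
    refine Finset.sum_eq_zero fun q _ => ?_
    rw [Matrix.mul_apply, Finset.sum_mul]
    refine Finset.sum_eq_zero fun p _ => ?_
    simp only [hY, hY', conjTranspose_apply, of_apply]
    by_cases h1 : r p = x
    · by_cases h2 : r q = x
      · simp [h2]
      · have : r p ≠ r q := fun h3 => h2 (h3.symm.trans h1)
        rw [hPBD p q this]; simp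
    · simp [h1]
  have hcross' : (Y'ᴴ * P * Y).trace = 0 := by
    have h1 : (Y'ᴴ * P * Y) = (Yᴴ * P * Y')ᴴ := by
      rw [conjTranspose_mul, conjTranspose_mul, conjTranspose_conjTranspose, hP.isHermitian.eq,
        Matrix.mul_assoc]
    rw [h1, trace_conjTranspose, hcross, star_zero]
  have hpos : 0 ≤ (Y'ᴴ * P * Y').trace.re :=
    (Complex.nonneg_iff.1 (hP.conjTranspose_mul_mul_same Y').trace_nonneg).1
  have hYY : (Yᴴ * P * Y).trace.re = bf P (fun p => M p (r p)) (fun p => M p (r p)) := by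
    rw [bf_eq]
    congr 1
    simp only [trace, diag_apply, Matrix.mul_apply, Finset.sum_mul, conjTranspose_apply]
    -- `∑ x, ∑ q, ∑ p`
    rw [Finset.sum_comm]
    rw [Finset.sum_comm (γ := J) (f := fun p q => star (M p (r p)) * M q (r q) * P p q)]
    refine Finset.sum_congr rfl fun q _ => ?_
    rw [Finset.sum_comm]
    refine Finset.sum_congr rfl fun p _ => ?_
    rw [Finset.sum_eq_single (r q)]
    · by_cases h : r p = r q
      · simp only [hY, of_apply, h, if_true]
        ring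
      · rw [hPBD p q h]; simp
    · intro x _ hx
      have : r q ≠ x := fun h => hx h.symm
      simp [hY, this]
    · simp
  have hexp : Mᴴ * P * M = Yᴴ * P * Y + Yᴴ * P * Y' + Y'ᴴ * P * Y + Y'ᴴ * P * Y' := by
    rw [hM, conjTranspose_add]
    simp only [Matrix.add_mul, Matrix.mul_add]
    abel
  rw [hexp, trace_add, trace_add, trace_add, hcross, hcross']
  simp only [add_zero, Complex.add_re]
  rw [hYY]
  linarith

theorem end_one {r : J → R} {V : Matrix J J ℂ} (hV : V ∈ Matrix.unitaryGroup J ℂ)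
    {v : Matrix R R ℂ} (hv : v ∈ Matrix.unitaryGroup R ℂ) {d : J → ℝ}
    {ω P : Matrix J J ℂ} (hω : ω.PosSemidef) (hP : P.PosSemidef) (hPBD : BD r P)
    (hX : sd V (fun x => Real.exp (d x)) = ω + P) (m : J × R → ℂ) :
    bf P (LamM r V v *ᵥ m) (LamM r V v *ᵥ m) ≤
      ∑ i : J × R, Real.exp (d i.1) * Complex.normSq (m i) := by
  have h1 := sum_eq_trace hV hv (fun x => Real.exp (d x)) (fun _ => 1) m
  simp only [mul_one] at h1
  rw [h1, sd_one hv, hX, Matrix.mul_one]
  set M := Mm V v m with hM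
  have e1 : (LamM r V v *ᵥ m) = fun p => M p (r p) := funext fun p => Lam_mulVec r V v m p
  have e2 : ((ω + P) * M * Mᴴ).trace = (Mᴴ * ω * M).trace + (Mᴴ * P * M).trace := by
    rw [trace_mul_comm, ← Matrix.mul_assoc, Matrix.mul_add, Matrix.add_mul, trace_add]
  rw [e1, e2, Complex.add_re]
  have h2 : 0 ≤ (Mᴴ * ω * M).trace.re :=
    (Complex.nonneg_iff.1 (hω.conjTranspose_mul_mul_same M).trace_nonneg).1
  have h3 := bd_trace_le hP hPBD M
  linarith

theorem lam_neg {v : Matrix R R ℂ} (hv : v ∈ Matrix.unitaryGroup R ℂ) {k n : R → ℝ}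
    (hn : ∀ x, 0 < n x) {w : Matrix R R ℂ} (hw : w.PosDef)
    (hx : sd v (fun x => Real.exp (k x)) = w + diagonal fun x => ((n x : ℝ) : ℂ)) (x : R) :
    Real.log (n x) < (sd v k x x).re := by
  set Y := sd v (fun x => Real.exp (-k x)) with hY
  have hXY : sd v (fun x => Real.exp (k x)) * Y = 1 := by
    rw [hY, sd_mul hv, ← sd_one hv]
    congr 1
    funext i
    rw [← Real.exp_add]; simp
  set e : R → ℂ := Pi.single x 1 with he
  set u : R → ℂ := Y *ᵥ e with hu
  have hXu : sd v (fun x => Real.exp (k x)) *ᵥ u = e := by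
    rw [hu, mulVec_mulVec, hXY, one_mulVec]
  have hu0 : u ≠ 0 := by
    intro h0
    rw [h0, mulVec_zero] at hXu
    have := congrFun hXu x
    simp [he] at this
  have hux : u x = Y x x := by
    rw [hu, he, mulVec_single_one]; rfl
  have ht : (Y x x).re = ∑ i, Complex.normSq (v x i) * Real.exp (-k i) := by
    rw [hY]; unfold sd; exact diag_conj_entry v _ x
  have hk : (sd v k x x).re = ∑ i, Complex.normSq (v x i) * k i := by
    unfold sd; exact diag_conj_entry v _ x
  -- quadratic form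
  have q1 : bf (w + diagonal fun x => ((n x : ℝ) : ℂ)) u u = (Y x x).re := by
    rw [← hx, bf, hXu, he, dotProduct_single, mul_one, Pi.star_apply, hux, RCLike.star_def,
      Complex.conj_re]
  have q2 : 0 < bf w u u := (Complex.pos_iff.1 (hw.dotProduct_mulVec_pos hu0)).1
  have q3 : n x * (Y x x).re ^ 2 ≤ bf (diagonal fun x => ((n x : ℝ) : ℂ)) u u := by
    rw [bf_diagonal]
    have h1 : n x * (star (u x) * u x).re ≤ ∑ i, n i * (star (u i) * u i).re := by
      refine Finset.single_le_sum (f := fun i => n i * (star (u i) * u i).re) (fun i _ => ?_)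
        (Finset.mem_univ x)
      rw [RCLike.star_def, ← Complex.normSq_eq_conj_mul_self, Complex.ofReal_re]
      exact mul_nonneg (hn i).le (Complex.normSq_nonneg _)
    refine le_trans ?_ h1
    rw [RCLike.star_def, ← Complex.normSq_eq_conj_mul_self, Complex.ofReal_re, hux]
    refine mul_le_mul_of_nonneg_left ?_ (hn x).le
    rw [Complex.normSq_apply]
    nlinarith [sq_nonneg (Y x x).im]
  rw [bf_add_mat] at q1
  set t := (Y x x).re with htdef
  have htlt : n x * t ^ 2 < t := by linarith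
  have htpos : 0 < t := lt_of_le_of_lt (mul_nonneg (hn x).le (sq_nonneg t)) htlt
  have hnt : n x * t < 1 := by
    by_contra hcon
    rw [not_lt] at hcon
    nlinarith
  -- Jensen
  have hJ := convexOn_exp.map_sum_le (t := Finset.univ) (w := fun i => Complex.normSq (v x i))
    (p := fun i => -k i) (fun i _ => Complex.normSq_nonneg _) (unitary_row_sum hv x)
    (fun i _ => Set.mem_univ _)
  simp only [smul_eq_mul] at hJ
  rw [← ht] at hJ
  have hs : ∑ i, Complex.normSq (v x i) * -k i = -(sd v k x x).re := by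
    rw [hk, ← Finset.sum_neg_distrib]
    refine Finset.sum_congr rfl fun i _ => ?_
    ring
  rw [hs] at hJ
  have h1 : n x * Real.exp (-(sd v k x x).re) < 1 :=
    lt_of_le_of_lt (mul_le_mul_of_nonneg_left hJ (hn x).le) hnt
  rw [Real.log_lt_iff_lt_exp (hn x)]
  rw [Real.exp_neg, ← div_eq_mul_inv, div_lt_one (Real.exp_pos _)] at h1
  exact h1

theorem herm_diag_re {A : Matrix R R ℂ} (hA : A.IsHermitian) (x : R) :
    A x x = (((A x x).re : ℝ) : ℂ) := by
  have h := hA.apply x x
  rw [RCLike.star_def] at h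
  exact (Complex.conj_eq_iff_real.1 h).elim fun y hy => by rw [hy, Complex.ofReal_re]

theorem G_eq (r : J → R) {V : Matrix J J ℂ} (hV : V ∈ Matrix.unitaryGroup J ℂ)
    {v : Matrix R R ℂ} (hv : v ∈ Matrix.unitaryGroup R ℂ) (d : J → ℝ) (k : R → ℝ) :
    Dl r (sd V d) - lamM r (fun x => (sd v k x x).re) =
      LamM r V v * (diagonal fun i : J × R => ((d i.1 - k i.2 : ℝ) : ℂ)) * (LamM r V v)ᴴ := by
  have e : (diagonal fun i : J × R => ((d i.1 - k i.2 : ℝ) : ℂ)) =
      (diagonal fun i : J × R => ((d i.1 * 1 : ℝ) : ℂ)) -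
      (diagonal fun i : J × R => ((1 * k i.2 : ℝ) : ℂ)) := by
    rw [diagonal_sub]
    congr 1
    funext i
    push_cast; ring
  rw [e, Matrix.mul_sub, Matrix.sub_mul]
  ext p q
  rw [Matrix.sub_apply, Matrix.sub_apply, Lam_prod r V v d (fun _ => 1) p q,
    Lam_prod r V v (fun _ => 1) k p q, sd_one hV, sd_one hv]
  by_cases hpq : p = q
  · subst hpq
    rw [one_apply_eq, one_apply_eq, one_mul, mul_one]
    conv_rhs => rw [herm_diag_re (sd_herm v k) (r p)]
    simp [Dl, lamM]
  · by_cases h : r p = r q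
    · rw [← h, one_apply_eq]
      simp [Dl, lamM, hpq, h]
    · have h' : ¬ r q = r p := fun h2 => h h2.symm
      simp [Dl, lamM, hpq, h, h']

theorem Dx_zero (r : J → R) {V : Matrix J J ℂ} (hV : V ∈ Matrix.unitaryGroup J ℂ)
    {v : Matrix R R ℂ} {d : J → ℝ} {k n : R → ℝ} {w : Matrix R R ℂ} (hw : w.IsHermitian)
    (hx : sd v (fun x => Real.exp (k x)) = w + diagonal fun x => ((n x : ℝ) : ℂ))
    {ℓ G : Matrix J J ℂ} (hS : Sx ℓ G 0 = lamM r n) :
    Dx (LamM r V v) (fun i : J × R => k i.2) (fun i : J × R => d i.1 - k i.2) ℓ G 0 =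
      lamM r fun x => (w x x).re := by
  unfold Dx
  rw [hS]
  have e : (diagonal fun i : J × R => ((Real.exp (k i.2 + 0 * (d i.1 - k i.2)) : ℝ) : ℂ)) =
      diagonal fun i : J × R => ((1 * Real.exp (k i.2) : ℝ) : ℂ) := by
    congr 1
    funext i
    rw [zero_mul, add_zero, one_mul]
  rw [e]
  ext p q
  rw [Matrix.sub_apply, Lam_prod r V v (fun _ => 1) (fun x => Real.exp (k x)) p q, sd_one hV, hx]
  by_cases hpq : p = q
  · subst hpq
    rw [one_apply_eq, one_mul, Matrix.add_apply, diagonal_apply_eq, lamM, diagonal_apply_eq, lamM,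
      diagonal_apply_eq, add_sub_cancel_right]
    exact herm_diag_re hw (r p)
  · simp [lamM, hpq]

theorem Dx_one (r : J → R) {V : Matrix J J ℂ}
    {v : Matrix R R ℂ} (hv : v ∈ Matrix.unitaryGroup R ℂ) {d : J → ℝ} {k : R → ℝ}
    {ω P : Matrix J J ℂ} (hω : ω.IsHermitian) (hωd : ∀ p q, r p = r q → p ≠ q → ω p q = 0)
    (hPBD : BD r P) (hX : sd V (fun x => Real.exp (d x)) = ω + P)
    {ℓ G : Matrix J J ℂ} (hS : Sx ℓ G 1 = P) :
    Dx (LamM r V v) (fun i : J × R => k i.2) (fun i : J × R => d i.1 - k i.2) ℓ G 1 =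
      diagonal fun p => (((ω p p).re : ℝ) : ℂ) := by
  unfold Dx
  rw [hS]
  have e : (diagonal fun i : J × R => ((Real.exp (k i.2 + 1 * (d i.1 - k i.2)) : ℝ) : ℂ)) =
      diagonal fun i : J × R => ((Real.exp (d i.1) * 1 : ℝ) : ℂ) := by
    congr 1
    funext i
    rw [one_mul, add_sub_cancel, mul_one]
  rw [e]
  ext p q
  rw [Matrix.sub_apply, Lam_prod r V v (fun x => Real.exp (d x)) (fun _ => 1) p q, sd_one hv, hX,
    Matrix.add_apply]
  by_cases hpq : p = q
  · subst hpq
    rw [one_apply_eq, mul_one, add_sub_cancel_right, diagonal_apply_eq]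
    exact herm_diag_re hω p
  · rw [diagonal_apply_ne _ hpq]
    by_cases h : r p = r q
    · rw [h, one_apply_eq, mul_one, add_sub_cancel_right]
      exact hωd p q h hpq
    · have h' : ¬ r q = r p := fun h2 => h h2.symm
      rw [one_apply_ne h', mul_zero, hPBD p q h, sub_zero]

theorem Dx1_zero (r : J → R) {V : Matrix J J ℂ} (hV : V ∈ Matrix.unitaryGroup J ℂ)
    {v : Matrix R R ℂ} (hv : v ∈ Matrix.unitaryGroup R ℂ) {d : J → ℝ} {k n : R → ℝ}
    {w : Matrix R R ℂ}
    (hx : sd v (fun x => Real.exp (k x)) = w + diagonal fun x => ((n x : ℝ) : ℂ))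
    {ℓ : Matrix J J ℂ}
    (hS : Sx ℓ (Dl r (sd V d) - lamM r (fun x => (sd v k x x).re)) 0 = lamM r n) :
    Dx1 (LamM r V v) (fun i : J × R => k i.2) (fun i : J × R => d i.1 - k i.2) ℓ
      (Dl r (sd V d) - lamM r (fun x => (sd v k x x).re)) 0 =
      (Matrix.of fun p q => sd V d p q * w (r q) (r p)) -
      diagonal fun p => (((w + diagonal fun x => ((n x : ℝ) : ℂ)) * sd v k) (r p) (r p) -
        ((n (r p) * (sd v k (r p) (r p)).re : ℝ) : ℂ)) := by
  unfold Dx1
  rw [hS]
  have e : (diagonal fun i : J × R => ((Real.exp (k i.2 + 0 * (d i.1 - k i.2)) *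
      (d i.1 - k i.2) : ℝ) : ℂ)) =
      (diagonal fun i : J × R => ((d i.1 * Real.exp (k i.2) : ℝ) : ℂ)) -
      diagonal fun i : J × R => ((1 * (Real.exp (k i.2) * k i.2) : ℝ) : ℂ) := by
    rw [diagonal_sub]
    congr 1
    funext i
    rw [zero_mul, add_zero, ← Complex.ofReal_sub]
    congr 1
    ring
  rw [e, Matrix.mul_sub, Matrix.sub_mul]
  ext p q
  rw [Matrix.sub_apply, Matrix.sub_apply, Lam_prod r V v d (fun x => Real.exp (k x)) p q,
    Lam_prod r V v (fun _ => 1) (fun x => Real.exp (k x) * k x) p q, sd_one hV,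
    ← sd_mul hv, hx, Matrix.sub_apply, of_apply, lamM, diagonal_mul, Matrix.sub_apply]
  by_cases hpq : p = q
  · subst hpq
    simp only [Dl, lamM, of_apply, if_true, one_apply_eq, one_mul, diagonal_apply_eq, Matrix.add_apply]
    push_cast
    ring
  · by_cases h : r p = r q
    · simp only [Dl, lamM, of_apply, h, if_true, one_apply_ne hpq, zero_mul,
        diagonal_apply_ne _ hpq, diagonal_apply_eq, Matrix.add_apply]
      ring
    · have h' : ¬ r q = r p := fun h2 => h h2.symm
      simp only [Dl, lamM, of_apply, h, if_false, one_apply_ne hpq, zero_mul,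
        diagonal_apply_ne _ hpq, diagonal_apply_ne _ h', Matrix.add_apply]
      ring

theorem lamM_add (r : J → R) (f g : R → ℝ) :
    lamM r f + lamM r g = lamM r fun x => f x + g x := by
  unfold lamM
  rw [diagonal_add]
  congr 1
  funext p
  push_cast; rfl

theorem lamM_sub (r : J → R) (f g : R → ℝ) :
    lamM r f - lamM r g = lamM r fun x => f x - g x := by
  unfold lamM
  rw [diagonal_sub]
  congr 1
  funext p
  push_cast; rfl

/-- the comparison inequality, differentiated at zero, along one vector -/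
theorem ineq_vec {r : J → R} {V : Matrix J J ℂ} (hV : V ∈ Matrix.unitaryGroup J ℂ)
    {v : Matrix R R ℂ} (hv : v ∈ Matrix.unitaryGroup R ℂ) {d : J → ℝ} {k n : R → ℝ}
    (hn : ∀ x, 0 < n x)
    {w : Matrix R R ℂ} (hw : w.PosDef)
    (hx : sd v (fun x => Real.exp (k x)) = w + diagonal fun x => ((n x : ℝ) : ℂ))
    {ω P : Matrix J J ℂ} (hω : ω.PosDef) (hωd : ∀ p q, r p = r q → p ≠ q → ω p q = 0)
    (hP : P = exp (lamM r (fun x => Real.log (n x) - (sd v k x x).re) + Dl r (sd V d)))
    (hX : sd V (fun x => Real.exp (d x)) = ω + P) (y : J → ℂ) :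
    bf ((Matrix.of fun p q => sd V d p q * w (r q) (r p)) -
      diagonal fun p => (((w + diagonal fun x => ((n x : ℝ) : ℂ)) * sd v k) (r p) (r p) -
        ((n (r p) * (sd v k (r p) (r p)).re : ℝ) : ℂ))) y y ≤
    ∑ p, (Real.log (ω p p).re - Real.log (w (r p) (r p)).re) * (w (r p) (r p)).re *
      Complex.normSq (y p) := by
  have hHh : (sd V d).IsHermitian := sd_herm V d
  set hd : R → ℝ := fun x => (sd v k x x).re with hhd
  set ℓ : Matrix J J ℂ := lamM r (fun x => Real.log (n x)) with hℓ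
  set G : Matrix J J ℂ := Dl r (sd V d) - lamM r hd with hG
  have hℓh : ℓ.IsHermitian := lamM_herm r _
  have hGh : G.IsHermitian := (Dl_herm hHh).sub (lamM_herm r hd)
  have hGBD : BD r G := by
    intro p q h
    rw [hG, Matrix.sub_apply, Dl_BD r _ p q h, lamM_BD r _ p q h, sub_zero]
  have hc : Commute ℓ G := lamM_comm hGBD _
  have hPBD : BD r P := by
    rw [hP]; exact ((lamM_BD r _).add (Dl_BD r _)).exp
  have hPpsd : P.PosSemidef := by
    rw [hP]; exact exp_herm_posSemidef ((lamM_herm r _).add (Dl_herm hHh))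
  have hS0 : Sx ℓ G 0 = lamM r n := by
    unfold Sx
    rw [Complex.ofReal_zero, zero_smul, add_zero, hℓ, exp_lamM]
    congr 1
    funext x
    exact Real.exp_log (hn x)
  have hS1 : Sx ℓ G 1 = P := by
    unfold Sx
    rw [Complex.ofReal_one, one_smul, hP, hG, hℓ]
    congr 1
    rw [← lamM_sub]
    abel
  have e0 : ∀ m : J × R → ℂ, bf (Sx ℓ G 0) (LamM r V v *ᵥ m) (LamM r V v *ᵥ m) ≤
      ∑ i, Real.exp (k i.2) * Complex.normSq (m i) := by
    intro m
    rw [hS0]
    exact end_zero hV hv (fun x => (hn x).le) hw.posSemidef hx m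
  have e1 : ∀ m : J × R → ℂ, bf (Sx ℓ G 1) (LamM r V v *ᵥ m) (LamM r V v *ᵥ m) ≤
      ∑ i : J × R, Real.exp (k i.2 + (d i.1 - k i.2)) * Complex.normSq (m i) := by
    intro m
    rw [hS1]
    simp only [add_sub_cancel]
    exact end_one hV hv hω.posSemidef hPpsd hPBD hX m
  have hwpos : ∀ x, 0 < (w x x).re := fun x => (Complex.pos_iff.1 hw.diag_pos).1
  have hωpos : ∀ p, 0 < (ω p p).re := fun p => (Complex.pos_iff.1 hω.diag_pos).1
  set A : J → ℝ := fun p => Real.log (w (r p) (r p)).re with hA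
  set B : J → ℝ := fun p => Real.log (ω p p).re - Real.log (w (r p) (r p)).re with hB
  have hexpA : ∀ p, Real.exp (A p) = (w (r p) (r p)).re := fun p => Real.exp_log (hwpos _)
  have hexpAB : ∀ p, Real.exp (A p + B p) = (ω p p).re := by
    intro p
    rw [hA, hB]
    simp only [add_sub_cancel]
    exact Real.exp_log (hωpos p)
  have hD0 : ∀ u, bf (Dx (LamM r V v) (fun i : J × R => k i.2)
      (fun i : J × R => d i.1 - k i.2) ℓ G 0) u u = ∑ p, Real.exp (A p) * Complex.normSq (u p) := by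
    intro u
    rw [Dx_zero r hV hw.isHermitian hx hS0, bf_lamM]
    exact Finset.sum_congr rfl fun p _ => by rw [hexpA]
  have hD1 : ∀ u, bf (Dx (LamM r V v) (fun i : J × R => k i.2)
      (fun i : J × R => d i.1 - k i.2) ℓ G 1) u u =
      ∑ p, Real.exp (A p + B p) * Complex.normSq (u p) := by
    intro u
    rw [Dx_one r hv hω.isHermitian hωd hPBD hX hS1, bf_diagonal]
    refine Finset.sum_congr rfl fun p _ => ?_
    rw [hexpAB, RCLike.star_def, ← Complex.normSq_eq_conj_mul_self, Complex.ofReal_re]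
  have key := fun (s : ℝ) (hs : s ∈ Set.Icc (0:ℝ) 1) =>
    cmp_b (Lam_iso r hV hv) hℓh hGh hc (G_eq r hV hv d k) e0 e1
      (fun u => (hD0 u).le) (fun u => (hD1 u).le) hs y
  have hfin := deriv_at_zero (Dx_deriv (Λ := LamM r V v) (a := fun i : J × R => k i.2)
    (β := fun i : J × R => d i.1 - k i.2) hGh hc 0) key (hD0 y)
  rw [Dx1_zero r hV hv hx hS0] at hfin
  refine hfin.trans (le_of_eq ?_)
  refine Finset.sum_congr rfl fun p _ => ?_
  rw [hexpA]

theorem bf_diagonalC (f : J → ℂ) (y : J → ℂ) :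
    bf (diagonal f) y y = ∑ p, (f p).re * Complex.normSq (y p) := by
  unfold bf
  simp only [dotProduct, mulVec_diagonal, Pi.star_apply, Complex.re_sum]
  refine Finset.sum_congr rfl fun i _ => ?_
  have h3 := Complex.normSq_eq_conj_mul_self (z := y i)
  rw [RCLike.star_def, show (starRingEnd ℂ) (y i) * (f i * y i) =
    f i * ((starRingEnd ℂ) (y i) * y i) by ring, ← h3, Complex.re_mul_ofReal]

/-- the summed inequality -/
theorem ineq_sum {κ : Type} [Fintype κ] {r : J → R} {V : Matrix J J ℂ}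
    (hV : V ∈ Matrix.unitaryGroup J ℂ)
    {v : Matrix R R ℂ} (hv : v ∈ Matrix.unitaryGroup R ℂ) {d : J → ℝ} {k n : R → ℝ}
    (hn : ∀ x, 0 < n x)
    {w : Matrix R R ℂ} (hw : w.PosDef)
    (hx : sd v (fun x => Real.exp (k x)) = w + diagonal fun x => ((n x : ℝ) : ℂ))
    {ω P : Matrix J J ℂ} (hω : ω.PosDef) (hωd : ∀ p q, r p = r q → p ≠ q → ω p q = 0)
    (hP : P = exp (lamM r (fun x => Real.log (n x) - (sd v k x x).re) + Dl r (sd V d)))
    (hX : sd V (fun x => Real.exp (d x)) = ω + P)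
    (vv : κ → J → ℂ) (hvv : ∀ p q, ∑ c, star (vv c p) * vv c q * w (r q) (r p) = ω q p)
    (hwtr : ∀ f : R → ℝ, ∑ p, f (r p) * (ω p p).re = ∑ x, f x * (w x x).re) :
    (sd V d * ω).trace.re - ((w + diagonal fun x => ((n x : ℝ) : ℂ)) * sd v k).trace.re +
      ∑ x, n x * (sd v k x x).re ≤
    ∑ p, (ω p p).re * Real.log (ω p p).re - ∑ x, (w x x).re * Real.log (w x x).re := by
  have hwpos : ∀ x, 0 < (w x x).re := fun x => (Complex.pos_iff.1 hw.diag_pos).1
  -- weights
  have hS : ∀ p, (w (r p) (r p)).re * ∑ c, Complex.normSq (vv c p) = (ω p p).re := by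
    intro p
    rw [← hvv p p, Complex.re_sum, Finset.mul_sum]
    refine Finset.sum_congr rfl fun c _ => ?_
    rw [RCLike.star_def, ← Complex.normSq_eq_conj_mul_self, Complex.re_ofReal_mul, mul_comm]
  have hS1 : ∀ f : R → ℝ, ∑ p, f (r p) * ∑ c, Complex.normSq (vv c p) = ∑ x, f x := by
    intro f
    have h1 := hwtr fun x => f x / (w x x).re
    have h2 : ∑ x, f x / (w x x).re * (w x x).re = ∑ x, f x :=
      Finset.sum_congr rfl fun x _ => div_mul_cancel₀ _ (hwpos x).ne'
    rw [h2] at h1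
    rw [← h1]
    refine Finset.sum_congr rfl fun p _ => ?_
    rw [← hS p]
    have := (hwpos (r p)).ne'
    field_simp
  have hsum := Finset.sum_le_sum fun (c : κ) (_ : c ∈ Finset.univ) =>
    ineq_vec hV hv hn hw hx hω hωd hP hX (vv c)
  set T := (w + diagonal fun x => ((n x : ℝ) : ℂ)) * sd v k with hT
  -- left-hand side
  have hL : ∑ c, bf ((Matrix.of fun p q => sd V d p q * w (r q) (r p)) -
      diagonal fun p => (T (r p) (r p) - ((n (r p) * (sd v k (r p) (r p)).re : ℝ) : ℂ)))
        (vv c) (vv c) =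
      (sd V d * ω).trace.re - T.trace.re + ∑ x, n x * (sd v k x x).re := by
    simp only [bf_sub_mat, bf_diagonalC, Finset.sum_sub_distrib]
    have l1 : ∑ c, bf (Matrix.of fun p q => sd V d p q * w (r q) (r p)) (vv c) (vv c) =
        (sd V d * ω).trace.re := by
      simp only [bf_eq]
      rw [← Complex.re_sum, Finset.sum_comm]
      rw [trace]
      congr 1
      refine Finset.sum_congr rfl fun p _ => ?_
      rw [Finset.sum_comm, diag_apply, Matrix.mul_apply]
      refine Finset.sum_congr rfl fun q _ => ?_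
      rw [← hvv p q, Finset.mul_sum]
      refine Finset.sum_congr rfl fun c _ => ?_
      rw [of_apply]; ring
    have l2 : ∑ c, ∑ p, (T (r p) (r p) - ((n (r p) * (sd v k (r p) (r p)).re : ℝ) : ℂ)).re *
        Complex.normSq (vv c p) = T.trace.re - ∑ x, n x * (sd v k x x).re := by
      rw [Finset.sum_comm]
      simp only [← Finset.mul_sum]
      rw [hS1 fun x => (T x x - ((n x * (sd v k x x).re : ℝ) : ℂ)).re, trace, Complex.re_sum,
        ← Finset.sum_sub_distrib]
      refine Finset.sum_congr rfl fun x _ => ?_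
      rw [Complex.sub_re, Complex.ofReal_re, diag_apply]
    rw [l1, l2]
    ring
  have hR : ∑ c, ∑ p, (Real.log (ω p p).re - Real.log (w (r p) (r p)).re) *
      (w (r p) (r p)).re * Complex.normSq (vv c p) =
      ∑ p, (ω p p).re * Real.log (ω p p).re - ∑ x, (w x x).re * Real.log (w x x).re := by
    rw [Finset.sum_comm]
    have r1 : ∑ p, Real.log (w (r p) (r p)).re * (ω p p).re =
        ∑ x, Real.log (w x x).re * (w x x).re := hwtr fun x => Real.log (w x x).re
    have r2 : ∑ x, (w x x).re * Real.log (w x x).re = ∑ x, Real.log (w x x).re * (w x x).re :=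
      Finset.sum_congr rfl fun x _ => mul_comm _ _
    rw [r2, ← r1, ← Finset.sum_sub_distrib]
    refine Finset.sum_congr rfl fun p _ => ?_
    rw [← Finset.mul_sum]
    have := hS p
    rw [mul_assoc, this]
    ring
  rw [hL, hR] at hsum
  exact hsum

/-- **Main inequality (P5)** -/
theorem main_P5 {κ : Type} [Fintype κ] {r : J → R}
    {n : R → ℝ} (hn : ∀ x, 0 < n x) {w : Matrix R R ℂ} (hw : w.PosDef)
    {ω : Matrix J J ℂ} (hω : ω.PosDef) (hωd : ∀ p q, r p = r q → p ≠ q → ω p q = 0)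
    (vv : κ → J → ℂ) (hvv : ∀ p q, ∑ c, star (vv c p) * vv c q * w (r q) (r p) = ω q p)
    (hwtr : ∀ f : R → ℝ, ∑ p, f (r p) * (ω p p).re = ∑ x, f x * (w x x).re)
    {N : Matrix J J ℂ} (hN : N.PosSemidef) (hNBD : BD r N)
    (hNtr : ∀ f : R → ℝ, ∑ p, f (r p) * (N p p).re = ∑ x, f x * n x) :
    ent N + ent (w + diagonal fun x => ((n x : ℝ) : ℂ)) - ∑ x, Real.negMulLog (n x)
      + ∑ p, Real.negMulLog (ω p p).re - ∑ x, Real.negMulLog (w x x).re ≤ ent (ω + N) := by
  have hnpsd : (diagonal fun x => ((n x : ℝ) : ℂ) : Matrix R R ℂ).PosSemidef := by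
    refine PosSemidef.diagonal ?_
    intro x
    simpa using (hn x).le
  obtain ⟨v, hv, k, hxk, hentx⟩ := exists_log (hw.add_posSemidef hnpsd)
  rw [exp_sd hv] at hxk
  set lam : R → ℝ := fun x => Real.log (n x) - (sd v k x x).re with hlam
  have hneg : ∀ x, lam x < 0 := fun x => by
    have := lam_neg hv hn hw hxk x
    rw [hlam]; simp only; linarith
  obtain ⟨c, hc0, hc1, hc⟩ : ∃ c : ℝ, 0 ≤ c ∧ c < 1 ∧ ∀ x, Real.exp (lam x) ≤ c := by
    by_cases hR : Nonempty R
    · obtain ⟨x0, hx0⟩ := Finite.exists_max lam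
      exact ⟨Real.exp (lam x0), (Real.exp_pos _).le, (by rw [← Real.exp_zero]; exact Real.exp_lt_exp.2 (hneg x0)),
        fun x => Real.exp_le_exp.2 (hx0 x)⟩
    · exact ⟨0, le_rfl, one_pos, fun x => (hR ⟨x⟩).elim⟩
  obtain ⟨H, hH, hst, hbd⟩ := exists_H (r := r) (lam := lam) hc1 (fun p => hc (r p)) hc0 hω
  obtain ⟨V, hV, hHV⟩ := exists_sd hH
  generalize hH.eigenvalues = d at hHV
  have h3 := ineq_sum (P := exp (lamM r lam + Dl r H)) hV hv hn hw hxk hω hωd
    (by rw [hHV]) (by
      rw [← exp_sd hV, ← hHV, ← hst]; abel) vv hvv hwtr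
  have h4 := hbd N hN hNBD
  have h5 : (N * lamM r lam).trace.re = ∑ x, lam x * n x := by
    rw [← hNtr lam, trace, Complex.re_sum]
    refine Finset.sum_congr rfl fun p _ => ?_
    rw [diag_apply, lamM, mul_diagonal, Complex.re_mul_ofReal, mul_comm]
  have h6 : ∑ x, lam x * n x = -∑ x, Real.negMulLog (n x) - ∑ x, n x * (sd v k x x).re := by
    rw [← Finset.sum_neg_distrib, ← Finset.sum_sub_distrib]
    refine Finset.sum_congr rfl fun x _ => ?_
    rw [hlam, Real.negMulLog]; simp only; ring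
  have h7 : (ω * H).trace.re = (sd V d * ω).trace.re := by
    rw [trace_mul_comm, hHV]
  have h8 : ∑ p, Real.negMulLog (ω p p).re = -∑ p, (ω p p).re * Real.log (ω p p).re := by
    rw [← Finset.sum_neg_distrib]
    refine Finset.sum_congr rfl fun p _ => ?_
    rw [Real.negMulLog]; ring
  have h9 : ∑ x, Real.negMulLog (w x x).re = -∑ x, (w x x).re * Real.log (w x x).re := by
    rw [← Finset.sum_neg_distrib]
    refine Finset.sum_congr rfl fun p _ => ?_
    rw [Real.negMulLog]; ring
  rw [h5, h6, h7] at h4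
  rw [h8, h9]
  linarith

end

end Vale.Agent.P358
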