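import Vale.Agent.P358_h28.Key0Sq

/-!
The key inequality at `ν = 0` and `ν = 1`.
-/

open Matrix
open scoped ComplexOrder

namespace Vale.Agent.P358

variable {ι κ : Type} [Fintype ι] [DecidableEq ι] [Fintype κ] [DecidableEq κ]

theorem ent_eq_of_charpoly' {A : Matrix ι ι ℂ} {B : Matrix κ κ ℂ} (hA : A.IsHermitian)
    (hB : B.IsHermitian) (h : A.charpoly = B.charpoly) : ent A = ent B := by
  rw [ent_eq_roots hA, ent_eq_roots hB, h]

theorem ent_pad {A : Matrix ι ι ℂ} (hA : A.IsHermitian) :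
    ent (fromBlocks A 0 0 (0 : Matrix κ κ ℂ)) = ent A := by
  have hB : (fromBlocks A 0 0 (0 : Matrix κ κ ℂ)).IsHermitian :=
    IsHermitian.fromBlocks hA (by simp) isHermitian_zero
  rw [ent_eq_roots hA, ent_eq_roots hB, charpoly_fromBlocks_zero₁₂, charpoly_zero,
    Polynomial.roots_mul, Polynomial.roots_X_pow]
  · simp [Multiset.nsmul_singleton]
  · exact mul_ne_zero (charpoly_monic A).ne_zero (pow_ne_zero _ Polynomial.X_ne_zero)

theorem ent_submatrix (e : κ ≃ ι) {A : Matrix ι ι ℂ} (hA : A.IsHermitian) :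
    ent (A.submatrix e e) = ent A := by
  have hB : (A.submatrix e e).IsHermitian := hA.submatrix e
  apply ent_eq_of_charpoly' hB hA
  exact charpoly_reindex e.symm A

theorem ent_smul' {A : Matrix ι ι ℂ} (hA : A.IsHermitian) (c : ℝ) :
    ent ((c : ℂ) • A) = c * ent A + Real.negMulLog c * A.trace.re := by
  have h1 := hA.spectral_theorem
  rw [Unitary.conjStarAlgAut_apply] at h1
  set V : Matrix ι ι ℂ := (hA.eigenvectorUnitary : Matrix ι ι ℂ) with hV
  have hVu : V ∈ Matrix.unitaryGroup ι ℂ := hA.eigenvectorUnitary.2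
  have h2 : (c : ℂ) • A = V * diagonal (fun k => ((c * hA.eigenvalues k : ℝ) : ℂ)) * Vᴴ := by
    conv_lhs => rw [h1]
    rw [star_eq_conjTranspose, ← Matrix.smul_mul, ← Matrix.mul_smul, ← diagonal_smul]
    congr 3
    ext k; simp
  rw [h2, ent_conj_diagonal hVu, ent_of_herm hA, trace_re_eq_sum hA]
  simp only [Real.negMulLog_mul, Finset.sum_add_distrib]
  rw [Finset.mul_sum, Finset.mul_sum, add_comm]
  congr 1
  apply Finset.sum_congr rfl
  intro k _; ring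

theorem ent_pad_blocks (A B C D : Matrix ι ι ℂ) (h : (fromBlocks A B C D).IsHermitian) :
    ent (fromBlocks (fromBlocks A 0 0 (0 : Matrix κ κ ℂ)) (fromBlocks B 0 0 (0 : Matrix κ κ ℂ))
      (fromBlocks C 0 0 (0 : Matrix κ κ ℂ)) (fromBlocks D 0 0 (0 : Matrix κ κ ℂ))) =
    ent (fromBlocks A B C D) := by
  have h2 := ent_pad (κ := κ ⊕ κ) h
  rw [← h2]
  have hH : (fromBlocks (fromBlocks A B C D) 0 0 (0 : Matrix (κ ⊕ κ) (κ ⊕ κ) ℂ)).IsHermitian :=
    IsHermitian.fromBlocks h (by simp) isHermitian_zero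
  rw [← ent_submatrix (Equiv.sumSumSumComm ι κ ι κ) hH]
  congr 1
  ext i j
  rcases i with (i | i) | (i | i) <;> rcases j with (j | j) | (j | j) <;> rfl

theorem keyIneq_zero_aux {γ : ℝ} (hγ : γ ∈ Set.Icc (0:ℝ) 1) (U W : Matrix ι κ ℂ) :
    ent (U * Uᴴ) + ent (W * Wᴴ) + G γ 0 (hs U) (hs W) ≤ ent (outBlock γ 0 U W) := by
  obtain ⟨hγ0, hγ1⟩ := hγ
  set s : ℝ := Real.sqrt (1 - γ) with hs'
  have hss : s * s = 1 - γ := Real.mul_self_sqrt (by linarith)
  set U' : Matrix (ι ⊕ κ) (ι ⊕ κ) ℂ := fromBlocks 0 U 0 0 with hU'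
  set W' : Matrix (ι ⊕ κ) (ι ⊕ κ) ℂ := fromBlocks 0 W 0 0 with hW'
  have hpr : ∀ X Y : Matrix ι κ ℂ, (fromBlocks 0 X 0 0 : Matrix (ι ⊕ κ) (ι ⊕ κ) ℂ) *
      (fromBlocks 0 Y 0 0 : Matrix (ι ⊕ κ) (ι ⊕ κ) ℂ)ᴴ = fromBlocks (X * Yᴴ) 0 0 0 := by
    intro X Y
    rw [fromBlocks_conjTranspose, fromBlocks_multiply]
    simp
  have hUU : (U * Uᴴ).IsHermitian := isHermitian_mul_conjTranspose_self U
  have hWW : (W * Wᴴ).IsHermitian := isHermitian_mul_conjTranspose_self W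
  have hWWp : (W' * W'ᴴ).PosSemidef := posSemidef_self_mul_conjTranspose W'
  set P' : Matrix (ι ⊕ κ) (ι ⊕ κ) ℂ := (γ : ℂ) • (W' * W'ᴴ) with hP'
  have hP'pos : P'.PosSemidef := hWWp.smul (by exact_mod_cast hγ0)
  set W'' : Matrix (ι ⊕ κ) (ι ⊕ κ) ℂ := (s : ℂ) • W' with hW''
  have key := key_sq hP'pos U' W''
  have e1 : W''ᴴ * W'' = ((1 - γ : ℝ) : ℂ) • (W'ᴴ * W') := by
    rw [hW'', conjTranspose_smul, Matrix.smul_mul, Matrix.mul_smul, smul_smul, ← hss]
    congr 1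
    simp
  have e2 : W'' * W''ᴴ = ((1 - γ : ℝ) : ℂ) • (W' * W'ᴴ) := by
    rw [hW'', conjTranspose_smul, Matrix.smul_mul, Matrix.mul_smul, smul_smul, ← hss]
    congr 1
    simp
  have e3 : U' * W''ᴴ = (s : ℂ) • (U' * W'ᴴ) := by
    rw [hW'', conjTranspose_smul, Matrix.mul_smul]
    congr 1
    simp
  have e4 : W'' * U'ᴴ = (s : ℂ) • (W' * U'ᴴ) := by
    rw [hW'', Matrix.smul_mul]
  have hWWc : ent (W'ᴴ * W') = ent (W * Wᴴ) := by
    rw [← ent_pad (κ := κ) hWW, ← hpr W W]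
    apply ent_eq_of_charpoly' (isHermitian_conjTranspose_mul_self _)
      (isHermitian_mul_conjTranspose_self _)
    exact charpoly_mul_comm _ _
  have hWtr : (W'ᴴ * W').trace.re = hs W := by
    rw [trace_mul_comm, hW', hpr W W]
    unfold hs
    simp [Matrix.trace, Fintype.sum_sum_type]
  have hWtr' : (W' * W'ᴴ).trace.re = hs W := by
    rw [hW', hpr W W]
    unfold hs
    simp [Matrix.trace, Fintype.sum_sum_type]
  have hUtr : (U' * U'ᴴ).trace.re = hs U := by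
    rw [hU', hpr U U]
    unfold hs
    simp [Matrix.trace, Fintype.sum_sum_type]
  have hentU : ent (U' * U'ᴴ) = ent (U * Uᴴ) := by
    rw [hU', hpr U U, ent_pad hUU]
  have hentWW' : ent (W' * W'ᴴ) = ent (W * Wᴴ) := by
    rw [hW', hpr W W, ent_pad hWW]
  have htrP : P'.trace.re = γ * hs W := by
    rw [hP', trace_smul, ← hWtr']
    simp
  have htrQ : (W''ᴴ * W'').trace.re = (1 - γ) * hs W := by
    rw [e1, trace_smul, ← hWtr]
    simp
  have hentP : ent P' = γ * ent (W * Wᴴ) + Real.negMulLog γ * hs W := by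
    rw [hP', ent_smul' hWWp.isHermitian, hentWW', hWtr']
  have hentQ : ent (W''ᴴ * W'') = (1 - γ) * ent (W * Wᴴ) + Real.negMulLog (1 - γ) * hs W := by
    rw [e1, ent_smul' (isHermitian_conjTranspose_mul_self _), hWWc, hWtr]
  have hout : fromBlocks (P' + U' * U'ᴴ) (U' * W''ᴴ) (W'' * U'ᴴ) (W'' * W''ᴴ) =
      fromBlocks (fromBlocks (((1 - γ * 0 : ℝ) : ℂ) • (U * Uᴴ) +
        ((γ * (1 - 0) : ℝ) : ℂ) • (W * Wᴴ)) 0 0 (0 : Matrix κ κ ℂ))
        (fromBlocks (((Real.sqrt (1 - γ) : ℝ) : ℂ) • (U * Wᴴ)) 0 0 (0 : Matrix κ κ ℂ))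
        (fromBlocks (((Real.sqrt (1 - γ) : ℝ) : ℂ) • (W * Uᴴ)) 0 0 (0 : Matrix κ κ ℂ))
        (fromBlocks (((γ * 0 : ℝ) : ℂ) • (U * Uᴴ) +
          ((1 - γ * (1 - 0) : ℝ) : ℂ) • (W * Wᴴ)) 0 0 (0 : Matrix κ κ ℂ)) := by
    rw [hP', e2, e3, e4, hU', hW', hpr, hpr, hpr, hpr]
    simp only [fromBlocks_smul, fromBlocks_add, smul_zero, add_zero, mul_zero, sub_zero, mul_one,
      Complex.ofReal_zero, Complex.ofReal_one, zero_smul, one_smul, zero_add]
    rw [add_comm (U * Uᴴ)]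
  have houtH : (outBlock γ 0 U W).IsHermitian := by
    unfold outBlock
    apply IsHermitian.fromBlocks
    · exact (hUU.smul (by simp [IsSelfAdjoint])).add (hWW.smul (by simp [IsSelfAdjoint]))
    · rw [conjTranspose_smul, conjTranspose_mul, conjTranspose_conjTranspose]
      simp
    · exact (hUU.smul (by simp [IsSelfAdjoint])).add (hWW.smul (by simp [IsSelfAdjoint]))
  rw [hout, ent_pad_blocks _ _ _ _ houtH, hentP, hentQ, hentU, hUtr, htrP, htrQ] at key
  refine le_trans (le_of_eq ?_) key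
  have hD : Dab γ 0 (hs U) (hs W) = γ * hs W * ((1 - γ) * hs W) := by
    unfold Dab; ring
  have hT : hs U + γ * hs W + (1 - γ) * hs W = hs U + hs W := by ring
  unfold G
  rw [hD, hT, Real.negMulLog_mul, Real.negMulLog_mul]
  ring

theorem keyIneq_zero {γ : ℝ} (hγ : γ ∈ Set.Icc (0:ℝ) 1) : KeyIneq γ 0 := by
  intro ι κ _ _ _ _ U W
  exact keyIneq_zero_aux hγ U W

theorem keyIneq_one {γ : ℝ} (hγ : γ ∈ Set.Icc (0:ℝ) 1) : KeyIneq γ 1 := by
  intro ι κ _ _ _ _ U W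
  have key := keyIneq_zero_aux hγ W U
  have hUU : (U * Uᴴ).IsHermitian := isHermitian_mul_conjTranspose_self U
  have hWW : (W * Wᴴ).IsHermitian := isHermitian_mul_conjTranspose_self W
  have houtH : (outBlock γ 0 W U).IsHermitian := by
    unfold outBlock
    apply IsHermitian.fromBlocks
    · exact (hWW.smul (by simp [IsSelfAdjoint])).add (hUU.smul (by simp [IsSelfAdjoint]))
    · rw [conjTranspose_smul, conjTranspose_mul, conjTranspose_conjTranspose]
      simp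
    · exact (hWW.smul (by simp [IsSelfAdjoint])).add (hUU.smul (by simp [IsSelfAdjoint]))
  have hswap : outBlock γ 1 U W = (outBlock γ 0 W U).submatrix (Equiv.sumComm ι ι)
      (Equiv.sumComm ι ι) := by
    unfold outBlock
    ext i j
    rcases i with i | i <;> rcases j with j | j <;>
      simp [add_comm]
  rw [hswap, ent_submatrix _ houtH]
  have hG : G γ 1 (hs U) (hs W) = G γ 0 (hs W) (hs U) := by
    unfold G
    have h1 : Dab γ 1 (hs U) (hs W) = Dab γ 0 (hs W) (hs U) := by unfold Dab; ring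
    rw [h1, add_comm (hs U) (hs W)]
    ring
  rw [hG]
  linarith

end Vale.Agent.P358
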