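import Vale.Agent.P358_h28.Basic

/-!
Singular value decomposition for square complex matrices.
-/

open Matrix
open scoped ComplexOrder

namespace Vale.Agent.P358

variable {ι : Type} [Fintype ι] [DecidableEq ι]

theorem exists_svd (U : Matrix ι ι ℂ) : ∃ (V1 V2 : Matrix ι ι ℂ) (σ : ι → ℝ),
    V1 ∈ Matrix.unitaryGroup ι ℂ ∧ V2 ∈ Matrix.unitaryGroup ι ℂ ∧ (∀ k, 0 ≤ σ k) ∧
      U = V1 * diagonal (fun k => (σ k : ℂ)) * V2ᴴ := by
  have hA : (Uᴴ * U).IsHermitian := isHermitian_conjTranspose_mul_self U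
  set b := hA.eigenvectorBasis with hb
  set f : ι → EuclideanSpace ℂ ι := fun k => WithLp.toLp 2 (U *ᵥ (b k).ofLp) with hf
  have hinner : ∀ j k, inner ℂ (f j) (f k) = (hA.eigenvalues k : ℂ) * inner ℂ (b j) (b k) := by
    intro j k
    rw [EuclideanSpace.inner_eq_star_dotProduct, EuclideanSpace.inner_eq_star_dotProduct]
    simp only [hf]
    have h1 : (Uᴴ * U) *ᵥ (b k).ofLp = (hA.eigenvalues k : ℂ) • (b k).ofLp := by
      have := hA.mulVec_eigenvectorBasis k
      rw [← hb] at this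
      rw [this]; rfl
    have h2 : star (U *ᵥ (b j).ofLp) ⬝ᵥ (U *ᵥ (b k).ofLp) = star (b j).ofLp ⬝ᵥ ((Uᴴ * U) *ᵥ (b k).ofLp) := by
      rw [star_mulVec, ← dotProduct_mulVec, mulVec_mulVec]
    rw [dotProduct_comm, h2, h1, dotProduct_smul, smul_eq_mul, dotProduct_comm]
  have hort : ∀ j k, j ≠ k → inner ℂ (f j) (f k) = (0 : ℂ) := by
    intro j k hjk
    rw [hinner, b.orthonormal.inner_eq_zero hjk, mul_zero]
  set s : Set ι := {k | f k ≠ 0} with hs
  set v : ι → EuclideanSpace ℂ ι := fun k => ((‖f k‖⁻¹ : ℝ) : ℂ) • f k with hv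
  have hvort : Orthonormal ℂ (s.domRestrict v) := by
    constructor
    · rintro ⟨k, hk⟩
      have hk' : f k ≠ 0 := hk
      have : ‖f k‖ ≠ 0 := norm_ne_zero_iff.2 hk'
      simp only [Set.domRestrict_apply, hv]
      rw [norm_smul, Complex.norm_real, Real.norm_of_nonneg (by positivity)]
      field_simp
    · rintro ⟨j, hj⟩ ⟨k, hk⟩ hjk
      have hjk' : j ≠ k := fun h => hjk (Subtype.ext h)
      simp only [Set.domRestrict_apply, hv]
      rw [inner_smul_left, inner_smul_right, hort j k hjk', mul_zero, mul_zero]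
  obtain ⟨g, hg⟩ := hvort.exists_orthonormalBasis_extension_of_card_eq (by simp)
  have hfg : ∀ k, f k = ((‖f k‖ : ℝ) : ℂ) • g k := by
    intro k
    by_cases hk : f k = 0
    · rw [hk]; simp
    · rw [hg k hk]
      simp only [hv]
      have : (‖f k‖ : ℂ) ≠ 0 := by exact_mod_cast norm_ne_zero_iff.2 hk
      rw [smul_smul]
      push_cast
      rw [mul_inv_cancel₀ this, one_smul]
  refine ⟨(EuclideanSpace.basisFun ι ℂ).toBasis.toMatrix g.toBasis,
    (EuclideanSpace.basisFun ι ℂ).toBasis.toMatrix b.toBasis, fun k => ‖f k‖,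
    (EuclideanSpace.basisFun ι ℂ).toMatrix_orthonormalBasis_mem_unitary g,
    (EuclideanSpace.basisFun ι ℂ).toMatrix_orthonormalBasis_mem_unitary b,
    fun k => norm_nonneg _, ?_⟩
  set V1 := (EuclideanSpace.basisFun ι ℂ).toBasis.toMatrix g.toBasis with hV1
  set V2 := (EuclideanSpace.basisFun ι ℂ).toBasis.toMatrix b.toBasis with hV2
  have hV2u : V2 ∈ Matrix.unitaryGroup ι ℂ :=
    (EuclideanSpace.basisFun ι ℂ).toMatrix_orthonormalBasis_mem_unitary b
  have hmain : U * V2 = V1 * diagonal (fun k => (‖f k‖ : ℂ)) := by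
    ext i k
    rw [Matrix.mul_diagonal]
    have h1 : (U * V2) i k = (f k).ofLp i := rfl
    have h2 : V1 i k = (g k).ofLp i := rfl
    rw [h1, h2]
    conv_lhs => rw [hfg k]
    simp [mul_comm]
  have : U = (U * V2) * V2ᴴ := by
    rw [Matrix.mul_assoc]
    have h3 := (Matrix.mem_unitaryGroup_iff).1 hV2u
    rw [star_eq_conjTranspose] at h3
    rw [h3, Matrix.mul_one]
  rw [this, hmain]

end Vale.Agent.P358
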