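import Vale.Agent.P358_h28.Key0Pinch
import Vale.Agent.P358_h28.Key0SVD

/-!
Determinant identity and the general pinching inequality.
-/

open Matrix
open scoped ComplexOrder

namespace Vale.Agent.P358

variable {ι : Type} [Fintype ι] [DecidableEq ι]

omit [Fintype ι] in
theorem posDef_smul_one_add {P : Matrix ι ι ℂ} (hP : P.PosSemidef) {t : ℝ} (ht : 0 < t) :
    ((t : ℂ) • (1 : Matrix ι ι ℂ) + P).PosDef := by
  apply PosDef.add_posSemidef _ hP
  apply PosDef.smul PosDef.one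
  exact_mod_cast ht

/-- Schur complement / determinant lemma for the output matrix at `ν = 0`. -/
theorem det_out {P : Matrix ι ι ℂ} (hP : P.PosSemidef) (U W : Matrix ι ι ℂ) {t : ℝ} (ht : 0 < t) :
    ((t : ℂ) • (1 : Matrix (ι ⊕ ι) (ι ⊕ ι) ℂ) +
      fromBlocks (P + U * Uᴴ) (U * Wᴴ) (W * Uᴴ) (W * Wᴴ)).det =
    (fromBlocks ((t : ℂ) • (1 : Matrix ι ι ℂ) + P) (((Real.sqrt t : ℝ) : ℂ) • (Complex.I • U))
      (((Real.sqrt t : ℝ) : ℂ) • (Complex.I • Uᴴ)) ((t : ℂ) • (1 : Matrix ι ι ℂ) + Wᴴ * W)).det := by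
  have htc : (t : ℂ) ≠ 0 := by exact_mod_cast ht.ne'
  set T : Matrix ι ι ℂ := (t : ℂ) • (1 : Matrix ι ι ℂ) + P with hT
  have hTpos : T.PosDef := posDef_smul_one_add hP ht
  have hTdet : IsUnit T.det := hTpos.det_pos.ne'.isUnit
  have hTinv : Invertible T := T.invertibleOfIsUnitDet hTdet
  set D0 : Matrix (ι ⊕ ι) (ι ⊕ ι) ℂ := fromBlocks T 0 0 ((t : ℂ) • (1 : Matrix ι ι ℂ)) with hD0
  have hD0det : D0.det = T.det * (t : ℂ) ^ Fintype.card ι := by
    rw [hD0, det_fromBlocks_zero₂₁, det_smul, det_one, mul_one]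
  have hD0unit : IsUnit D0.det := by
    rw [hD0det]; exact (mul_ne_zero hTpos.det_pos.ne' (pow_ne_zero _ htc)).isUnit
  have hD0inv : D0⁻¹ = fromBlocks T⁻¹ 0 0 ((t : ℂ)⁻¹ • (1 : Matrix ι ι ℂ)) := by
    apply Matrix.inv_eq_right_inv
    rw [hD0, fromBlocks_multiply]
    simp only [Matrix.mul_zero, Matrix.zero_mul, add_zero, zero_add,
      Matrix.mul_nonsing_inv _ hTdet, Matrix.smul_mul, Matrix.mul_smul, Matrix.one_mul, smul_smul,
      inv_mul_cancel₀ htc, one_smul, smul_zero, fromBlocks_one]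
  have hsplit : (t : ℂ) • (1 : Matrix (ι ⊕ ι) (ι ⊕ ι) ℂ) +
      fromBlocks (P + U * Uᴴ) (U * Wᴴ) (W * Uᴴ) (W * Wᴴ) = D0 + fromRows U W * fromCols Uᴴ Wᴴ := by
    rw [fromRows_mul_fromCols, hD0, ← fromBlocks_one, fromBlocks_smul, fromBlocks_add,
      fromBlocks_add, hT]
    congr 1
    · rw [add_assoc]
    · simp
    · simp
  rw [hsplit, det_add_mul _ _ hD0unit, hD0inv, fromCols_mul_fromBlocks, fromCols_mul_fromRows,
    hD0det, det_fromBlocks₁₁]
  simp only [Matrix.mul_zero, add_zero, zero_add, Matrix.mul_smul, Matrix.mul_one,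
    Matrix.smul_mul, invOf_eq_nonsing_inv]
  rw [mul_assoc, ← det_smul]
  congr 2
  have hsq : ((Real.sqrt t : ℝ) : ℂ) * ((Real.sqrt t : ℝ) : ℂ) = (t : ℂ) := by
    rw [← Complex.ofReal_mul, Real.mul_self_sqrt ht.le]
  rw [smul_add, smul_add, smul_smul (t : ℂ) ((t : ℂ)⁻¹), mul_inv_cancel₀ htc, one_smul]
  have : ((Real.sqrt t : ℝ) : ℂ) • Complex.I • ((Real.sqrt t : ℝ) : ℂ) • Complex.I • (Uᴴ * T⁻¹ * U)
      = -((t : ℂ) • (Uᴴ * T⁻¹ * U)) := by
    simp only [smul_smul]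
    rw [← neg_smul]
    congr 1
    calc ((Real.sqrt t : ℝ) : ℂ) * (Complex.I * (((Real.sqrt t : ℝ) : ℂ) * Complex.I))
        = ((Real.sqrt t : ℝ) : ℂ) * ((Real.sqrt t : ℝ) : ℂ) * (Complex.I * Complex.I) := by ring
      _ = - t := by rw [hsq, Complex.I_mul_I]; ring
  rw [this, sub_neg_eq_add]
  abel

theorem norm_det_unitary {V : Matrix ι ι ℂ} (hV : V ∈ Matrix.unitaryGroup ι ℂ) : ‖V.det‖ = 1 := by
  have h := congrArg det (Matrix.mem_unitaryGroup_iff.1 hV)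
  rw [det_mul, det_one, star_eq_conjTranspose, det_conjTranspose] at h
  have h2 := congrArg norm h
  rw [norm_mul, norm_star, norm_one] at h2
  nlinarith [norm_nonneg V.det]

theorem det_conj_unitary {V : Matrix ι ι ℂ} (hV : V ∈ Matrix.unitaryGroup ι ℂ) (A : Matrix ι ι ℂ) :
    (Vᴴ * A * V).det = A.det := by
  have h := congrArg det (Matrix.mem_unitaryGroup_iff.1 hV)
  rw [det_mul, det_one, star_eq_conjTranspose] at h
  rw [det_mul, det_mul]
  calc Vᴴ.det * A.det * V.det = (V.det * Vᴴ.det) * A.det := by ring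
    _ = A.det := by rw [h, one_mul]

/-- General pinching inequality (with singular values of `U`). -/
theorem pinch (U P Q : Matrix ι ι ℂ) (hP : P.PosSemidef) (hQ : Q.PosSemidef) :
    ∃ (V : Matrix ι ι ℂ) (σ p q : ι → ℝ), V ∈ Matrix.unitaryGroup ι ℂ ∧
      U * Uᴴ = V * diagonal (fun k => ((σ k ^ 2 : ℝ) : ℂ)) * Vᴴ ∧
      (∀ k, 0 ≤ p k) ∧ (∀ k, 0 ≤ q k) ∧ ∑ k, p k = P.trace.re ∧ ∑ k, q k = Q.trace.re ∧
      ∀ t : ℝ, 0 < t →
        ((t : ℂ) • (1 : Matrix ι ι ℂ) + P).det.re * ((t : ℂ) • (1 : Matrix ι ι ℂ) + Q).det.re *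
          ∏ k, ((t + p k) * (t + q k) + t * σ k ^ 2) ≤
        ‖(fromBlocks ((t : ℂ) • (1 : Matrix ι ι ℂ) + P) (((Real.sqrt t : ℝ) : ℂ) • (Complex.I • U))
          (((Real.sqrt t : ℝ) : ℂ) • (Complex.I • Uᴴ)) ((t : ℂ) • (1 : Matrix ι ι ℂ) + Q)).det‖ *
          ∏ k, ((t + p k) * (t + q k)) := by
  obtain ⟨V1, V2, σ, hV1, hV2, hσ, hU⟩ := exists_svd U
  set S : Matrix ι ι ℂ := diagonal (fun k => (σ k : ℂ)) with hS
  have hSH : Sᴴ = S := by
    rw [hS, diagonal_conjTranspose]; congr 1; ext k; simp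
  have hV1s : V1ᴴ * V1 = 1 := by
    have := Matrix.mem_unitaryGroup_iff'.1 hV1; rwa [star_eq_conjTranspose] at this
  have hV1s' : V1 * V1ᴴ = 1 := by
    have := Matrix.mem_unitaryGroup_iff.1 hV1; rwa [star_eq_conjTranspose] at this
  have hV2s : V2ᴴ * V2 = 1 := by
    have := Matrix.mem_unitaryGroup_iff'.1 hV2; rwa [star_eq_conjTranspose] at this
  have hV2s' : V2 * V2ᴴ = 1 := by
    have := Matrix.mem_unitaryGroup_iff.1 hV2; rwa [star_eq_conjTranspose] at this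
  have hPt : (V1ᴴ * P * V1).PosSemidef := hP.conjTranspose_mul_mul_same V1
  have hQt : (V2ᴴ * Q * V2).PosSemidef := hQ.conjTranspose_mul_mul_same V2
  refine ⟨V1, σ, fun k => ((V1ᴴ * P * V1) k k).re, fun k => ((V2ᴴ * Q * V2) k k).re, hV1,
    ?_, ?_, ?_, ?_, ?_, ?_⟩
  · rw [hU]
    simp only [conjTranspose_mul, conjTranspose_conjTranspose, hSH]
    calc V1 * S * V2ᴴ * (V2 * (S * V1ᴴ)) = V1 * S * (V2ᴴ * V2) * S * V1ᴴ := by
          simp only [Matrix.mul_assoc]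
      _ = V1 * (S * S) * V1ᴴ := by rw [hV2s, Matrix.mul_one]; simp only [Matrix.mul_assoc]
      _ = _ := by
        rw [hS, diagonal_mul_diagonal]
        congr 2
        congr 1
        ext k; push_cast; ring
  · intro k; exact (Complex.nonneg_iff.1 (hPt.diag_nonneg (i := k))).1
  · intro k; exact (Complex.nonneg_iff.1 (hQt.diag_nonneg (i := k))).1
  · have : (V1ᴴ * P * V1).trace = P.trace := by
      rw [trace_mul_comm, ← Matrix.mul_assoc, hV1s', Matrix.one_mul]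
    rw [← this, trace, Complex.re_sum]; rfl
  · have : (V2ᴴ * Q * V2).trace = Q.trace := by
      rw [trace_mul_comm, ← Matrix.mul_assoc, hV2s', Matrix.one_mul]
    rw [← this, trace, Complex.re_sum]; rfl
  · intro t ht
    have hA := posDef_smul_one_add hPt ht
    have hB := posDef_smul_one_add hQt ht
    have key := pinch_diag hA hB (fun k => Real.sqrt t * σ k)
    have eA : (t : ℂ) • (1 : Matrix ι ι ℂ) + V1ᴴ * P * V1 =
        V1ᴴ * ((t : ℂ) • (1 : Matrix ι ι ℂ) + P) * V1 := by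
      rw [Matrix.mul_add, Matrix.add_mul, Matrix.mul_smul, Matrix.smul_mul, Matrix.mul_one, hV1s]
    have eB : (t : ℂ) • (1 : Matrix ι ι ℂ) + V2ᴴ * Q * V2 =
        V2ᴴ * ((t : ℂ) • (1 : Matrix ι ι ℂ) + Q) * V2 := by
      rw [Matrix.mul_add, Matrix.add_mul, Matrix.mul_smul, Matrix.smul_mul, Matrix.mul_one, hV2s]
    have dA : ∀ k, (((t : ℂ) • (1 : Matrix ι ι ℂ) + V1ᴴ * P * V1) k k).re =
        t + ((V1ᴴ * P * V1) k k).re := by intro k; simp
    have dB : ∀ k, (((t : ℂ) • (1 : Matrix ι ι ℂ) + V2ᴴ * Q * V2) k k).re =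
        t + ((V2ᴴ * Q * V2) k k).re := by intro k; simp
    simp only [dA, dB] at key
    have hsq : ∀ k, (Real.sqrt t * σ k) ^ 2 = t * σ k ^ 2 := by
      intro k; rw [mul_pow, Real.sq_sqrt ht.le]
    simp only [hsq] at key
    have e5 : (fromBlocks ((t : ℂ) • (1 : Matrix ι ι ℂ) + V1ᴴ * P * V1)
        (diagonal fun k => ((Real.sqrt t * σ k : ℝ) : ℂ) * Complex.I)
        (diagonal fun k => ((Real.sqrt t * σ k : ℝ) : ℂ) * Complex.I)
        ((t : ℂ) • (1 : Matrix ι ι ℂ) + V2ᴴ * Q * V2)) =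
        fromBlocks V1ᴴ 0 0 V2ᴴ *
        (fromBlocks ((t : ℂ) • (1 : Matrix ι ι ℂ) + P) (((Real.sqrt t : ℝ) : ℂ) • (Complex.I • U))
          (((Real.sqrt t : ℝ) : ℂ) • (Complex.I • Uᴴ)) ((t : ℂ) • (1 : Matrix ι ι ℂ) + Q)) *
        fromBlocks V1 0 0 V2 := by
      rw [eA, eB, fromBlocks_multiply, fromBlocks_multiply]
      have hd : (diagonal fun k => ((Real.sqrt t * σ k : ℝ) : ℂ) * Complex.I) =
          ((Real.sqrt t : ℝ) : ℂ) • (Complex.I • S) := by
        rw [hS, ← diagonal_smul, ← diagonal_smul]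
        congr 1; ext k; simp [mul_comm, mul_assoc]
      have h12 : V1ᴴ * U * V2 = S := by
        rw [hU]
        calc V1ᴴ * (V1 * S * V2ᴴ) * V2 = (V1ᴴ * V1) * S * (V2ᴴ * V2) := by
              simp only [Matrix.mul_assoc]
          _ = S := by rw [hV1s, hV2s, Matrix.one_mul, Matrix.mul_one]
      have h21 : V2ᴴ * Uᴴ * V1 = S := by
        have := congrArg conjTranspose h12
        simpa [conjTranspose_mul, Matrix.mul_assoc, hSH] using this
      simp only [Matrix.mul_zero, Matrix.zero_mul, add_zero, zero_add, Matrix.mul_smul,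
        Matrix.smul_mul, h12, h21, hd, smul_zero]
    rw [e5, det_mul, det_mul, det_fromBlocks_zero₂₁, det_fromBlocks_zero₂₁, eA, eB,
      det_conj_unitary hV1, det_conj_unitary hV2] at key
    simp only [norm_mul, det_conjTranspose, norm_star, norm_det_unitary hV1,
      norm_det_unitary hV2, one_mul, mul_one] at key
    exact key

end Vale.Agent.P358
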