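import Vale.Agent.P358_h28.Basic

/-!
Function lemma: from pointwise `log` inequalities to entropy inequalities;
and the scalar convexity inequality.
-/

open Filter Topology

namespace Vale.Agent.P358

theorem negMulLog_sum_nonneg {J : Type*} (s : Finset J) (c x : J → ℝ)
    (hx : ∀ j ∈ s, 0 ≤ x j) (hc : ∑ j ∈ s, c j = 0) (hcx : ∑ j ∈ s, c j * x j = 0)
    (h : ∀ t : ℝ, 0 < t → 0 ≤ ∑ j ∈ s, c j * Real.log (t + x j)) :
    0 ≤ ∑ j ∈ s, c j * Real.negMulLog (x j) := by
  set Δ : ℝ → ℝ := fun t => ∑ j ∈ s, c j * ((t + x j) * Real.log (t + x j)) with hΔ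
  have hderiv : ∀ t : ℝ, 0 < t → HasDerivAt Δ (∑ j ∈ s, c j * (Real.log (t + x j) + 1)) t := by
    intro t ht
    apply HasDerivAt.fun_sum
    intro j hj
    apply HasDerivAt.const_mul
    have hne : t + x j ≠ 0 := by have := hx j hj; positivity
    have h1 := (Real.hasDerivAt_mul_log hne).comp t ((hasDerivAt_id t).add_const (x j))
    simpa [Function.comp_def] using h1
  have hcont : Continuous Δ := by
    apply continuous_finsetSum
    intro j _
    exact continuous_const.mul (Real.continuous_mul_log.comp (continuous_id.add continuous_const))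
  have hmono : MonotoneOn Δ (Set.Ici 0) := by
    apply monotoneOn_of_deriv_nonneg (convex_Ici 0) hcont.continuousOn
    · intro t ht
      rw [interior_Ici] at ht
      exact (hderiv t ht).differentiableAt.differentiableWithinAt
    · intro t ht
      rw [interior_Ici] at ht
      rw [(hderiv t ht).deriv]
      have : ∑ j ∈ s, c j * (Real.log (t + x j) + 1) =
          ∑ j ∈ s, c j * Real.log (t + x j) + ∑ j ∈ s, c j := by
        rw [← Finset.sum_add_distrib]
        apply Finset.sum_congr rfl
        intro j _; ring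
      rw [this, hc, add_zero]
      exact h t ht
  have hlim : Tendsto Δ atTop (𝓝 (∑ j ∈ s, c j * x j)) := by
    have h1 : ∀ᶠ t : ℝ in atTop, ∑ j ∈ s, c j * (t * Real.log (1 + x j / t) +
        x j * Real.log (1 + x j / t)) = Δ t := by
      filter_upwards [eventually_gt_atTop (0 : ℝ)] with t ht
      have h2 : ∀ j ∈ s, c j * (t * Real.log (1 + x j / t) + x j * Real.log (1 + x j / t)) =
          c j * ((t + x j) * Real.log (t + x j)) - c j * (t * Real.log t)
            - c j * x j * Real.log t := by
        intro j hj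
        have hxj := hx j hj
        have : 1 + x j / t = (t + x j) / t := by field_simp
        rw [this, Real.log_div (by positivity) (by positivity)]
        ring
      rw [Finset.sum_congr rfl h2, Finset.sum_sub_distrib, Finset.sum_sub_distrib,
        ← Finset.sum_mul, ← Finset.sum_mul, hc, hcx]
      simp [hΔ]
    refine Tendsto.congr' h1 ?_
    apply tendsto_finsetSum
    intro j _
    have h3 : Tendsto (fun t : ℝ => t * Real.log (1 + x j / t)) atTop (𝓝 (x j)) :=
      Real.tendsto_mul_log_one_add_div_atTop (x j)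
    have h4 : Tendsto (fun t : ℝ => x j * Real.log (1 + x j / t)) atTop (𝓝 (x j * 0)) := by
      apply Tendsto.const_mul
      have h5 : Tendsto (fun t : ℝ => 1 + x j / t) atTop (𝓝 (1 + 0)) :=
        tendsto_const_nhds.add (tendsto_const_nhds.div_atTop tendsto_id)
      rw [add_zero] at h5
      have := (Real.continuousAt_log one_ne_zero).tendsto.comp h5
      simpa [Function.comp_def] using this
    have h6 := (h3.add h4).const_mul (c j)
    simpa using h6
  have h0 : Δ 0 ≤ ∑ j ∈ s, c j * x j := by
    apply ge_of_tendsto hlim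
    filter_upwards [eventually_gt_atTop (0 : ℝ)] with t ht
    exact hmono (Set.mem_Ici.2 le_rfl) (Set.mem_Ici.2 ht.le) ht.le
  rw [hcx] at h0
  have h1 : Δ 0 = - ∑ j ∈ s, c j * Real.negMulLog (x j) := by
    rw [hΔ, ← Finset.sum_neg_distrib]
    apply Finset.sum_congr rfl
    intro j _
    simp only [Real.negMulLog, zero_add]
    ring
  linarith

theorem convexOn_softplus : ConvexOn ℝ Set.univ (fun x : ℝ => Real.log (1 + Real.exp x)) := by
  have hd : ∀ x : ℝ, HasDerivAt (fun x : ℝ => Real.log (1 + Real.exp x))
      (Real.exp x / (1 + Real.exp x)) x := by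
    intro x
    have h1 : HasDerivAt (fun x : ℝ => 1 + Real.exp x) (Real.exp x) x :=
      (Real.hasDerivAt_exp x).const_add 1
    exact h1.log (by positivity)
  apply Monotone.convexOn_univ_of_deriv
  · intro x; exact (hd x).differentiableAt
  · intro x y hxy
    rw [(hd x).deriv, (hd y).deriv]
    rw [div_le_div_iff₀ (by positivity) (by positivity)]
    have := Real.exp_le_exp.2 hxy
    nlinarith

/-- Jensen step for `(x, y) ↦ log (1 + t a / ((t + x) (t + y)))`. -/
theorem jensen_log {ι : Type*} [Fintype ι] (w x y : ι → ℝ) (hw : ∀ k, 0 ≤ w k)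
    (hw1 : ∑ k, w k = 1) (hx : ∀ k, 0 ≤ x k) (hy : ∀ k, 0 ≤ y k) {p q a t : ℝ} (ha : 0 < a)
    (ht : 0 < t) (hp : ∑ k, w k * x k ≤ p) (hq : ∑ k, w k * y k ≤ q) :
    Real.log (1 + t * a / ((t + p) * (t + q))) ≤
      ∑ k, w k * Real.log (1 + t * a / ((t + x k) * (t + y k))) := by
  have hsp : ∀ X Y : ℝ, 0 < X → 0 < Y →
      Real.log (1 + t * a / (X * Y)) =
        Real.log (1 + Real.exp (Real.log (t * a) - Real.log X - Real.log Y)) := by
    intro X Y hX hY
    have : Real.exp (Real.log (t * a) - Real.log X - Real.log Y) = t * a / (X * Y) := by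
      rw [Real.exp_sub, Real.exp_sub, Real.exp_log (by positivity), Real.exp_log hX,
        Real.exp_log hY, div_div]
    rw [this]
  have hp0 : 0 ≤ ∑ k, w k * x k := Finset.sum_nonneg fun k _ => mul_nonneg (hw k) (hx k)
  have hq0 : 0 ≤ ∑ k, w k * y k := Finset.sum_nonneg fun k _ => mul_nonneg (hw k) (hy k)
  have hj := convexOn_softplus.map_sum_le (t := Finset.univ) (w := w)
    (p := fun k => Real.log (t * a) - Real.log (t + x k) - Real.log (t + y k))
    (fun k _ => hw k) hw1 (fun k _ => Set.mem_univ _)
  simp only [smul_eq_mul] at hj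
  have hlog : ∀ z : ι → ℝ, (∀ k, 0 ≤ z k) → ∀ r, ∑ k, w k * z k ≤ r →
      ∑ k, w k * Real.log (t + z k) ≤ Real.log (t + r) := by
    intro z hz r hr
    have h1 := (strictConcaveOn_log_Ioi.concaveOn).le_map_sum (t := Finset.univ) (w := w)
      (p := fun k => t + z k) (fun k _ => hw k) hw1
      (fun k _ => Set.mem_Ioi.2 (by have := hz k; positivity))
    simp only [smul_eq_mul] at h1
    refine h1.trans ?_
    have h2 : ∑ k, w k * (t + z k) = t + ∑ k, w k * z k := by
      simp only [mul_add, Finset.sum_add_distrib]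
      rw [← Finset.sum_mul, hw1, one_mul]
    rw [h2]
    apply Real.log_le_log
    · have : 0 ≤ ∑ k, w k * z k := Finset.sum_nonneg fun k _ => mul_nonneg (hw k) (hz k)
      linarith
    · linarith
  have h1 := hlog x hx p hp
  have h2 := hlog y hy q hq
  have hsum : ∑ k, w k * (Real.log (t * a) - Real.log (t + x k) - Real.log (t + y k)) =
      Real.log (t * a) - ∑ k, w k * Real.log (t + x k) - ∑ k, w k * Real.log (t + y k) := by
    simp only [mul_sub, Finset.sum_sub_distrib]
    rw [← Finset.sum_mul, hw1, one_mul]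
  rw [hsp (t + p) (t + q) (by linarith) (by linarith)]
  have h3 : ∑ k, w k * Real.log (1 + t * a / ((t + x k) * (t + y k))) =
      ∑ k, w k * Real.log (1 + Real.exp (Real.log (t * a) - Real.log (t + x k) -
        Real.log (t + y k))) := by
    apply Finset.sum_congr rfl
    intro k _
    rw [hsp (t + x k) (t + y k) (by linarith [hx k]) (by linarith [hy k])]
  rw [h3]
  refine le_trans ?_ hj
  rw [hsum]
  apply Real.log_le_log (by positivity)
  have : Real.exp (Real.log (t * a) - Real.log (t + p) - Real.log (t + q)) ≤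
    Real.exp (Real.log (t * a) - ∑ k, w k * Real.log (t + x k) -
      ∑ k, w k * Real.log (t + y k)) := by
    apply Real.exp_le_exp.2
    linarith
  linarith

end Vale.Agent.P358
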