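import Vale.Agent.P358_h28.Basic

/-!
Determinant inequality (H1): for `H` positive definite and real `κ`,
`|det (H + i diag κ)| * ∏ h_jj ≥ det H * ∏ |h_jj + i κ_j|`.
-/

open Matrix
open scoped ComplexOrder

namespace Vale.Agent.P358

/-- Scalar step. -/
theorem h1_scalar {h κ α : ℝ} {z : ℂ} (hα : 0 ≤ α) (hαh : α < h)
    (hz : Complex.normSq z ≤ α * z.re) :
    ‖(h : ℂ) + κ * Complex.I‖ * (h - α) ≤ ‖(h : ℂ) + κ * Complex.I - z‖ * h := by
  have hh : 0 < h := lt_of_le_of_lt hα hαh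
  set R := ‖(h : ℂ) + κ * Complex.I‖ with hR
  set r := ‖((h - α / 2 : ℝ) : ℂ) + κ * Complex.I‖ with hr
  have hRsq : R ^ 2 = h ^ 2 + κ ^ 2 := by
    rw [hR, Complex.sq_norm, Complex.normSq_apply]; simp; ring
  have hrsq : r ^ 2 = (h - α / 2) ^ 2 + κ ^ 2 := by
    rw [hr, Complex.sq_norm, Complex.normSq_apply]; simp; ring
  have hR0 : 0 ≤ R := norm_nonneg _
  have hr0 : 0 ≤ r := norm_nonneg _
  have hhR : h ≤ R := by
    apply le_of_sq_le_sq _ hR0
    rw [hRsq]; nlinarith [sq_nonneg κ]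
  -- |z - α/2| ≤ α/2
  have hz2 : ‖z - ((α / 2 : ℝ) : ℂ)‖ ≤ α / 2 := by
    apply le_of_sq_le_sq _ (by linarith)
    rw [Complex.sq_norm, Complex.normSq_apply]
    rw [Complex.normSq_apply] at hz
    simp only [Complex.sub_re, Complex.ofReal_re, Complex.sub_im, Complex.ofReal_im, sub_zero]
    nlinarith
  have h1 : r - α / 2 ≤ ‖(h : ℂ) + κ * Complex.I - z‖ := by
    have h2 : ((h - α / 2 : ℝ) : ℂ) + κ * Complex.I =
        ((h : ℂ) + κ * Complex.I - z) + (z - ((α / 2 : ℝ) : ℂ)) := by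
      push_cast; ring
    have h3 : r ≤ ‖(h : ℂ) + κ * Complex.I - z‖ + ‖z - ((α / 2 : ℝ) : ℂ)‖ := by
      rw [hr, h2]; exact norm_add_le _ _
    linarith
  have h4 : (h - α / 2) * R ≤ h * r := by
    apply le_of_sq_le_sq _ (mul_nonneg hh.le hr0)
    rw [mul_pow, mul_pow, hRsq, hrsq]
    nlinarith [mul_nonneg (mul_nonneg hα (by linarith : 0 ≤ h - α / 4)) (sq_nonneg κ)]
  have h5 : α / 2 * h ≤ α / 2 * R := mul_le_mul_of_nonneg_left hhR (by linarith)
  calc R * (h - α) = (h - α / 2) * R - α / 2 * R := by ring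
    _ ≤ h * r - α / 2 * h := by linarith
    _ = (r - α / 2) * h := by ring
    _ ≤ _ := mul_le_mul_of_nonneg_right h1 hh.le


variable {ι : Type} [Fintype ι] [DecidableEq ι]

/-- Cauchy–Schwarz for the resolvent entry. -/
theorem h1_cs {H : Matrix ι ι ℂ} (hH : H.PosDef) (κ : ι → ℝ) (v y : ι → ℂ)
    (hy : (H + diagonal (fun j => (κ j : ℂ) * Complex.I)) *ᵥ y = v) :
    0 ≤ (star v ⬝ᵥ (H⁻¹ *ᵥ v)).re ∧
    Complex.normSq (star v ⬝ᵥ y) ≤ (star v ⬝ᵥ (H⁻¹ *ᵥ v)).re * (star v ⬝ᵥ y).re := by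
  have hHinv : H⁻¹.PosDef := hH.inv
  have hα := hHinv.posSemidef.dotProduct_mulVec_nonneg v
  have hα0 : 0 ≤ (star v ⬝ᵥ (H⁻¹ *ᵥ v)).re := (Complex.nonneg_iff.1 hα).1
  have hαim : (star v ⬝ᵥ (H⁻¹ *ᵥ v)).im = 0 := (Complex.nonneg_iff.1 hα).2.symm
  refine ⟨hα0, ?_⟩
  set α : ℝ := (star v ⬝ᵥ (H⁻¹ *ᵥ v)).re with hαdef
  have hαc : star v ⬝ᵥ (H⁻¹ *ᵥ v) = (α : ℂ) := by
    apply Complex.ext <;> simp [hαdef, hαim]
  set z : ℂ := star v ⬝ᵥ y with hz
  set w : ι → ℂ := H⁻¹ *ᵥ v with hw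
  have hHw : H *ᵥ w = v := by
    rw [hw, mulVec_mulVec, Matrix.mul_nonsing_inv _ hH.det_pos.ne'.isUnit, one_mulVec]
  have hsymm : ∀ a b : ι → ℂ, star (H *ᵥ a) ⬝ᵥ b = star a ⬝ᵥ (H *ᵥ b) := by
    intro a b
    rw [star_mulVec, hH.isHermitian.eq, dotProduct_mulVec]
  -- real part of z
  set Y : ℝ := (star y ⬝ᵥ (H *ᵥ y)).re with hY
  have hzY : z.re = Y := by
    have h1 : v = H *ᵥ y + (diagonal (fun j => (κ j : ℂ) * Complex.I)) *ᵥ y := by
      rw [← hy, add_mulVec]
    have h2 : z = star y ⬝ᵥ (H *ᵥ y) +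
        star ((diagonal (fun j => (κ j : ℂ) * Complex.I)) *ᵥ y) ⬝ᵥ y := by
      rw [hz]
      conv_lhs => rw [h1]
      rw [star_add, add_dotProduct, hsymm]
    have h3 : (star ((diagonal (fun j => (κ j : ℂ) * Complex.I)) *ᵥ y) ⬝ᵥ y).re = 0 := by
      simp only [dotProduct, Complex.re_sum, Pi.star_apply, mulVec_diagonal]
      apply Finset.sum_eq_zero
      intro j _
      simp
      ring
    rw [h2, Complex.add_re, h3, add_zero]
  rw [hzY]
  by_cases hv : v = 0
  · have : z = 0 := by rw [hz, hv]; simp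
    have hα' : α = 0 := by rw [hαdef, hv]; simp
    rw [this, hα']; simp
  · have hαpos : 0 < α := by
      have := hHinv.dotProduct_mulVec_pos hv
      rw [hαc] at this
      exact_mod_cast this
    have hq := (Complex.nonneg_iff.1
      (hH.posSemidef.dotProduct_mulVec_nonneg (y - (z / α) • w))).1
    have hwv : star w ⬝ᵥ v = (α : ℂ) := by
      have : star w ⬝ᵥ v = star (star v ⬝ᵥ w) := by
        rw [star_dotProduct]
      rw [this, hαc]; simp
    have hyv : star y ⬝ᵥ v = (starRingEnd ℂ) z := by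
      have : star y ⬝ᵥ v = star (star v ⬝ᵥ y) := by
        rw [star_dotProduct]
      rw [this]; rfl
    have hwy : star w ⬝ᵥ (H *ᵥ y) = z := by
      rw [← hsymm, hHw]
    have hexp : star (y - (z / α) • w) ⬝ᵥ (H *ᵥ (y - (z / α) • w)) =
        star y ⬝ᵥ (H *ᵥ y) - (z / α) * (starRingEnd ℂ) z - (starRingEnd ℂ) (z / α) * z
          + (starRingEnd ℂ) (z / α) * (z / α) * α := by
      rw [mulVec_sub, mulVec_smul, hHw, star_sub, star_smul, sub_dotProduct, dotProduct_sub,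
        dotProduct_sub, dotProduct_smul, smul_dotProduct, smul_dotProduct, dotProduct_smul,
        hwv, hyv, hwy]
      simp only [smul_eq_mul, starRingEnd_apply]
      ring
    rw [hexp] at hq
    have hre : (star y ⬝ᵥ (H *ᵥ y) - (z / α) * (starRingEnd ℂ) z - (starRingEnd ℂ) (z / α) * z
          + (starRingEnd ℂ) (z / α) * (z / α) * α).re = Y - Complex.normSq z / α := by
      have e1 : (z / α) * (starRingEnd ℂ) z = ((Complex.normSq z / α : ℝ) : ℂ) := by
        rw [div_mul_eq_mul_div, Complex.mul_conj]; push_cast; rfl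
      have e2 : (starRingEnd ℂ) (z / α) * z = ((Complex.normSq z / α : ℝ) : ℂ) := by
        rw [map_div₀, Complex.conj_ofReal, div_mul_eq_mul_div, mul_comm, Complex.mul_conj]
        push_cast; rfl
      have e3 : (starRingEnd ℂ) (z / α) * (z / α) * α = ((Complex.normSq z / α : ℝ) : ℂ) := by
        have hαne : (α : ℂ) ≠ 0 := by exact_mod_cast hαpos.ne'
        rw [mul_assoc, div_mul_cancel₀ _ hαne, e2]
      rw [e1, e2, e3]
      simp only [Complex.sub_re, Complex.add_re, Complex.ofReal_re]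
      rw [← hY]; ring
    rw [hre] at hq
    have : Complex.normSq z / α ≤ Y := by linarith
    rw [div_le_iff₀ hαpos] at this
    linarith

/-- Schur complement with respect to the last index. -/
theorem det_border {α : Type} [Fintype α] [DecidableEq α] (M : Matrix α α ℂ) (hM : M.det ≠ 0)
    (v : α → ℂ) (N : Matrix (α ⊕ PUnit.{1}) (α ⊕ PUnit.{1}) ℂ)
    (h11 : ∀ i j, N (Sum.inl i) (Sum.inl j) = M i j)
    (h12 : ∀ i, N (Sum.inl i) (Sum.inr PUnit.unit) = v i)
    (h21 : ∀ i, N (Sum.inr PUnit.unit) (Sum.inl i) = star (v i)) :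
    N.det = M.det * (N (Sum.inr PUnit.unit) (Sum.inr PUnit.unit) - star v ⬝ᵥ (M⁻¹ *ᵥ v)) := by
  have : Invertible M := M.invertibleOfIsUnitDet (Ne.isUnit hM)
  have hN : N = fromBlocks M (Matrix.of fun i (_ : PUnit.{1}) => v i)
      (Matrix.of fun (_ : PUnit.{1}) j => star (v j))
      (Matrix.of fun (_ _ : PUnit.{1}) => N (Sum.inr PUnit.unit) (Sum.inr PUnit.unit)) := by
    ext i j
    rcases i with i | i <;> rcases j with j | j
    · rw [fromBlocks_apply₁₁, h11]
    · rw [fromBlocks_apply₁₂]; exact h12 i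
    · rw [fromBlocks_apply₂₁]; exact h21 j
    · rw [fromBlocks_apply₂₂]; rfl
  have hdet : N.det = M.det * (Matrix.det ((Matrix.of fun (_ _ : PUnit.{1}) =>
      N (Sum.inr PUnit.unit) (Sum.inr PUnit.unit)) - (Matrix.of fun (_ : PUnit.{1}) j => star (v j))
        * ⅟M * (Matrix.of fun i (_ : PUnit.{1}) => v i))) := by
    rw [← det_fromBlocks₁₁, ← hN]
  rw [hdet]
  congr 1
  rw [det_unique (n := PUnit.{1}), Matrix.sub_apply]
  congr 1
  rw [Matrix.mul_assoc, invOf_eq_nonsing_inv]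
  rfl

/-- The one-step inequality for `α ⊕ PUnit`. -/
theorem h1_step {α : Type} [Fintype α] [DecidableEq α]
    (ih : ∀ (H : Matrix α α ℂ), H.PosDef → ∀ κ : α → ℝ,
      H.det.re * ∏ j, ‖H j j + κ j * Complex.I‖ ≤
        ‖(H + diagonal (fun j => (κ j : ℂ) * Complex.I)).det‖ * ∏ j, (H j j).re)
    (H : Matrix (α ⊕ PUnit.{1}) (α ⊕ PUnit.{1}) ℂ) (hH : H.PosDef) (κ : α ⊕ PUnit.{1} → ℝ) :
      H.det.re * ∏ j, ‖H j j + κ j * Complex.I‖ ≤
        ‖(H + diagonal (fun j => (κ j : ℂ) * Complex.I)).det‖ * ∏ j, (H j j).re := by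
  set H1 : Matrix α α ℂ := H.toBlocks₁₁ with hH1
  have hH1pos : H1.PosDef := hH.submatrix Sum.inl_injective
  set κ1 : α → ℝ := fun j => κ (Sum.inl j) with hκ1
  set κ0 : ℝ := κ (Sum.inr PUnit.unit) with hκ0
  set v : α → ℂ := fun i => H (Sum.inl i) (Sum.inr PUnit.unit) with hv
  set h : ℝ := (H (Sum.inr PUnit.unit) (Sum.inr PUnit.unit)).re with hh
  have hhc : H (Sum.inr PUnit.unit) (Sum.inr PUnit.unit) = (h : ℂ) := by
    have := hH.isHermitian.coe_re_apply_self (Sum.inr PUnit.unit)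
    rw [hh]; exact this.symm
  set M1 : Matrix α α ℂ := H1 + diagonal (fun j => (κ1 j : ℂ) * Complex.I) with hM1
  have ih1 := ih H1 hH1pos κ1
  have hdiag1 : ∀ j, 0 < (H1 j j).re := fun j => (Complex.pos_iff.1 (hH1pos.diag_pos (i := j))).1
  have hdet1 : 0 < H1.det.re := (Complex.pos_iff.1 hH1pos.det_pos).1
  have hdet1im : H1.det.im = 0 := (Complex.pos_iff.1 hH1pos.det_pos).2.symm
  have hprod1 : 0 < ∏ j, (H1 j j).re := Finset.prod_pos fun j _ => hdiag1 j
  have hnorm1 : 0 < ∏ j, ‖H1 j j + κ1 j * Complex.I‖ := by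
    apply Finset.prod_pos
    intro j _
    rw [norm_pos_iff]
    intro h0
    have := congrArg Complex.re h0
    simp at this
    linarith [hdiag1 j]
  have hM1det : M1.det ≠ 0 := by
    intro h0
    rw [← hM1, h0, norm_zero, zero_mul] at ih1
    have := mul_pos hdet1 hnorm1
    linarith
  -- Schur complement
  set y : α → ℂ := M1⁻¹ *ᵥ v with hy
  have hMy : M1 *ᵥ y = v := by
    rw [hy, mulVec_mulVec, Matrix.mul_nonsing_inv _ (Ne.isUnit hM1det), one_mulVec]
  obtain ⟨hα0, hcs⟩ := h1_cs hH1pos κ1 v y hMy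
  have hv21 : ∀ i, H (Sum.inr PUnit.unit) (Sum.inl i) = star (v i) := by
    intro i
    rw [hv]; exact (hH.isHermitian.apply _ _).symm
  have hdetH := det_border H1 (by
    intro h0; rw [h0] at hdet1; simp at hdet1) v H (fun i j => rfl) (fun i => rfl) hv21
  have hdetM := det_border M1 hM1det v (H + diagonal (fun j => (κ j : ℂ) * Complex.I))
    (fun i j => by
      simp only [hM1, Matrix.add_apply, hH1, toBlocks₁₁, of_apply]
      congr 1
      by_cases hij : i = j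
      · subst hij; simp [hκ1]
      · rw [diagonal_apply_ne _ (by simpa using hij), diagonal_apply_ne _ hij])
    (fun i => by simp [hv]) (fun i => by simp [hv21])
  set A : ℝ := (star v ⬝ᵥ (H1⁻¹ *ᵥ v)).re with hA
  set z : ℂ := star v ⬝ᵥ (M1⁻¹ *ᵥ v) with hz
  have hHdetre : H.det.re = H1.det.re * (h - A) := by
    rw [hdetH, Complex.mul_re, hdet1im, zero_mul, sub_zero]
    congr 1
  have hHdetpos : 0 < H.det.re := (Complex.pos_iff.1 hH.det_pos).1
  have hAh : A < h := by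
    rw [hHdetre] at hHdetpos
    have := (mul_pos_iff_of_pos_left hdet1).1 hHdetpos
    linarith
  have hsc := h1_scalar (κ := κ0) hα0 hAh hcs
  have hMdet : ‖(H + diagonal (fun j => (κ j : ℂ) * Complex.I)).det‖ =
      ‖M1.det‖ * ‖(h : ℂ) + κ0 * Complex.I - z‖ := by
    rw [hdetM, norm_mul]
    congr 2
    rw [Matrix.add_apply, diagonal_apply_eq, hhc]
  rw [hMdet, hHdetre, Fintype.prod_sum_type, Fintype.prod_sum_type]
  simp only [Finset.univ_unique, Finset.prod_singleton, PUnit.default_eq_unit, hhc]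
  have e1 : ∏ a₁, ‖H (Sum.inl a₁) (Sum.inl a₁) + ↑(κ (Sum.inl a₁)) * Complex.I‖ =
    ∏ j, ‖H1 j j + κ1 j * Complex.I‖ := rfl
  have e2 : ∏ a₁, (H (Sum.inl a₁) (Sum.inl a₁)).re = ∏ j, (H1 j j).re := rfl
  rw [e1, e2, Complex.ofReal_re, ← hκ0]
  calc H1.det.re * (h - A) * ((∏ j, ‖H1 j j + κ1 j * Complex.I‖) * ‖(h : ℂ) + κ0 * Complex.I‖)
      = (H1.det.re * ∏ j, ‖H1 j j + κ1 j * Complex.I‖) * (‖(h : ℂ) + κ0 * Complex.I‖ * (h - A)) := by
        ring
    _ ≤ (‖M1.det‖ * ∏ j, (H1 j j).re) * (‖(h : ℂ) + κ0 * Complex.I - z‖ * h) := by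
        apply mul_le_mul ih1 hsc
        · exact mul_nonneg (norm_nonneg _) (by linarith)
        · exact mul_nonneg (norm_nonneg _) hprod1.le
    _ = _ := by ring

/-- (H1) the determinant inequality. -/
theorem h1 (H : Matrix ι ι ℂ) (hH : H.PosDef) (κ : ι → ℝ) :
    H.det.re * ∏ j, ‖H j j + κ j * Complex.I‖ ≤
      ‖(H + diagonal (fun j => (κ j : ℂ) * Complex.I)).det‖ * ∏ j, (H j j).re := by
  classical
  revert H κ
  have key : ∀ (β : Type) [Fintype β], ∀ [DecidableEq β] (H : Matrix β β ℂ), H.PosDef →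
      ∀ κ : β → ℝ,
      H.det.re * ∏ j, ‖H j j + κ j * Complex.I‖ ≤
        ‖(H + diagonal (fun j => (κ j : ℂ) * Complex.I)).det‖ * ∏ j, (H j j).re := by
    have transport : ∀ (α β : Type) [Fintype α] [Fintype β] [DecidableEq α] [DecidableEq β]
        (e : α ≃ β),
        (∀ (H : Matrix α α ℂ), H.PosDef → ∀ κ : α → ℝ,
          H.det.re * ∏ j, ‖H j j + κ j * Complex.I‖ ≤
          ‖(H + diagonal (fun j => (κ j : ℂ) * Complex.I)).det‖ * ∏ j, (H j j).re) →
        (∀ (H : Matrix β β ℂ), H.PosDef → ∀ κ : β → ℝ,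
          H.det.re * ∏ j, ‖H j j + κ j * Complex.I‖ ≤
          ‖(H + diagonal (fun j => (κ j : ℂ) * Complex.I)).det‖ * ∏ j, (H j j).re) := by
      intro α β _ _ _ _ e hα H hH κ
      have h1 := hα (H.submatrix e e) (hH.submatrix e.injective) (κ ∘ e)
      have h2 : H.submatrix e e + diagonal (fun j => ((κ ∘ e) j : ℂ) * Complex.I) =
          (H + diagonal (fun j => (κ j : ℂ) * Complex.I)).submatrix e e := by
        rw [Matrix.submatrix_add]
        simp only [Pi.add_apply]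
        rw [submatrix_diagonal_equiv]
        rfl
      rw [h2, det_submatrix_equiv_self, det_submatrix_equiv_self] at h1
      simp only [submatrix_apply, Function.comp] at h1
      rw [Equiv.prod_comp e (fun j => ‖H j j + κ j * Complex.I‖),
        Equiv.prod_comp e (fun j => (H j j).re)] at h1
      exact h1
    intro β _
    refine Fintype.induction_empty_option (P := fun (β : Type) [Fintype β] =>
      ∀ [DecidableEq β] (H : Matrix β β ℂ), H.PosDef →
      ∀ κ : β → ℝ,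
      H.det.re * ∏ j, ‖H j j + κ j * Complex.I‖ ≤
        ‖(H + diagonal (fun j => (κ j : ℂ) * Complex.I)).det‖ * ∏ j, (H j j).re) ?_ ?_ ?_ β
    · intro α β hβ e hα _ H hH κ
      let _ : Fintype α := Fintype.ofEquiv β e.symm
      exact transport α β e (hα) H hH κ
    · intro _ H hH κ
      simp
    · intro α _ hα _ H hH κ
      exact transport (α ⊕ PUnit.{1}) (Option α) (Equiv.optionEquivSumPUnit α).symm
        (h1_step (hα)) H hH κ
  exact fun H hH κ => key ι H hH κ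

end Vale.Agent.P358
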