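import Vale.Agent.P358_h28.Key0H1

/-!
Pinching inequality: diagonal case, then general case via singular value decomposition.
-/

open Matrix
open scoped ComplexOrder

namespace Vale.Agent.P358

variable {ι : Type} [Fintype ι] [DecidableEq ι]

omit [DecidableEq ι] in
theorem posDef_fromBlocks_diag {κ : Type} [Fintype κ] {A : Matrix ι ι ℂ} {B : Matrix κ κ ℂ}
    (hA : A.PosDef) (hB : B.PosDef) :
    (fromBlocks A 0 0 B).PosDef := by
  refine PosDef.of_dotProduct_mulVec_pos ?_ ?_
  · exact IsHermitian.fromBlocks hA.isHermitian (by simp) hB.isHermitian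
  · intro x hx
    have hx' : x = Sum.elim (x ∘ Sum.inl) (x ∘ Sum.inr) := (Sum.elim_comp_inl_inr x).symm
    have hval : star x ⬝ᵥ (fromBlocks A 0 0 B *ᵥ x) =
        star (x ∘ Sum.inl) ⬝ᵥ (A *ᵥ (x ∘ Sum.inl)) + star (x ∘ Sum.inr) ⬝ᵥ (B *ᵥ (x ∘ Sum.inr)) := by
      rw [fromBlocks_mulVec]
      simp only [zero_mulVec, add_zero, zero_add]
      simp [dotProduct, Fintype.sum_sum_type]
    rw [hval]
    by_cases h1 : x ∘ Sum.inl = 0
    · have h2 : x ∘ Sum.inr ≠ 0 := by
        intro h2
        apply hx
        rw [hx', h1, h2]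
        ext i; rcases i with i | i <;> rfl
      rw [h1]
      simpa using hB.dotProduct_mulVec_pos h2
    · exact add_pos_of_pos_of_nonneg (hA.dotProduct_mulVec_pos h1)
        (hB.posSemidef.dotProduct_mulVec_nonneg _)

theorem pinch_diag {A B : Matrix ι ι ℂ} (hA : A.PosDef) (hB : B.PosDef) (σ : ι → ℝ) :
    A.det.re * B.det.re * ∏ k, ((A k k).re * (B k k).re + σ k ^ 2) ≤
      ‖(fromBlocks A (diagonal fun k => (σ k : ℂ) * Complex.I)
          (diagonal fun k => (σ k : ℂ) * Complex.I) B).det‖ *
        ∏ k, ((A k k).re * (B k k).re) := by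
  have hAk : ∀ k, 0 < (A k k).re := fun k => (Complex.pos_iff.1 (hA.diag_pos (i := k))).1
  have hBk : ∀ k, 0 < (B k k).re := fun k => (Complex.pos_iff.1 (hB.diag_pos (i := k))).1
  have hAc : ∀ k, A k k = ((A k k).re : ℂ) := fun k => (hA.isHermitian.coe_re_apply_self k).symm
  have hBc : ∀ k, B k k = ((B k k).re : ℂ) := fun k => (hB.isHermitian.coe_re_apply_self k).symm
  set a : ι → ℝ := fun k => 1 / Real.sqrt (2 * (A k k).re) with ha
  set b : ι → ℝ := fun k => 1 / Real.sqrt (2 * (B k k).re) with hb
  have ha2 : ∀ k, a k * a k * (A k k).re = 1 / 2 := by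
    intro k
    have : Real.sqrt (2 * (A k k).re) * Real.sqrt (2 * (A k k).re) = 2 * (A k k).re :=
      Real.mul_self_sqrt (by linarith [hAk k])
    rw [ha]
    simp only
    rw [div_mul_div_comm, this]
    have := (hAk k).ne'
    field_simp
  have hb2 : ∀ k, b k * b k * (B k k).re = 1 / 2 := by
    intro k
    have : Real.sqrt (2 * (B k k).re) * Real.sqrt (2 * (B k k).re) = 2 * (B k k).re :=
      Real.mul_self_sqrt (by linarith [hBk k])
    rw [hb]
    simp only
    rw [div_mul_div_comm, this]
    have := (hBk k).ne'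
    field_simp
  have ha0 : ∀ k, a k ≠ 0 := by
    intro k h0
    have := ha2 k
    rw [h0] at this
    norm_num at this
  have hb0 : ∀ k, b k ≠ 0 := by
    intro k h0
    have := hb2 k
    rw [h0] at this
    norm_num at this
  set Da : Matrix ι ι ℂ := diagonal fun k => (a k : ℂ) with hDa
  set Db : Matrix ι ι ℂ := diagonal fun k => (b k : ℂ) with hDb
  set S : Matrix ι ι ℂ := diagonal fun k => (σ k : ℂ) * Complex.I with hS
  set R : Matrix (ι ⊕ ι) (ι ⊕ ι) ℂ := fromBlocks Da Db Da (-Db) with hR
  have hDaH : Daᴴ = Da := by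
    rw [hDa, diagonal_conjTranspose]; congr 1; ext k; simp
  have hDbH : Dbᴴ = Db := by
    rw [hDb, diagonal_conjTranspose]; congr 1; ext k; simp
  have hRH : Rᴴ = fromBlocks Da Da Db (-Db) := by
    rw [hR, fromBlocks_conjTranspose, hDaH, hDbH, conjTranspose_neg, hDbH]
  -- determinant of R is nonzero
  have hRdet : R.det ≠ 0 := by
    set Ea : Matrix ι ι ℂ := diagonal fun k => (1 / (2 * a k) : ℂ) with hEa
    set Eb : Matrix ι ι ℂ := diagonal fun k => (1 / (2 * b k) : ℂ) with hEb
    have hm : R * fromBlocks Ea Ea Eb (-Eb) = 1 := by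
      have e1 : Da * Ea = diagonal fun _ => (1 / 2 : ℂ) := by
        rw [hDa, hEa, diagonal_mul_diagonal]
        congr 1; ext k
        have : (a k : ℂ) ≠ 0 := by exact_mod_cast ha0 k
        field_simp
      have e2 : Db * Eb = diagonal fun _ => (1 / 2 : ℂ) := by
        rw [hDb, hEb, diagonal_mul_diagonal]
        congr 1; ext k
        have : (b k : ℂ) ≠ 0 := by exact_mod_cast hb0 k
        field_simp
      rw [hR, fromBlocks_multiply, Matrix.mul_neg, Matrix.neg_mul, Matrix.neg_mul, Matrix.mul_neg,
        e1, e2, neg_neg, diagonal_add, diagonal_neg, diagonal_add]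
      rw [← fromBlocks_one]
      congr 1
      · ext i j; by_cases h : i = j
        · subst h; simp; norm_num
        · simp [h]
      · ext i j; by_cases h : i = j
        · subst h; simp
        · simp [h]
      · ext i j; by_cases h : i = j
        · subst h; simp
        · simp [h]
      · ext i j; by_cases h : i = j
        · subst h; simp; norm_num
        · simp [h]
    intro h0
    have := congrArg det hm
    rw [det_mul, h0, zero_mul, det_one] at this
    exact zero_ne_one this
  have hRunit : IsUnit R := (isUnit_iff_isUnit_det R).2 (Ne.isUnit hRdet)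
  set H : Matrix (ι ⊕ ι) (ι ⊕ ι) ℂ := R * fromBlocks A 0 0 B * Rᴴ with hH
  have hHpos : H.PosDef := by
    rw [hH, ← star_eq_conjTranspose, IsUnit.posDef_star_right_conjugate_iff hRunit]
    exact posDef_fromBlocks_diag hA hB
  have hHblocks : H = fromBlocks (Da * A * Da + Db * B * Db) (Da * A * Da - Db * B * Db)
      (Da * A * Da - Db * B * Db) (Da * A * Da + Db * B * Db) := by
    rw [hH, hRH, hR, fromBlocks_multiply, fromBlocks_multiply]
    congr 1 <;> simp [sub_eq_add_neg]
  set κ : ι ⊕ ι → ℝ := Sum.elim (fun k => 2 * a k * b k * σ k) (fun k => -(2 * a k * b k * σ k))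
    with hκ
  have hdiagDD : ∀ k, ((Da * A * Da + Db * B * Db) k k) = 1 := by
    intro k
    rw [Matrix.add_apply, hDa, hDb, Matrix.mul_diagonal, Matrix.diagonal_mul,
      Matrix.mul_diagonal, Matrix.diagonal_mul, hAc k, hBc k]
    have h1 := ha2 k
    have h2 := hb2 k
    have h3 : a k * (A k k).re * a k + b k * (B k k).re * b k = 1 := by
      nlinarith
    exact_mod_cast h3
  have hHdiag : ∀ j, H j j = 1 := by
    intro j
    rw [hHblocks]
    rcases j with k | k
    · rw [fromBlocks_apply₁₁]; exact hdiagDD k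
    · rw [fromBlocks_apply₂₂]; exact hdiagDD k
  have hsum : H + diagonal (fun j => (κ j : ℂ) * Complex.I) =
      R * fromBlocks A S S B * Rᴴ := by
    have h1 : fromBlocks A S S B = fromBlocks A 0 0 B + fromBlocks 0 S S 0 := by
      rw [fromBlocks_add]; simp
    rw [h1, Matrix.mul_add, Matrix.add_mul, ← hH]
    congr 1
    have e3 : (diagonal (fun j => (κ j : ℂ) * Complex.I)) =
        fromBlocks (diagonal fun k => ((2 * a k * b k * σ k : ℝ) : ℂ) * Complex.I) 0 0
          (diagonal fun k => ((-(2 * a k * b k * σ k) : ℝ) : ℂ) * Complex.I) := by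
      rw [fromBlocks_diagonal]
      congr 1
      ext j; rcases j with j | j <;> rfl
    rw [hRH, hR, fromBlocks_multiply, fromBlocks_multiply, e3]
    simp only [Matrix.mul_zero, add_zero, zero_add]
    rw [hDa, hDb, hS]
    simp only [Matrix.diagonal_mul_diagonal, Matrix.diagonal_neg, Matrix.diagonal_add]
    congr 1
    · congr 1; ext k; push_cast; ring
    · ext i j; by_cases h : i = j
      · subst h; simp; ring
      · simp [h]
    · ext i j; by_cases h : i = j
      · subst h; simp; ring
      · simp [h]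
    · congr 1; ext k; push_cast; simp; ring
  have key := h1 H hHpos κ
  have hprodone : ∏ j, (H j j).re = 1 := by
    apply Finset.prod_eq_one; intro j _; rw [hHdiag j]; simp
  rw [hprodone, mul_one, hsum, hH, det_mul, det_mul, det_mul, det_mul, det_conjTranspose,
    det_fromBlocks_zero₂₁] at key
  have hprodk : ∏ j, ‖(R * fromBlocks A 0 0 B * Rᴴ) j j + (κ j : ℂ) * Complex.I‖ =
      ∏ k, (1 + σ k ^ 2 / ((A k k).re * (B k k).re)) := by
    rw [Fintype.prod_sum_type, ← Finset.prod_mul_distrib]
    apply Finset.prod_congr rfl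
    intro k _
    rw [← hH, hHdiag, hHdiag]
    have hx : ∀ x : ℝ, ‖(1 : ℂ) + (x : ℂ) * Complex.I‖ * ‖(1 : ℂ) + ((-x : ℝ) : ℂ) * Complex.I‖ =
        1 + x ^ 2 := by
      intro x
      rw [← norm_mul]
      have : ((1 : ℂ) + (x : ℂ) * Complex.I) * ((1 : ℂ) + ((-x : ℝ) : ℂ) * Complex.I) =
          ((1 + x ^ 2 : ℝ) : ℂ) := by
        push_cast
        ring_nf
        rw [Complex.I_sq]; ring
      rw [this, Complex.norm_real, Real.norm_of_nonneg (by positivity)]
    have h4 := hx (2 * a k * b k * σ k)
    simp only [hκ, Sum.elim_inl, Sum.elim_inr]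
    rw [h4]
    have hA' := (hAk k).ne'
    have hB' := (hBk k).ne'
    have h5 : (2 * a k * b k * σ k) ^ 2 * ((A k k).re * (B k k).re) = σ k ^ 2 := by
      have : (2 * a k * b k * σ k) ^ 2 * ((A k k).re * (B k k).re) =
        4 * (a k * a k * (A k k).re) * (b k * b k * (B k k).re) * σ k ^ 2 := by ring
      rw [this, ha2, hb2]; ring
    rw [eq_div_of_mul_eq (mul_ne_zero hA' hB') h5]
  rw [hprodk] at key
  have hdetA : A.det = (A.det.re : ℂ) := by
    apply Complex.ext
    · simp
    · simpa using (Complex.pos_iff.1 hA.det_pos).2.symm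
  have hdetB : B.det = (B.det.re : ℂ) := by
    apply Complex.ext
    · simp
    · simpa using (Complex.pos_iff.1 hB.det_pos).2.symm
  have hRR : R.det * star R.det = ((Complex.normSq R.det : ℝ) : ℂ) := by
    rw [← Complex.mul_conj]; rfl
  have hRpos : 0 < Complex.normSq R.det := Complex.normSq_pos.2 hRdet
  have hl : (R.det * (A.det * B.det) * star R.det).re =
      Complex.normSq R.det * (A.det.re * B.det.re) := by
    have : R.det * (A.det * B.det) * star R.det = (R.det * star R.det) * (A.det * B.det) := by ring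
    rw [this, hRR, hdetA, hdetB]
    simp only [← Complex.ofReal_mul, Complex.ofReal_re]
  have hr : ‖R.det * (fromBlocks A S S B).det * star R.det‖ =
      Complex.normSq R.det * ‖(fromBlocks A S S B).det‖ := by
    have : R.det * (fromBlocks A S S B).det * star R.det =
      (R.det * star R.det) * (fromBlocks A S S B).det := by ring
    rw [this, hRR, norm_mul, Complex.norm_real, Real.norm_of_nonneg hRpos.le]
  rw [hl, hr, mul_assoc] at key
  have key2 := le_of_mul_le_mul_left key hRpos
  have hP : 0 < ∏ k, ((A k k).re * (B k k).re) :=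
    Finset.prod_pos fun k _ => mul_pos (hAk k) (hBk k)
  calc A.det.re * B.det.re * ∏ k, ((A k k).re * (B k k).re + σ k ^ 2)
      = A.det.re * B.det.re * (∏ k, (1 + σ k ^ 2 / ((A k k).re * (B k k).re))) *
          ∏ k, ((A k k).re * (B k k).re) := by
        rw [mul_assoc (A.det.re * B.det.re), ← Finset.prod_mul_distrib]
        congr 1
        apply Finset.prod_congr rfl
        intro k _
        have hA' := (hAk k).ne'
        have hB' := (hBk k).ne'
        field_simp
    _ ≤ _ := mul_le_mul_of_nonneg_right key2 hP.le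

end Vale.Agent.P358
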