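import Vale.Agent.P358_h28.Key0Fun

/-!
Scalar inequality: `(u,p,q) ↦ eta2 (u+p+q) (pq) - η u - η p - η q` is subadditive.
-/

namespace Vale.Agent.P358

/-- larger root of `x^2 - T x + D` -/
noncomputable def rp (T D : ℝ) : ℝ := (T + Real.sqrt (T ^ 2 - 4 * D)) / 2
/-- smaller root of `x^2 - T x + D` -/
noncomputable def rm (T D : ℝ) : ℝ := (T - Real.sqrt (T ^ 2 - 4 * D)) / 2

theorem eta2_eq (T D : ℝ) : eta2 T D = Real.negMulLog (rp T D) + Real.negMulLog (rm T D) := rfl

theorem rp_add_rm (T D : ℝ) : rp T D + rm T D = T := by unfold rp rm; ring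

theorem rp_mul_rm {T D : ℝ} (h : 0 ≤ T ^ 2 - 4 * D) : rp T D * rm T D = D := by
  unfold rp rm
  have := Real.mul_self_sqrt h
  nlinarith

theorem rm_nonneg {T D : ℝ} (hT : 0 ≤ T) (hD : 0 ≤ D) : 0 ≤ rm T D := by
  unfold rm
  have : Real.sqrt (T ^ 2 - 4 * D) ≤ T := by
    rw [Real.sqrt_le_left hT]; nlinarith
  linarith

theorem rp_nonneg {T D : ℝ} (hT : 0 ≤ T) : 0 ≤ rp T D := by
  unfold rp
  have := Real.sqrt_nonneg (T ^ 2 - 4 * D)
  linarith

theorem add_rp_mul_add_rm {T D : ℝ} (h : 0 ≤ T ^ 2 - 4 * D) (t : ℝ) :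
    (t + rp T D) * (t + rm T D) = t ^ 2 + T * t + D := by
  have h1 := rp_add_rm T D
  have h2 := rp_mul_rm h
  calc (t + rp T D) * (t + rm T D) = t ^ 2 + (rp T D + rm T D) * t + rp T D * rm T D := by ring
    _ = _ := by rw [h1, h2]

theorem eta2_smul {l : ℝ} (hl : 0 ≤ l) (T D : ℝ) :
    eta2 (l * T) (l ^ 2 * D) = l * eta2 T D + Real.negMulLog l * T := by
  have h1 : Real.sqrt ((l * T) ^ 2 - 4 * (l ^ 2 * D)) = l * Real.sqrt (T ^ 2 - 4 * D) := by
    have : (l * T) ^ 2 - 4 * (l ^ 2 * D) = l ^ 2 * (T ^ 2 - 4 * D) := by ring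
    rw [this, Real.sqrt_mul (sq_nonneg l), Real.sqrt_sq hl]
  have hp : rp (l * T) (l ^ 2 * D) = l * rp T D := by unfold rp; rw [h1]; ring
  have hm : rm (l * T) (l ^ 2 * D) = l * rm T D := by unfold rm; rw [h1]; ring
  rw [eta2_eq, eta2_eq, hp, hm, Real.negMulLog_mul, Real.negMulLog_mul]
  have := rp_add_rm T D
  calc _ = l * (Real.negMulLog (rp T D) + Real.negMulLog (rm T D)) +
        Real.negMulLog l * (rp T D + rm T D) := by ring
    _ = _ := by rw [this]

theorem eta2_add_mul (p q : ℝ) : eta2 (p + q) (p * q) = Real.negMulLog p + Real.negMulLog q := by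
  have h : (p + q) ^ 2 - 4 * (p * q) = (p - q) ^ 2 := by ring
  rw [eta2_eq]
  unfold rp rm
  rw [h, Real.sqrt_sq_eq_abs]
  rcases le_total q p with hpq | hpq
  · rw [abs_of_nonneg (by linarith)]
    congr 2 <;> ring
  · rw [abs_of_nonpos (by linarith), add_comm]
    congr 2 <;> ring

theorem disc_nonneg {u p q : ℝ} (hu : 0 ≤ u) (hp : 0 ≤ p) (hq : 0 ≤ q) :
    0 ≤ (u + p + q) ^ 2 - 4 * (p * q) := by
  nlinarith [sq_nonneg (p - q), mul_nonneg hu hp, mul_nonneg hu hq, mul_nonneg hu hu]

variable {ι : Type*} [Fintype ι]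

theorem scalar_ineq (u p q : ι → ℝ) (hu : ∀ k, 0 ≤ u k) (hp : ∀ k, 0 ≤ p k) (hq : ∀ k, 0 ≤ q k) :
    eta2 (∑ k, u k + ∑ k, p k + ∑ k, q k) ((∑ k, p k) * ∑ k, q k) - Real.negMulLog (∑ k, u k)
        - Real.negMulLog (∑ k, p k) - Real.negMulLog (∑ k, q k) ≤
      ∑ k, (eta2 (u k + p k + q k) (p k * q k) - Real.negMulLog (u k) - Real.negMulLog (p k)
        - Real.negMulLog (q k)) := by
  set a := ∑ k, u k with ha
  set P := ∑ k, p k with hP
  set Q := ∑ k, q k with hQ
  have ha0 : 0 ≤ a := Finset.sum_nonneg fun k _ => hu k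
  have hP0 : 0 ≤ P := Finset.sum_nonneg fun k _ => hp k
  have hQ0 : 0 ≤ Q := Finset.sum_nonneg fun k _ => hq k
  rcases ha0.eq_or_lt with h0 | hapos
  · have huk : ∀ k, u k = 0 := by
      intro k
      exact (Finset.sum_eq_zero_iff_of_nonneg (fun k _ => hu k)).1 h0.symm k (Finset.mem_univ k)
    rw [← h0]
    simp only [huk, zero_add, Real.negMulLog_zero, sub_zero, eta2_add_mul]
    simp
  · set w : ι → ℝ := fun k => u k / a with hw
    have hw0 : ∀ k, 0 ≤ w k := fun k => div_nonneg (hu k) ha0
    have hw1 : ∑ k, w k = 1 := by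
      rw [hw, ← Finset.sum_div, ← ha, div_self hapos.ne']
    set x : ι → ℝ := fun k => p k / w k with hx
    set y : ι → ℝ := fun k => q k / w k with hy
    have hx0 : ∀ k, 0 ≤ x k := fun k => div_nonneg (hp k) (hw0 k)
    have hy0 : ∀ k, 0 ≤ y k := fun k => div_nonneg (hq k) (hw0 k)
    have hwx : ∀ k, w k * x k ≤ p k := by
      intro k
      rcases (hw0 k).eq_or_lt with h | h
      · rw [← h, zero_mul]; exact hp k
      · rw [hx]; simp only; rw [mul_div_cancel₀ _ h.ne']
    have hwy : ∀ k, w k * y k ≤ q k := by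
      intro k
      rcases (hw0 k).eq_or_lt with h | h
      · rw [← h, zero_mul]; exact hq k
      · rw [hy]; simp only; rw [mul_div_cancel₀ _ h.ne']
    -- index set
    set c : Option ι × Fin 4 → ℝ := fun j =>
      match j with
      | (some k, i) => ![w k, w k, - w k, - w k] i
      | (none, i) => ![-1, -1, 1, 1] i with hc
    set z : Option ι × Fin 4 → ℝ := fun j =>
      match j with
      | (some k, i) => ![rp (a + x k + y k) (x k * y k), rm (a + x k + y k) (x k * y k), x k, y k] i
      | (none, i) => ![rp (a + P + Q) (P * Q), rm (a + P + Q) (P * Q), P, Q] i with hz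
    have hz0 : ∀ j ∈ (Finset.univ : Finset (Option ι × Fin 4)), 0 ≤ z j := by
      rintro ⟨k, i⟩ -
      rcases k with _ | k <;> fin_cases i <;> simp only [hz]
      · exact rp_nonneg (by linarith)
      · exact rm_nonneg (by linarith) (mul_nonneg hP0 hQ0)
      · exact hP0
      · exact hQ0
      · exact rp_nonneg (by linarith [hx0 k, hy0 k])
      · exact rm_nonneg (by linarith [hx0 k, hy0 k]) (mul_nonneg (hx0 k) (hy0 k))
      · exact hx0 k
      · exact hy0 k
    have hsumF : ∀ F : ℝ → ℝ, ∑ j, c j * F (z j) =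
        ∑ k, w k * (F (rp (a + x k + y k) (x k * y k)) + F (rm (a + x k + y k) (x k * y k))
          - F (x k) - F (y k)) - (F (rp (a + P + Q) (P * Q)) + F (rm (a + P + Q) (P * Q))
          - F P - F Q) := by
      intro F
      rw [Fintype.sum_prod_type, Fintype.sum_option]
      simp only [hc, hz, Fin.sum_univ_four, Matrix.cons_val_zero, Matrix.cons_val_one,
        Matrix.cons_val]
      have : ∀ k, w k * F (rp (a + x k + y k) (x k * y k)) + w k * F (rm (a + x k + y k) (x k * y k))
          + -w k * F (x k) + -w k * F (y k) =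
          w k * (F (rp (a + x k + y k) (x k * y k)) + F (rm (a + x k + y k) (x k * y k))
          - F (x k) - F (y k)) := by intro k; ring
      simp only [this]
      ring
    have hc0 : ∑ j, c j = 0 := by
      have := hsumF (fun _ => 1)
      simp only [mul_one] at this
      rw [this]; simp
    have hcz : ∑ j, c j * z j = 0 := by
      rw [hsumF (fun r => r)]
      simp only [rp_add_rm]
      have : ∀ k, w k * (a + x k + y k - x k - y k) = w k * a := by
        intro k; ring
      simp only [this]
      rw [← Finset.sum_mul, hw1]; ring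
    have hlogs : ∀ X Y t : ℝ, 0 ≤ X → 0 ≤ Y → 0 < t →
        Real.log (t + rp (a + X + Y) (X * Y)) + Real.log (t + rm (a + X + Y) (X * Y))
          - Real.log (t + X) - Real.log (t + Y) =
        Real.log (1 + t * a / ((t + X) * (t + Y))) := by
      intro X Y t hX hY ht
      have h1 : 0 ≤ rp (a + X + Y) (X * Y) := rp_nonneg (by linarith)
      have h2 : 0 ≤ rm (a + X + Y) (X * Y) := rm_nonneg (by linarith) (mul_nonneg hX hY)
      rw [← Real.log_mul (by positivity) (by positivity),
        ← Real.log_div (by positivity) (by positivity), ← Real.log_div (by positivity) (by positivity),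
        add_rp_mul_add_rm (disc_nonneg ha0 hX hY)]
      congr 1
      field_simp
      ring
    have hmain := negMulLog_sum_nonneg Finset.univ c z hz0 hc0 hcz (by
      intro t ht
      rw [hsumF (fun r => Real.log (t + r)), sub_nonneg, hlogs P Q t hP0 hQ0 ht]
      have : ∀ k, w k * (Real.log (t + rp (a + x k + y k) (x k * y k)) +
          Real.log (t + rm (a + x k + y k) (x k * y k)) - Real.log (t + x k) - Real.log (t + y k)) =
          w k * Real.log (1 + t * a / ((t + x k) * (t + y k))) := by
        intro k; rw [hlogs (x k) (y k) t (hx0 k) (hy0 k) ht]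
      simp only [this]
      exact jensen_log w x y hw0 hw1 hx0 hy0 hapos ht
        (by rw [hP]; exact Finset.sum_le_sum fun k _ => hwx k)
        (by rw [hQ]; exact Finset.sum_le_sum fun k _ => hwy k))
    rw [hsumF Real.negMulLog] at hmain
    simp only [← eta2_eq] at hmain
    -- homogeneity
    have hhom : ∀ k, w k * (eta2 (a + x k + y k) (x k * y k) - Real.negMulLog (x k)
          - Real.negMulLog (y k)) - w k * Real.negMulLog a =
        eta2 (u k + p k + q k) (p k * q k) - Real.negMulLog (u k) - Real.negMulLog (p k)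
        - Real.negMulLog (q k) := by
      intro k
      rcases (hw0 k).eq_or_lt with h | h
      · have huk : u k = 0 := by
          have h2 : u k / a = 0 := h.symm
          rcases (div_eq_zero_iff.1 h2) with h3 | h3
          · exact h3
          · exact absurd h3 hapos.ne'
        rw [← h, huk, zero_add, eta2_add_mul]
        simp
      · have eu : u k = w k * a := by rw [hw]; field_simp
        have ep : p k = w k * x k := by rw [hx]; simp only; rw [mul_div_cancel₀ _ h.ne']
        have eq' : q k = w k * y k := by rw [hy]; simp only; rw [mul_div_cancel₀ _ h.ne']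
        have e1 : u k + p k + q k = w k * (a + x k + y k) := by rw [eu, ep, eq']; ring
        have e2 : p k * q k = w k ^ 2 * (x k * y k) := by rw [ep, eq']; ring
        rw [e1, e2, eta2_smul (hw0 k), eu, ep, eq', Real.negMulLog_mul, Real.negMulLog_mul,
          Real.negMulLog_mul]
        ring
    have hfin : ∑ k, (eta2 (u k + p k + q k) (p k * q k) - Real.negMulLog (u k)
        - Real.negMulLog (p k) - Real.negMulLog (q k)) =
        ∑ k, w k * (eta2 (a + x k + y k) (x k * y k) - Real.negMulLog (x k)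
          - Real.negMulLog (y k)) - Real.negMulLog a := by
      simp only [← hhom]
      rw [Finset.sum_sub_distrib, ← Finset.sum_mul, hw1, one_mul]
    rw [hfin]
    linarith

end Vale.Agent.P358
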