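import Vale.Agent.P358_h28.Key0Det
import Vale.Agent.P358_h28.Key0Scalar

/-!
Square case of the key inequality at `ν = 0`.
-/

open Matrix
open scoped ComplexOrder

namespace Vale.Agent.P358

variable {ι : Type} [Fintype ι] [DecidableEq ι]

theorem ent_of_herm {A : Matrix ι ι ℂ} (hA : A.IsHermitian) :
    ent A = ∑ i, Real.negMulLog (hA.eigenvalues i) := by
  unfold ent; rw [dif_pos hA]

theorem ent_eq_roots {A : Matrix ι ι ℂ} (hA : A.IsHermitian) :
    ent A = (A.charpoly.roots.map fun z => Real.negMulLog z.re).sum := by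
  rw [ent_of_herm hA, hA.roots_charpoly_eq_eigenvalues]
  simp

theorem det_smul_one_add {A : Matrix ι ι ℂ} (hA : A.IsHermitian) (t : ℝ) :
    ((t : ℂ) • (1 : Matrix ι ι ℂ) + A).det = ((∏ i, (t + hA.eigenvalues i) : ℝ) : ℂ) := by
  have h1 := hA.charpoly_eq
  have h2 := congrArg (Polynomial.eval (-(t : ℂ))) h1
  rw [Matrix.eval_charpoly, Polynomial.eval_prod] at h2
  have h3 : (Matrix.scalar ι (-(t : ℂ)) - A) = -((t : ℂ) • (1 : Matrix ι ι ℂ) + A) := by
    rw [Matrix.scalar_apply, ← Matrix.smul_one_eq_diagonal]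
    simp only [neg_smul, neg_add]
    abel
  rw [h3, det_neg] at h2
  have h4 : ∏ j, Polynomial.eval (-(t : ℂ)) (Polynomial.X - Polynomial.C ((hA.eigenvalues j : ℂ))) =
      (-1) ^ Fintype.card ι * ((∏ i, (t + hA.eigenvalues i) : ℝ) : ℂ) := by
    rw [← Finset.card_univ, ← Finset.prod_const, Complex.ofReal_prod, ← Finset.prod_mul_distrib]
    apply Finset.prod_congr rfl
    intro j _
    simp
    ring
  have h5 : ((-1 : ℂ) ^ Fintype.card ι) ≠ 0 := pow_ne_zero _ (by norm_num)
  apply mul_left_cancel₀ h5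
  rw [h2]
  exact h4

theorem ent_conj_diagonal {V : Matrix ι ι ℂ} (hV : V ∈ Matrix.unitaryGroup ι ℂ) (d : ι → ℝ) :
    ent (V * diagonal (fun k => ((d k : ℝ) : ℂ)) * Vᴴ) = ∑ k, Real.negMulLog (d k) := by
  have hD : (diagonal (fun k => ((d k : ℝ) : ℂ)) : Matrix ι ι ℂ).IsHermitian := by
    rw [IsHermitian, diagonal_conjTranspose]; congr 1; ext k; simp
  have hA : (V * diagonal (fun k => ((d k : ℝ) : ℂ)) * Vᴴ).IsHermitian := by
    rw [IsHermitian, conjTranspose_mul, conjTranspose_mul, conjTranspose_conjTranspose, hD.eq,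
      Matrix.mul_assoc]
  have hVs : Vᴴ * V = 1 := by
    have := Matrix.mem_unitaryGroup_iff'.1 hV; rwa [star_eq_conjTranspose] at this
  have hcp : (V * diagonal (fun k => ((d k : ℝ) : ℂ)) * Vᴴ).charpoly =
      ∏ k, (Polynomial.X - Polynomial.C ((d k : ℝ) : ℂ)) := by
    rw [charpoly_mul_comm, ← Matrix.mul_assoc, hVs, Matrix.one_mul, charpoly_diagonal]
  rw [ent_eq_roots hA, hcp, Polynomial.roots_prod]
  · simp
  · simp [Finset.prod_ne_zero_iff, Polynomial.X_sub_C_ne_zero]

theorem trace_re_eq_sum {A : Matrix ι ι ℂ} (hA : A.IsHermitian) :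
    A.trace.re = ∑ i, hA.eigenvalues i := by
  rw [hA.trace_eq_sum_eigenvalues]
  simp

theorem out_posSemidef {P : Matrix ι ι ℂ} (hP : P.PosSemidef) (U W : Matrix ι ι ℂ) :
    (fromBlocks (P + U * Uᴴ) (U * Wᴴ) (W * Uᴴ) (W * Wᴴ)).PosSemidef := by
  have h1 : fromBlocks (P + U * Uᴴ) (U * Wᴴ) (W * Uᴴ) (W * Wᴴ) =
      fromRows (1 : Matrix ι ι ℂ) 0 * P * (fromRows (1 : Matrix ι ι ℂ) 0)ᴴ +
        fromRows U W * (fromRows U W)ᴴ := by
    rw [conjTranspose_fromRows_eq_fromCols_conjTranspose,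
      conjTranspose_fromRows_eq_fromCols_conjTranspose, fromRows_mul, fromRows_mul_fromCols,
      fromRows_mul_fromCols, fromBlocks_add]
    simp
  rw [h1]
  exact (hP.mul_mul_conjTranspose_same _).add (posSemidef_self_mul_conjTranspose _)

theorem key_sq {P : Matrix ι ι ℂ} (hP : P.PosSemidef) (U W : Matrix ι ι ℂ) :
    ent P + ent (Wᴴ * W) + ent (U * Uᴴ) +
      (eta2 ((U * Uᴴ).trace.re + P.trace.re + (Wᴴ * W).trace.re)
        (P.trace.re * (Wᴴ * W).trace.re) - Real.negMulLog (U * Uᴴ).trace.re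
        - Real.negMulLog P.trace.re - Real.negMulLog (Wᴴ * W).trace.re) ≤
    ent (fromBlocks (P + U * Uᴴ) (U * Wᴴ) (W * Uᴴ) (W * Wᴴ)) := by
  set Q : Matrix ι ι ℂ := Wᴴ * W with hQdef
  have hQ : Q.PosSemidef := posSemidef_conjTranspose_mul_self W
  set ρ := fromBlocks (P + U * Uᴴ) (U * Wᴴ) (W * Uᴴ) (W * Wᴴ) with hρdef
  have hρ : ρ.PosSemidef := out_posSemidef hP U W
  obtain ⟨V, σ, p, q, hV, hUU, hp, hq, hpsum, hqsum, hmain⟩ := pinch U P Q hP hQ
  have hentU : ent (U * Uᴴ) = ∑ k, Real.negMulLog (σ k ^ 2) := by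
    rw [hUU]; exact ent_conj_diagonal hV (fun k => σ k ^ 2)
  have htrU : (U * Uᴴ).trace.re = ∑ k, σ k ^ 2 := by
    have hVs : Vᴴ * V = 1 := by
      have := Matrix.mem_unitaryGroup_iff'.1 hV; rwa [star_eq_conjTranspose] at this
    rw [hUU, trace_mul_comm, ← Matrix.mul_assoc, hVs, Matrix.one_mul, trace_diagonal]
    simp only [Complex.re_sum, Complex.ofReal_re]
  have htrρ : ρ.trace.re = P.trace.re + (U * Uᴴ).trace.re + Q.trace.re := by
    have h1 : ρ.trace = (P + U * Uᴴ).trace + (W * Wᴴ).trace := by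
      rw [hρdef]; simp [Matrix.trace, Fintype.sum_sum_type]
    rw [h1, trace_add, hQdef, trace_mul_comm Wᴴ W]
    simp
  have hσ2 : ∀ k, 0 ≤ σ k ^ 2 := fun k => sq_nonneg _
  -- first: entropy version of the pinching inequality
  set c : ((ι ⊕ ι) ⊕ (ι ⊕ ι)) ⊕ (ι × Fin 4) → ℝ :=
    Sum.elim (Sum.elim (fun _ => 1) (fun _ => -1)) (fun j => ![-1, -1, 1, 1] j.2) with hc
  set z : ((ι ⊕ ι) ⊕ (ι ⊕ ι)) ⊕ (ι × Fin 4) → ℝ :=
    Sum.elim (Sum.elim hρ.isHermitian.eigenvalues (Sum.elim hP.isHermitian.eigenvalues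
      hQ.isHermitian.eigenvalues)) (fun j => ![rp (σ j.1 ^ 2 + p j.1 + q j.1) (p j.1 * q j.1),
        rm (σ j.1 ^ 2 + p j.1 + q j.1) (p j.1 * q j.1), p j.1, q j.1] j.2) with hz
  have hrp : ∀ k, 0 ≤ rp (σ k ^ 2 + p k + q k) (p k * q k) := fun k =>
    rp_nonneg (by have := hσ2 k; have := hp k; have := hq k; positivity)
  have hrm : ∀ k, 0 ≤ rm (σ k ^ 2 + p k + q k) (p k * q k) := fun k =>
    rm_nonneg (by have := hσ2 k; have := hp k; have := hq k; positivity)
      (mul_nonneg (hp k) (hq k))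
  have hz0 : ∀ j ∈ Finset.univ, 0 ≤ z j := by
    intro j _
    rcases j with (j | (j | j)) | ⟨k, i⟩
    · exact hρ.eigenvalues_nonneg j
    · exact hP.eigenvalues_nonneg j
    · exact hQ.eigenvalues_nonneg j
    · fin_cases i
      · exact hrp k
      · exact hrm k
      · exact hp k
      · exact hq k
  have hsumF : ∀ F : ℝ → ℝ, ∑ j, c j * F (z j) =
      ∑ i, F (hρ.isHermitian.eigenvalues i) - ∑ i, F (hP.isHermitian.eigenvalues i)
       - ∑ i, F (hQ.isHermitian.eigenvalues i) -
        ∑ k, (F (rp (σ k ^ 2 + p k + q k) (p k * q k)) + F (rm (σ k ^ 2 + p k + q k) (p k * q k))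
          - F (p k) - F (q k)) := by
    intro F
    rw [Fintype.sum_sum_type, Fintype.sum_sum_type, Fintype.sum_prod_type]
    simp only [hc, hz, Sum.elim_inl, Sum.elim_inr, Fintype.sum_sum_type (α₁ := ι) (α₂ := ι),
      Fin.sum_univ_four, Matrix.cons_val_zero, Matrix.cons_val_one, Matrix.cons_val]
    simp only [one_mul, neg_one_mul, Finset.sum_sub_distrib, Finset.sum_add_distrib,
      Finset.sum_neg_distrib]
    ring
  have hc0 : ∑ j, c j = 0 := by
    have := hsumF (fun _ => 1)
    simp only [mul_one] at this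
    rw [this]; simp
  have hcz : ∑ j, c j * z j = 0 := by
    rw [hsumF (fun r => r), ← trace_re_eq_sum, ← trace_re_eq_sum, ← trace_re_eq_sum, htrρ, htrU]
    simp only [rp_add_rm]
    have : ∀ k, σ k ^ 2 + p k + q k - p k - q k = σ k ^ 2 := by intro k; ring
    simp only [this]
    ring
  have hlog : ∀ t : ℝ, 0 < t → 0 ≤ ∑ j, c j * Real.log (t + z j) := by
    intro t ht
    rw [hsumF (fun r => Real.log (t + r))]
    have h1 := hmain t ht
    rw [← det_out hP U W ht, det_smul_one_add hP.isHermitian, det_smul_one_add hQ.isHermitian,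
      det_smul_one_add hρ.isHermitian, Complex.ofReal_re, Complex.ofReal_re,
      Complex.norm_real, Real.norm_of_nonneg (Finset.prod_nonneg fun i _ => by
        have := hρ.eigenvalues_nonneg i; positivity)] at h1
    have hPpos : 0 < ∏ i, (t + hP.isHermitian.eigenvalues i) :=
      Finset.prod_pos fun i _ => by have := hP.eigenvalues_nonneg i; positivity
    have hQpos : 0 < ∏ i, (t + hQ.isHermitian.eigenvalues i) :=
      Finset.prod_pos fun i _ => by have := hQ.eigenvalues_nonneg i; positivity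
    have hρpos : 0 < ∏ i, (t + hρ.isHermitian.eigenvalues i) :=
      Finset.prod_pos fun i _ => by have := hρ.eigenvalues_nonneg i; positivity
    have h2pos : 0 < ∏ k, ((t + p k) * (t + q k) + t * σ k ^ 2) :=
      Finset.prod_pos fun i _ => by have := hp i; have := hq i; positivity
    have h3pos : 0 < ∏ k, ((t + p k) * (t + q k)) :=
      Finset.prod_pos fun i _ => by have := hp i; have := hq i; positivity
    have h2 := Real.log_le_log (by positivity) h1
    rw [Real.log_mul (by positivity) h2pos.ne', Real.log_mul hPpos.ne' hQpos.ne',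
      Real.log_mul hρpos.ne' h3pos.ne'] at h2
    have l1 : Real.log (∏ i, (t + hP.isHermitian.eigenvalues i)) =
        ∑ i, Real.log (t + hP.isHermitian.eigenvalues i) :=
      Real.log_prod (fun i _ => by have := hP.eigenvalues_nonneg i; positivity)
    have l2 : Real.log (∏ i, (t + hQ.isHermitian.eigenvalues i)) =
        ∑ i, Real.log (t + hQ.isHermitian.eigenvalues i) :=
      Real.log_prod (fun i _ => by have := hQ.eigenvalues_nonneg i; positivity)
    have l3 : Real.log (∏ i, (t + hρ.isHermitian.eigenvalues i)) =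
        ∑ i, Real.log (t + hρ.isHermitian.eigenvalues i) :=
      Real.log_prod (fun i _ => by have := hρ.eigenvalues_nonneg i; positivity)
    have l4 : Real.log (∏ k, ((t + p k) * (t + q k) + t * σ k ^ 2)) =
        ∑ k, Real.log ((t + p k) * (t + q k) + t * σ k ^ 2) :=
      Real.log_prod (fun i _ => by have := hp i; have := hq i; positivity)
    have l5 : Real.log (∏ k, ((t + p k) * (t + q k))) =
        ∑ k, Real.log ((t + p k) * (t + q k)) :=
      Real.log_prod (fun i _ => by have := hp i; have := hq i; positivity)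
    rw [l1, l2, l3, l4, l5] at h2
    have h3 : ∀ k, Real.log (t + rp (σ k ^ 2 + p k + q k) (p k * q k)) +
        Real.log (t + rm (σ k ^ 2 + p k + q k) (p k * q k)) - Real.log (t + p k)
          - Real.log (t + q k) =
        Real.log ((t + p k) * (t + q k) + t * σ k ^ 2) - Real.log ((t + p k) * (t + q k)) := by
      intro k
      have e1 := hrp k
      have e2 := hrm k
      have e3 := hp k
      have e4 := hq k
      rw [← Real.log_mul (by positivity) (by positivity),
        add_rp_mul_add_rm (disc_nonneg (hσ2 k) (hp k) (hq k)), sub_sub,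
        ← Real.log_mul (by positivity) (by positivity)]
      congr 2
      ring
    simp only [h3, Finset.sum_sub_distrib]
    linarith
  have h1 := negMulLog_sum_nonneg Finset.univ c z hz0 hc0 hcz hlog
  rw [hsumF Real.negMulLog, ← ent_of_herm, ← ent_of_herm, ← ent_of_herm] at h1
  have h2 := scalar_ineq (fun k => σ k ^ 2) p q hσ2 hp hq
  rw [← htrU, hpsum, hqsum] at h2
  have h3 : ∑ k, (eta2 (σ k ^ 2 + p k + q k) (p k * q k) - Real.negMulLog (σ k ^ 2) -
      Real.negMulLog (p k) - Real.negMulLog (q k)) =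
      ∑ k, (Real.negMulLog (rp (σ k ^ 2 + p k + q k) (p k * q k)) +
        Real.negMulLog (rm (σ k ^ 2 + p k + q k) (p k * q k)) - Real.negMulLog (p k) -
        Real.negMulLog (q k)) - ent (U * Uᴴ) := by
    rw [hentU, ← Finset.sum_sub_distrib]
    apply Finset.sum_congr rfl
    intro k _
    rw [eta2_eq]; ring
  rw [h3] at h2
  linarith

end Vale.Agent.P358
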