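import Vale.Agent.P358_h28.Ent

/-!
Package B, part 1: the tensor power of the channel: block formula, Kraus form, linearity,
diagonal marginals.
-/

open Matrix
open scoped ComplexOrder

namespace Vale.Agent.P358

theorem sum_cons {M : Type*} [AddCommMonoid M] {n : ℕ} (f : (Fin (n + 1) → Fin 2) → M) :
    ∑ x, f x = ∑ a : Fin 2, ∑ u : Fin n → Fin 2, f (Fin.cons a u) := by
  rw [← (Fin.consEquiv (fun _ : Fin (n + 1) => Fin 2)).sum_comp, Fintype.sum_prod_type]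
  rfl

/-- real Kraus coefficients of `gad` -/
noncomputable def kr (γ ν : ℝ) : Fin 4 → Fin 2 → Fin 2 → ℝ :=
  ![![![√(1 - ν), 0], ![0, √(1 - ν) * √(1 - γ)]],
    ![![0, √(1 - ν) * √γ], ![0, 0]],
    ![![√ν * √(1 - γ), 0], ![0, √ν]],
    ![![0, 0], ![√ν * √γ, 0]]]

/-- matrix elements of the channel: `gadc γ ν a b x y = gad (E_ab) x y`. -/
noncomputable def gadc (γ ν : ℝ) : Fin 2 → Fin 2 → Fin 2 → Fin 2 → ℝ :=
  ![![![![1 - γ * ν, 0], ![0, γ * ν]], ![![0, √(1 - γ)], ![0, 0]]],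
    ![![![0, 0], ![√(1 - γ), 0]], ![![γ * (1 - ν), 0], ![0, 1 - γ * (1 - ν)]]]]

theorem gad_single_eq (γ ν : ℝ) (a b x y : Fin 2) :
    gad γ ν (Matrix.single a b 1) x y = ((gadc γ ν a b x y : ℝ) : ℂ) := by
  fin_cases a <;> fin_cases b <;> fin_cases x <;> fin_cases y <;>
    simp [gad, gadc] <;> ring

theorem gadc_eq_kr {γ ν : ℝ} (hγ : γ ∈ Set.Icc (0:ℝ) 1) (hν : ν ∈ Set.Icc (0:ℝ) 1)
    (a b x y : Fin 2) :
    gadc γ ν a b x y = ∑ k, kr γ ν k x a * kr γ ν k y b := by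
  have h1 : √(1 - ν) * √(1 - ν) = 1 - ν := Real.mul_self_sqrt (by linarith [hν.2])
  have h2 : √(1 - γ) * √(1 - γ) = 1 - γ := Real.mul_self_sqrt (by linarith [hγ.2])
  have h3 : √ν * √ν = ν := Real.mul_self_sqrt hν.1
  have h4 : √γ * √γ = γ := Real.mul_self_sqrt hγ.1
  rw [Fin.sum_univ_four]
  fin_cases a <;> fin_cases b <;> fin_cases x <;> fin_cases y <;> simp [gadc, kr]
  · linear_combination -h1 - (√ν)*(√ν) * h2 - (1 - γ) * h3
  · linear_combination -(√ν)*(√ν) * h4 - γ * h3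
  · linear_combination -√(1 - γ) * h1 - √(1 - γ) * h3
  · linear_combination -√(1 - γ) * h1 - √(1 - γ) * h3
  · linear_combination -(√(1 - ν))*(√(1 - ν)) * h4 - γ * h1
  · linear_combination -h3 - (√(1 - ν))*(√(1 - ν)) * h2 - (1 - γ) * h1

/-- general form of `tensorPow` for `gad` -/
theorem tensorPow_apply (γ ν : ℝ) (n : ℕ) (ρ : Matrix (Fin n → Fin 2) (Fin n → Fin 2) ℂ)
    (x y : Fin n → Fin 2) :
    tensorPow (gad γ ν) n ρ x y =
      ∑ u, ∑ v, (∏ i, ((gadc γ ν (u i) (v i) (x i) (y i) : ℝ) : ℂ)) * ρ u v := by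
  simp only [tensorPow, Matrix.of_apply, gad_single_eq]

/-- splitting off the first qubit -/
theorem tensorPow_cons (γ ν : ℝ) (n : ℕ)
    (ρ : Matrix (Fin (n + 1) → Fin 2) (Fin (n + 1) → Fin 2) ℂ)
    (i j : Fin 2) (x y : Fin n → Fin 2) :
    tensorPow (gad γ ν) (n + 1) ρ (Fin.cons i x) (Fin.cons j y) =
      ∑ a, ∑ b, ((gadc γ ν a b i j : ℝ) : ℂ) *
        tensorPow (gad γ ν) n (Matrix.of fun u v => ρ (Fin.cons a u) (Fin.cons b v)) x y := by
  rw [tensorPow_apply, sum_cons]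
  apply Finset.sum_congr rfl
  intro a _
  simp_rw [sum_cons]
  rw [Finset.sum_comm]
  apply Finset.sum_congr rfl
  intro b _
  rw [tensorPow_apply, Finset.mul_sum]
  apply Finset.sum_congr rfl
  intro u _
  rw [Finset.mul_sum]
  apply Finset.sum_congr rfl
  intro v _
  rw [Fin.prod_univ_succ]
  simp only [Fin.cons_zero, Fin.cons_succ, Matrix.of_apply]
  ring

/-- linearity -/
theorem tensorPow_sum_smul (N : Matrix (Fin 2) (Fin 2) ℂ → Matrix (Fin 2) (Fin 2) ℂ) (n : ℕ)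
    {J : Type*} (s : Finset J) (c : J → ℂ) (A : J → Matrix (Fin n → Fin 2) (Fin n → Fin 2) ℂ) :
    tensorPow N n (∑ j ∈ s, c j • A j) = ∑ j ∈ s, c j • tensorPow N n (A j) := by
  ext x y
  simp only [tensorPow, Matrix.of_apply, Matrix.sum_apply, Matrix.smul_apply, smul_eq_mul,
    Finset.mul_sum]
  symm
  rw [Finset.sum_comm]
  apply Finset.sum_congr rfl
  intro u _
  rw [Finset.sum_comm]
  apply Finset.sum_congr rfl
  intro v _
  apply Finset.sum_congr rfl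
  intro j _
  ring

/-- the matrix with columns `K_k ψ` -/
noncomputable def Uk (γ ν : ℝ) {n : ℕ} (ψ : (Fin n → Fin 2) → ℂ) :
    Matrix (Fin n → Fin 2) (Fin n → Fin 4) ℂ :=
  Matrix.of fun x k => ∑ u, (∏ i, ((kr γ ν (k i) (x i) (u i) : ℝ) : ℂ)) * ψ u

theorem tensorPow_vecMulVec {γ ν : ℝ} (hγ : γ ∈ Set.Icc (0:ℝ) 1) (hν : ν ∈ Set.Icc (0:ℝ) 1)
    {n : ℕ} (ψ φ : (Fin n → Fin 2) → ℂ) :
    tensorPow (gad γ ν) n (Matrix.of fun u v => ψ u * star (φ v)) = Uk γ ν ψ * (Uk γ ν φ)ᴴ := by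
  ext x y
  rw [tensorPow_apply, Matrix.mul_apply]
  have h1 : ∀ u v : Fin n → Fin 2, (∏ i, ((gadc γ ν (u i) (v i) (x i) (y i) : ℝ) : ℂ)) =
      ∑ k : Fin n → Fin 4, (∏ i, ((kr γ ν (k i) (x i) (u i) : ℝ) : ℂ)) *
        (∏ i, ((kr γ ν (k i) (y i) (v i) : ℝ) : ℂ)) := by
    intro u v
    have h2 : ∀ i, ((gadc γ ν (u i) (v i) (x i) (y i) : ℝ) : ℂ) =
        ∑ k ∈ (Finset.univ : Finset (Fin 4)), (((kr γ ν k (x i) (u i) : ℝ) : ℂ) *
          ((kr γ ν k (y i) (v i) : ℝ) : ℂ)) := by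
      intro i
      rw [gadc_eq_kr hγ hν]
      push_cast
      rfl
    rw [Finset.prod_congr rfl (fun i _ => h2 i), Finset.prod_univ_sum, Fintype.piFinset_univ]
    apply Finset.sum_congr rfl
    intro k _
    rw [Finset.prod_mul_distrib]
  simp only [h1, Uk, Matrix.of_apply, conjTranspose_apply, star_sum, star_mul',
    Finset.sum_mul, Finset.mul_sum]
  have h3 : ∀ (u v : Fin n → Fin 2) (k : Fin n → Fin 4),
      star (∏ i, ((kr γ ν (k i) (u i) (v i) : ℝ) : ℂ)) =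
        ∏ i, ((kr γ ν (k i) (u i) (v i) : ℝ) : ℂ) := by
    intro u v k
    rw [Complex.star_def, map_prod]
    apply Finset.prod_congr rfl
    intro i _
    exact Complex.conj_ofReal _
  simp only [h3]
  rw [Finset.sum_comm]
  symm
  rw [Finset.sum_comm]
  apply Finset.sum_congr rfl
  intro v _
  rw [Finset.sum_comm]
  apply Finset.sum_congr rfl
  intro u _
  apply Finset.sum_congr rfl
  intro k _
  ring

/-- splitting `n+1` qubits -/
def splitEquiv (n : ℕ) : ((Fin n → Fin 2) ⊕ (Fin n → Fin 2)) ≃ (Fin (n + 1) → Fin 2) where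
  toFun := Sum.elim (fun x => Fin.cons 0 x) (fun x => Fin.cons 1 x)
  invFun := fun x => if x 0 = 0 then Sum.inl (Fin.tail x) else Sum.inr (Fin.tail x)
  left_inv := by
    rintro (x | x) <;> simp
  right_inv := by
    intro x
    by_cases h : x 0 = 0
    · simp only [h, if_true, Sum.elim_inl]
      conv_rhs => rw [← Fin.cons_self_tail x, h]
    · have h1 : x 0 = 1 := by omega
      simp only [h1, one_ne_zero, if_false, Sum.elim_inr]
      conv_rhs => rw [← Fin.cons_self_tail x, h1]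

theorem pure_succ {γ ν : ℝ} (hγ : γ ∈ Set.Icc (0:ℝ) 1) (hν : ν ∈ Set.Icc (0:ℝ) 1)
    {n : ℕ} (ψ : (Fin (n + 1) → Fin 2) → ℂ) :
    ent (tensorPow (gad γ ν) (n + 1) (Matrix.of fun u v => ψ u * star (ψ v))) =
      ent (outBlock γ ν (Uk γ ν fun u => ψ (Fin.cons 0 u)) (Uk γ ν fun u => ψ (Fin.cons 1 u))) := by
  rw [← ent_reindex (splitEquiv n)]
  congr 1
  have hT : ∀ a b : Fin 2, tensorPow (gad γ ν) n
      (Matrix.of fun u v => ψ (Fin.cons a u) * (starRingEnd ℂ) (ψ (Fin.cons b v))) =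
      (Uk γ ν fun u => ψ (Fin.cons a u)) * (Uk γ ν fun u => ψ (Fin.cons b u))ᴴ := by
    intro a b
    exact tensorPow_vecMulVec hγ hν (fun u => ψ (Fin.cons a u)) (fun u => ψ (Fin.cons b u))
  ext (x | x) (y | y) <;>
    simp [splitEquiv, tensorPow_cons, outBlock, gadc, hT]

/-- weighted diagonal sums -/
theorem tensorPow_diag_weight (γ ν : ℝ) {n : ℕ}
    (ρ : Matrix (Fin n → Fin 2) (Fin n → Fin 2) ℂ)
    (w g : Fin n → Fin 2 → ℂ)
    (h : ∀ j a b, ∑ c, w j c * ((gadc γ ν a b c c : ℝ) : ℂ) = if a = b then g j a else 0) :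
    ∑ x, (∏ j, w j (x j)) * tensorPow (gad γ ν) n ρ x x = ∑ u, (∏ j, g j (u j)) * ρ u u := by
  have h1 : ∀ u v : Fin n → Fin 2,
      ∑ x : Fin n → Fin 2, (∏ j, w j (x j)) * ∏ i, ((gadc γ ν (u i) (v i) (x i) (x i) : ℝ) : ℂ) =
        if u = v then ∏ j, g j (u j) else 0 := by
    intro u v
    have h2 := Finset.prod_univ_sum (fun _ : Fin n => (Finset.univ : Finset (Fin 2)))
      (fun j c => w j c * ((gadc γ ν (u j) (v j) c c : ℝ) : ℂ))
    rw [Fintype.piFinset_univ] at h2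
    have h3 : ∀ x : Fin n → Fin 2, (∏ j, w j (x j)) *
        ∏ i, ((gadc γ ν (u i) (v i) (x i) (x i) : ℝ) : ℂ) =
        ∏ j, (w j (x j) * ((gadc γ ν (u j) (v j) (x j) (x j) : ℝ) : ℂ)) := by
      intro x
      rw [Finset.prod_mul_distrib]
    rw [Finset.sum_congr rfl (fun x _ => h3 x), ← h2,
      Finset.prod_congr rfl (fun j _ => h j (u j) (v j))]
    by_cases huv : u = v
    · subst huv
      simp
    · rw [if_neg huv]
      obtain ⟨j, hj⟩ := Function.ne_iff.1 huv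
      exact Finset.prod_eq_zero (Finset.mem_univ j) (if_neg hj)
  calc ∑ x, (∏ j, w j (x j)) * tensorPow (gad γ ν) n ρ x x
      = ∑ x : Fin n → Fin 2, ∑ u, ∑ v, ((∏ j, w j (x j)) *
          ∏ i, ((gadc γ ν (u i) (v i) (x i) (x i) : ℝ) : ℂ)) * ρ u v := by
        apply Finset.sum_congr rfl
        intro x _
        rw [tensorPow_apply, Finset.mul_sum]
        apply Finset.sum_congr rfl
        intro u _
        rw [Finset.mul_sum]
        apply Finset.sum_congr rfl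
        intro v _
        ring
    _ = ∑ u, ∑ v, (if u = v then ∏ j, g j (u j) else 0) * ρ u v := by
        rw [Finset.sum_comm]
        apply Finset.sum_congr rfl
        intro u _
        rw [Finset.sum_comm]
        apply Finset.sum_congr rfl
        intro v _
        rw [← h1, Finset.sum_mul]
    _ = ∑ u, (∏ j, g j (u j)) * ρ u u := by
        apply Finset.sum_congr rfl
        intro u _
        simp

theorem tensorPow_trace (γ ν : ℝ) {n : ℕ} (ρ : Matrix (Fin n → Fin 2) (Fin n → Fin 2) ℂ) :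
    (tensorPow (gad γ ν) n ρ).trace = ρ.trace := by
  have h := tensorPow_diag_weight γ ν ρ (fun _ _ => 1) (fun _ _ => 1) (by
    intro j a b
    fin_cases a <;> fin_cases b <;> simp [gadc])
  simpa [Matrix.trace] using h

/-- the excited-state population of qubit `i` -/
noncomputable def popc {n : ℕ} (ρ : Matrix (Fin n → Fin 2) (Fin n → Fin 2) ℂ) (i : Fin n) : ℂ :=
  ∑ x, if x i = 1 then ρ x x else 0

theorem tensorPow_pop (γ ν : ℝ) {n : ℕ} (ρ : Matrix (Fin n → Fin 2) (Fin n → Fin 2) ℂ)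
    (i : Fin n) :
    popc (tensorPow (gad γ ν) n ρ) i = ((1 - γ : ℝ) : ℂ) * popc ρ i + ((γ * ν : ℝ) : ℂ) * ρ.trace := by
  have h := tensorPow_diag_weight γ ν ρ
    (fun j c => if j = i then (if c = 1 then 1 else 0) else 1)
    (fun j c => if j = i then (((1 - γ : ℝ) : ℂ) * (if c = 1 then 1 else 0) + ((γ * ν : ℝ) : ℂ))
      else 1) (by
    intro j a b
    by_cases hj : j = i
    · simp only [hj, if_true]
      fin_cases a <;> fin_cases b <;> simp [gadc] <;> ring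
    · simp only [hj, if_false]
      fin_cases a <;> fin_cases b <;> simp [gadc])
  simp only [Finset.prod_ite_eq', Finset.mem_univ, if_true] at h
  rw [popc, popc, Matrix.trace]
  simp only [Matrix.diag_apply]
  rw [Finset.mul_sum, Finset.mul_sum, ← Finset.sum_add_distrib]
  simp only [ite_mul, one_mul, zero_mul] at h
  rw [h]
  apply Finset.sum_congr rfl
  intro x _
  split_ifs <;> ring

/-- rank one matrix `ψ ψᴴ` -/
noncomputable def rk {ι : Type} (ψ : ι → ℂ) : Matrix ι ι ℂ := Matrix.of fun u v => ψ u * star (ψ v)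

theorem trace_rk {ι : Type} [Fintype ι] (ψ : ι → ℂ) :
    (rk ψ).trace = ((∑ u, Complex.normSq (ψ u) : ℝ) : ℂ) := by
  simp only [rk, Matrix.trace, Matrix.diag_apply, Matrix.of_apply, Complex.star_def,
    Complex.mul_conj]
  push_cast
  rfl

theorem hs_Uk {γ ν : ℝ} (hγ : γ ∈ Set.Icc (0:ℝ) 1) (hν : ν ∈ Set.Icc (0:ℝ) 1)
    {n : ℕ} (ψ : (Fin n → Fin 2) → ℂ) : hs (Uk γ ν ψ) = ∑ u, Complex.normSq (ψ u) := by
  rw [hs, ← tensorPow_vecMulVec hγ hν]
  have h1 := tensorPow_trace γ ν (rk ψ)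
  rw [trace_rk] at h1
  unfold rk at h1
  rw [h1, Complex.ofReal_re]

theorem rk_posSemidef {ι : Type} [Fintype ι] [DecidableEq ι] (ψ : ι → ℂ) :
    (rk ψ).PosSemidef := by
  have : rk ψ = (Matrix.of fun (u : ι) (_ : Unit) => ψ u) *
      (Matrix.of fun (u : ι) (_ : Unit) => ψ u)ᴴ := by
    ext u v
    simp [rk, Matrix.mul_apply]
  rw [this]
  exact posSemidef_self_mul_conjTranspose _

/-- spectral decomposition into unit rank-one projections -/
theorem exists_pure_decomp {ι : Type} [Fintype ι] [DecidableEq ι] {ρ : Matrix ι ι ℂ}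
    (hρ : ρ.PosSemidef) : ∃ (l : ι → ℝ) (ψ : ι → ι → ℂ), (∀ k, 0 ≤ l k) ∧
      (∀ k, ∑ u, Complex.normSq (ψ k u) = 1) ∧ ρ = ∑ k, ((l k : ℝ) : ℂ) • rk (ψ k) := by
  obtain ⟨V, hV, hAV⟩ := exists_spectral hρ.isHermitian
  refine ⟨hρ.isHermitian.eigenvalues, fun k u => V u k, fun k => hρ.eigenvalues_nonneg k,
    fun k => unitary_col_sum hV k, ?_⟩
  conv_lhs => rw [hAV]
  ext u v
  rw [Matrix.mul_apply, Matrix.sum_apply]
  apply Finset.sum_congr rfl
  intro k _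
  rw [Matrix.mul_diagonal, conjTranspose_apply, Matrix.smul_apply, rk, Matrix.of_apply, smul_eq_mul]
  ring

theorem tensorPow_rk_posSemidef {γ ν : ℝ} (hγ : γ ∈ Set.Icc (0:ℝ) 1) (hν : ν ∈ Set.Icc (0:ℝ) 1)
    {n : ℕ} (ψ : (Fin n → Fin 2) → ℂ) : (tensorPow (gad γ ν) n (rk ψ)).PosSemidef := by
  have := tensorPow_vecMulVec hγ hν ψ ψ
  unfold rk
  rw [this]
  exact posSemidef_self_mul_conjTranspose _

theorem posSemidef_real_smul {ι : Type} [Fintype ι] [DecidableEq ι] {A : Matrix ι ι ℂ}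
    (hA : A.PosSemidef) {c : ℝ} (hc : 0 ≤ c) : (((c : ℝ) : ℂ) • A).PosSemidef :=
  hA.smul (by exact_mod_cast hc)

theorem posSemidef_finset_sum {ι : Type} [Fintype ι] [DecidableEq ι] {J : Type*} (s : Finset J)
    (A : J → Matrix ι ι ℂ) (hA : ∀ j ∈ s, (A j).PosSemidef) : (∑ j ∈ s, A j).PosSemidef :=
  Matrix.posSemidef_sum s hA

theorem tensorPow_posSemidef {γ ν : ℝ} (hγ : γ ∈ Set.Icc (0:ℝ) 1) (hν : ν ∈ Set.Icc (0:ℝ) 1)
    {n : ℕ} {ρ : Matrix (Fin n → Fin 2) (Fin n → Fin 2) ℂ} (hρ : ρ.PosSemidef) :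
    (tensorPow (gad γ ν) n ρ).PosSemidef := by
  obtain ⟨l, ψ, hl, _, h⟩ := exists_pure_decomp hρ
  rw [h, tensorPow_sum_smul]
  apply posSemidef_finset_sum
  intro k _
  exact posSemidef_real_smul (tensorPow_rk_posSemidef hγ hν _) (hl k)

end Vale.Agent.P358
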