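import Vale.Agent.P358_h28.Key0Scalar

/-!
Package B, part 2: `fmin` is convex.
-/

namespace Vale.Agent.P358

theorem fmin_continuous (γ ν : ℝ) : Continuous (fmin γ ν) := by
  unfold fmin eta2
  have := Real.continuous_negMulLog
  fun_prop

theorem two_mul_le_log_sub_log {r : ℝ} (h0 : 0 < r) (h1 : r < 1) :
    2 * r ≤ Real.log (1 + r) - Real.log (1 - r) := by
  have h := Real.hasSum_log_sub_log_of_abs_lt_one (x := r) (by rw [abs_of_pos h0]; exact h1)
  have h2 := le_hasSum h 0 (fun i _ => by positivity)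
  simpa using h2

/-- the discriminant `1 - 4 D(q)` -/
noncomputable def disc (γ ν q : ℝ) : ℝ := 1 - 4 * (γ * (1 - γ) * (q - ν) ^ 2 + γ * ν * (1 - ν))

theorem disc_eq (γ ν q : ℝ) :
    disc γ ν q = (1 - 2 * ((1 - γ) * q + γ * ν)) ^ 2 + 4 * (1 - γ) * (q * (1 - q)) := by
  unfold disc; ring

theorem disc_nonneg' {γ ν q : ℝ} (hγ : γ ∈ Set.Icc (0:ℝ) 1) (hq : q ∈ Set.Icc (0:ℝ) 1) :
    0 ≤ disc γ ν q := by
  rw [disc_eq]
  have h1 : 0 ≤ 1 - γ := by linarith [hγ.2]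
  have h2 : 0 ≤ q * (1 - q) := mul_nonneg hq.1 (by linarith [hq.2])
  positivity

theorem disc_pos {γ ν q : ℝ} (hγ1 : γ < 1) (hq0 : 0 < q) (hq1 : q < 1) :
    0 < disc γ ν q := by
  rw [disc_eq]
  have h1 : 0 < 1 - γ := by linarith
  have h2 : 0 < q * (1 - q) := mul_pos hq0 (by linarith)
  positivity

theorem disc_lt_one {γ ν q : ℝ} (hγ0 : 0 < γ) (hγ1 : γ < 1) (hν : ν ∈ Set.Icc (0:ℝ) 1)
    (hq0 : 0 < q) (hq1 : q < 1) : disc γ ν q < 1 := by
  unfold disc
  have hc : 0 < γ * (1 - γ) := mul_pos hγ0 (by linarith)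
  have hd : 0 ≤ γ * ν * (1 - ν) := mul_nonneg (mul_nonneg hγ0.le hν.1) (by linarith [hν.2])
  by_cases h : q = ν
  · subst h
    have : 0 < γ * q * (1 - q) := mul_pos (mul_pos hγ0 hq0) (by linarith)
    nlinarith
  · have h2 : 0 < (q - ν) ^ 2 := by
      have : q - ν ≠ 0 := sub_ne_zero.2 h
      positivity
    have : 0 < γ * (1 - γ) * (q - ν) ^ 2 := mul_pos hc h2
    linarith

theorem fmin_eq_binEntropy (γ ν q : ℝ) :
    fmin γ ν q = Real.binEntropy ((1 + √(disc γ ν q)) / 2) := by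
  rw [Real.binEntropy_eq_negMulLog_add_negMulLog_one_sub, fmin, eta2, disc]
  congr 2
  · ring_nf
  · ring_nf

theorem hasDerivAt_disc (γ ν q : ℝ) :
    HasDerivAt (disc γ ν) (-(8 * (γ * (1 - γ)) * (q - ν))) q := by
  unfold disc
  have h1 : HasDerivAt (fun q : ℝ => q - ν) 1 q := (hasDerivAt_id q).sub_const ν
  have h2 := ((((h1.pow 2).const_mul (γ * (1 - γ))).add_const (γ * ν * (1 - ν))).const_mul 4).const_sub 1
  refine h2.congr_deriv ?_
  push_cast
  ring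

theorem hasDerivAt_sqrt_disc {γ ν q : ℝ} (hγ1 : γ < 1) (hq0 : 0 < q) (hq1 : q < 1) :
    HasDerivAt (fun q => √(disc γ ν q)) (-(4 * (γ * (1 - γ)) * (q - ν)) / √(disc γ ν q)) q := by
  have h0 := disc_pos (ν := ν) hγ1 hq0 hq1
  have h1 := (hasDerivAt_disc γ ν q).sqrt h0.ne'
  refine h1.congr_deriv ?_
  have : √(disc γ ν q) ≠ 0 := (Real.sqrt_pos.2 h0).ne'
  field_simp
  ring

theorem hasDerivAt_fmin {γ ν q : ℝ} (hγ0 : 0 < γ) (hγ1 : γ < 1) (hν : ν ∈ Set.Icc (0:ℝ) 1)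
    (hq0 : 0 < q) (hq1 : q < 1) :
    HasDerivAt (fmin γ ν) (2 * (γ * (1 - γ)) * (q - ν) *
      ((Real.log (1 + √(disc γ ν q)) - Real.log (1 - √(disc γ ν q))) / √(disc γ ν q))) q := by
  have hs0 := disc_pos (ν := ν) hγ1 hq0 hq1
  have hs1 := disc_lt_one hγ0 hγ1 hν hq0 hq1
  have hr0 : 0 < √(disc γ ν q) := Real.sqrt_pos.2 hs0
  have hr1 : √(disc γ ν q) < 1 := by
    rw [Real.sqrt_lt' one_pos]; linarith
  have h1 : HasDerivAt (fun q => (1 + √(disc γ ν q)) / 2)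
      ((-(4 * (γ * (1 - γ)) * (q - ν)) / √(disc γ ν q)) / 2) q :=
    ((hasDerivAt_sqrt_disc hγ1 hq0 hq1).const_add 1).div_const 2
  have h2 := Real.hasDerivAt_binEntropy (p := (1 + √(disc γ ν q)) / 2) (by linarith)
    (by linarith)
  have h3 := h2.comp q h1
  have h4 : fmin γ ν = Real.binEntropy ∘ fun q => (1 + √(disc γ ν q)) / 2 := by
    funext q
    exact fmin_eq_binEntropy γ ν q
  rw [h4]
  refine h3.congr_deriv ?_
  have e1 : Real.log (1 - (1 + √(disc γ ν q)) / 2) = Real.log (1 - √(disc γ ν q)) - Real.log 2 := by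
    rw [← Real.log_div (by linarith) (by norm_num)]
    congr 1
    ring
  have e2 : Real.log ((1 + √(disc γ ν q)) / 2) = Real.log (1 + √(disc γ ν q)) - Real.log 2 := by
    rw [← Real.log_div (by linarith) (by norm_num)]
  rw [e1, e2]
  ring

theorem fmin_convex {γ ν : ℝ} (hγ : γ ∈ Set.Icc (0:ℝ) 1) (hν : ν ∈ Set.Icc (0:ℝ) 1) :
    ConvexOn ℝ (Set.Icc 0 1) (fmin γ ν) := by
  by_cases hc : γ * (1 - γ) = 0
  · have : fmin γ ν = fun _ => eta2 1 (γ * ν * (1 - ν)) := by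
      funext q
      rw [fmin, hc, zero_mul, zero_add]
    rw [this]
    exact convexOn_const _ (convex_Icc 0 1)
  have hγ0 : 0 < γ := lt_of_le_of_ne hγ.1 (fun h => hc (by rw [← h]; ring))
  have hγ1 : γ < 1 := lt_of_le_of_ne hγ.2 (fun h => hc (by rw [h]; ring))
  have hcp : 0 < γ * (1 - γ) := mul_pos hγ0 (by linarith)
  set c := γ * (1 - γ) with hcdef
  apply convexOn_of_hasDerivWithinAt2_nonneg (convex_Icc 0 1) (fmin_continuous γ ν).continuousOn
    (f' := fun q => 2 * c * (q - ν) *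
      ((Real.log (1 + √(disc γ ν q)) - Real.log (1 - √(disc γ ν q))) / √(disc γ ν q)))
    (f'' := fun q => 2 * c * 1 *
      ((Real.log (1 + √(disc γ ν q)) - Real.log (1 - √(disc γ ν q))) / √(disc γ ν q)) +
      2 * c * (q - ν) * ((((-(4 * c * (q - ν)) / √(disc γ ν q)) / (1 + √(disc γ ν q)) -
        (-(-(4 * c * (q - ν)) / √(disc γ ν q))) / (1 - √(disc γ ν q))) * √(disc γ ν q) -
        (Real.log (1 + √(disc γ ν q)) - Real.log (1 - √(disc γ ν q))) *
          (-(4 * c * (q - ν)) / √(disc γ ν q))) / √(disc γ ν q) ^ 2))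
  · intro q hq
    rw [interior_Icc] at hq
    exact (hasDerivAt_fmin hγ0 hγ1 hν hq.1 hq.2).hasDerivWithinAt
  · intro q hq
    rw [interior_Icc] at hq
    apply HasDerivAt.hasDerivWithinAt
    have hs0 := disc_pos (ν := ν) hγ1 hq.1 hq.2
    have hs1 := disc_lt_one hγ0 hγ1 hν hq.1 hq.2
    have hr0 : 0 < √(disc γ ν q) := Real.sqrt_pos.2 hs0
    have hr1 : √(disc γ ν q) < 1 := by
      rw [Real.sqrt_lt' one_pos]; linarith
    have h1 : HasDerivAt (fun q : ℝ => 2 * c * (q - ν)) (2 * c * 1) q :=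
      ((hasDerivAt_id q).sub_const ν).const_mul (2 * c)
    have h2 := hasDerivAt_sqrt_disc (ν := ν) hγ1 hq.1 hq.2
    have h3 := (h2.const_add 1).log (by linarith)
    have h4 := (h2.const_sub 1).log (by linarith)
    exact h1.mul ((h3.sub h4).div h2 hr0.ne')
  · intro q hq
    rw [interior_Icc] at hq
    have hs0 := disc_pos (ν := ν) hγ1 hq.1 hq.2
    have hs1 := disc_lt_one hγ0 hγ1 hν hq.1 hq.2
    obtain ⟨r, hr⟩ : ∃ r, r = √(disc γ ν q) := ⟨_, rfl⟩
    have hr0 : 0 < r := by rw [hr]; exact Real.sqrt_pos.2 hs0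
    have hr1 : r < 1 := by
      rw [hr, Real.sqrt_lt' one_pos]; linarith
    have hL := two_mul_le_log_sub_log hr0 hr1
    have hrr : r ^ 2 = disc γ ν q := by rw [hr, Real.sq_sqrt hs0.le]
    rw [← hr]
    obtain ⟨L, hLd⟩ : ∃ L, L = Real.log (1 + r) - Real.log (1 - r) := ⟨_, rfl⟩
    rw [← hLd] at hL ⊢
    have hX : 4 * c * (q - ν) ^ 2 ≤ 1 - r ^ 2 := by
      rw [hrr, disc]
      have hd : 0 ≤ γ * ν * (1 - ν) := mul_nonneg (mul_nonneg hγ0.le hν.1) (by linarith [hν.2])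
      rw [← hcdef]
      linarith
    have hX0 : 0 ≤ 4 * c * (q - ν) ^ 2 := by positivity
    have h1r : 0 < 1 - r ^ 2 := by nlinarith
    have e : 2 * c * 1 * (L / r) + 2 * c * (q - ν) * (((-(4 * c * (q - ν)) / r / (1 + r) -
        -(-(4 * c * (q - ν)) / r) / (1 - r)) * r - L * (-(4 * c * (q - ν)) / r)) / r ^ 2) =
        2 * c * ((r ^ 2 * L - 4 * c * (q - ν) ^ 2 * (2 * r / (1 - r ^ 2) - L)) / r ^ 3) := by
      have h1 : 1 + r ≠ 0 := by linarith
      have h2 : 1 - r ≠ 0 := by linarith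
      have h3 : 1 - r ^ 2 ≠ 0 := h1r.ne'
      have h4 : (1 - r ^ 2) = (1 + r) * (1 - r) := by ring
      rw [h4]
      field_simp
      ring
    rw [e]
    apply mul_nonneg (by positivity)
    apply div_nonneg _ (by positivity)
    obtain ⟨M, hM⟩ : ∃ M, M = 2 * r / (1 - r ^ 2) - L := ⟨_, rfl⟩
    rw [← hM]
    have hM2 : (1 - r ^ 2) * M = 2 * r - (1 - r ^ 2) * L := by
      rw [hM]
      field_simp
    rcases le_total 0 M with hM0 | hM0
    · have : 4 * c * (q - ν) ^ 2 * M ≤ (1 - r ^ 2) * M := mul_le_mul_of_nonneg_right hX hM0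
      nlinarith
    · have : 4 * c * (q - ν) ^ 2 * M ≤ 0 := mul_nonpos_of_nonneg_of_nonpos hX0 hM0
      have : 0 ≤ r ^ 2 * L := by
        apply mul_nonneg (by positivity)
        linarith
      linarith

end Vale.Agent.P358
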