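import Vale.Agent.P358_h28.Reduction1
import Vale.Agent.P358_h28.Reduction2

/-!
Package B, part 3: strong superadditivity of the minimal output entropy from `KeyIneq`.
-/

open Matrix
open scoped ComplexOrder

namespace Vale.Agent.P358

/-- population of a vector -/
noncomputable def popv {n : ℕ} (ψ : (Fin n → Fin 2) → ℂ) (i : Fin n) : ℝ :=
  ∑ u, if u i = 1 then Complex.normSq (ψ u) else 0

/-- squared norm -/
noncomputable def nsq {n : ℕ} (ψ : (Fin n → Fin 2) → ℂ) : ℝ := ∑ u, Complex.normSq (ψ u)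

theorem nsq_nonneg {n : ℕ} (ψ : (Fin n → Fin 2) → ℂ) : 0 ≤ nsq ψ :=
  Finset.sum_nonneg fun _ _ => Complex.normSq_nonneg _

theorem popv_nonneg {n : ℕ} (ψ : (Fin n → Fin 2) → ℂ) (i : Fin n) : 0 ≤ popv ψ i := by
  apply Finset.sum_nonneg
  intro u _
  split_ifs
  · exact Complex.normSq_nonneg _
  · exact le_refl _

theorem popv_le {n : ℕ} (ψ : (Fin n → Fin 2) → ℂ) (i : Fin n) : popv ψ i ≤ nsq ψ := by
  apply Finset.sum_le_sum
  intro u _
  split_ifs
  · exact le_refl _
  · exact Complex.normSq_nonneg _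

theorem popv_div_mem {n : ℕ} (ψ : (Fin n → Fin 2) → ℂ) (i : Fin n) :
    popv ψ i / nsq ψ ∈ Set.Icc (0:ℝ) 1 := by
  constructor
  · exact div_nonneg (popv_nonneg ψ i) (nsq_nonneg ψ)
  · rcases (nsq_nonneg ψ).eq_or_lt with h | h
    · rw [← h, div_zero]; exact zero_le_one
    · rw [div_le_one h]; exact popv_le ψ i

theorem nsq_succ {n : ℕ} (ψ : (Fin (n + 1) → Fin 2) → ℂ) :
    nsq ψ = nsq (fun u => ψ (Fin.cons 0 u)) + nsq (fun u => ψ (Fin.cons 1 u)) := by
  unfold nsq
  rw [sum_cons, Fin.sum_univ_two]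

theorem popv_zero {n : ℕ} (ψ : (Fin (n + 1) → Fin 2) → ℂ) :
    popv ψ 0 = nsq (fun u => ψ (Fin.cons 1 u)) := by
  unfold nsq popv
  rw [sum_cons, Fin.sum_univ_two]
  simp

theorem popv_succ {n : ℕ} (ψ : (Fin (n + 1) → Fin 2) → ℂ) (i : Fin n) :
    popv ψ i.succ = popv (fun u => ψ (Fin.cons 0 u)) i + popv (fun u => ψ (Fin.cons 1 u)) i := by
  unfold popv
  rw [sum_cons, Fin.sum_univ_two]
  simp

theorem eta2_Dab {γ ν a b : ℝ} (hab : 0 < a + b) :
    eta2 (a + b) (Dab γ ν a b) = (a + b) * fmin γ ν (b / (a + b)) + Real.negMulLog (a + b) := by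
  have h := eta2_smul hab.le 1 (γ * (1 - γ) * (b / (a + b) - ν) ^ 2 + γ * ν * (1 - ν))
  rw [mul_one, mul_one] at h
  rw [fmin, ← h]
  congr 1
  unfold Dab
  field_simp
  ring

theorem convex_two {γ ν : ℝ} (hγ : γ ∈ Set.Icc (0:ℝ) 1) (hν : ν ∈ Set.Icc (0:ℝ) 1)
    {a b x y : ℝ} (hx0 : 0 ≤ x) (hxa : x ≤ a) (hy0 : 0 ≤ y) (hyb : y ≤ b) (hab : 0 < a + b) :
    (a + b) * fmin γ ν ((x + y) / (a + b)) ≤ a * fmin γ ν (x / a) + b * fmin γ ν (y / b) := by
  have ha : 0 ≤ a := hx0.trans hxa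
  have hb : 0 ≤ b := hy0.trans hyb
  have mem : ∀ {s t : ℝ}, 0 ≤ s → s ≤ t → s / t ∈ Set.Icc (0:ℝ) 1 := by
    intro s t hs hst
    refine ⟨div_nonneg hs (hs.trans hst), ?_⟩
    rcases (hs.trans hst).eq_or_lt with h | h
    · rw [← h, div_zero]; exact zero_le_one
    · rw [div_le_one h]; exact hst
  have canc : ∀ {s t : ℝ}, 0 ≤ s → s ≤ t → t * (s / t) = s := by
    intro s t hs hst
    rcases (hs.trans hst).eq_or_lt with h | h
    · rw [← h, zero_mul]
      linarith
    · exact mul_div_cancel₀ s h.ne'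
  have h := (fmin_convex hγ hν).2 (mem hx0 hxa) (mem hy0 hyb)
    (show (0:ℝ) ≤ a / (a + b) by positivity) (show (0:ℝ) ≤ b / (a + b) by positivity)
    (by field_simp)
  simp only [smul_eq_mul] at h
  have e : a / (a + b) * (x / a) + b / (a + b) * (y / b) = (x + y) / (a + b) := by
    calc a / (a + b) * (x / a) + b / (a + b) * (y / b)
        = (a * (x / a) + b * (y / b)) / (a + b) := by ring
      _ = _ := by rw [canc hx0 hxa, canc hy0 hyb]
  rw [e] at h
  calc (a + b) * fmin γ ν ((x + y) / (a + b))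
      ≤ (a + b) * (a / (a + b) * fmin γ ν (x / a) + b / (a + b) * fmin γ ν (y / b)) :=
        mul_le_mul_of_nonneg_left h hab.le
    _ = _ := by field_simp

theorem superadd_pure {γ ν : ℝ} (hγ : γ ∈ Set.Icc (0:ℝ) 1) (hν : ν ∈ Set.Icc (0:ℝ) 1)
    (hK : KeyIneq γ ν) (n : ℕ) : ∀ ψ : (Fin n → Fin 2) → ℂ,
    nsq ψ * ∑ i, fmin γ ν (popv ψ i / nsq ψ) + Real.negMulLog (nsq ψ) ≤
      ent (tensorPow (gad γ ν) n (rk ψ)) := by
  induction n with
  | zero =>
    intro ψ
    have h : tensorPow (gad γ ν) 0 (rk ψ) = diagonal (fun _ => ((nsq ψ : ℝ) : ℂ)) := by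
      ext x y
      have hxy : x = y := Subsingleton.elim _ _
      subst hxy
      rw [tensorPow_apply, diagonal_apply_eq]
      simp [rk, nsq, Complex.mul_conj]
    rw [h, ent_diagonal]
    simp
  | succ n ih =>
    intro ψ
    have h0 := ih (fun u => ψ (Fin.cons 0 u))
    have h1 := ih (fun u => ψ (Fin.cons 1 u))
    have hk := hK _ _ (Uk γ ν fun u => ψ (Fin.cons 0 u)) (Uk γ ν fun u => ψ (Fin.cons 1 u))
    rw [hs_Uk hγ hν, hs_Uk hγ hν, ← tensorPow_vecMulVec hγ hν, ← tensorPow_vecMulVec hγ hν,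
      ← pure_succ hγ hν] at hk
    change ent (tensorPow (gad γ ν) n (rk fun u => ψ (Fin.cons 0 u))) +
      ent (tensorPow (gad γ ν) n (rk fun u => ψ (Fin.cons 1 u))) +
      G γ ν (nsq fun u => ψ (Fin.cons 0 u)) (nsq fun u => ψ (Fin.cons 1 u)) ≤
      ent (tensorPow (gad γ ν) (n + 1) (rk ψ)) at hk
    rw [Fin.sum_univ_succ, popv_zero]
    simp only [popv_succ]
    rw [nsq_succ]
    have p0 := popv_nonneg (fun u => ψ (Fin.cons 0 u))
    have p1 := popv_nonneg (fun u => ψ (Fin.cons 1 u))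
    have l0 := popv_le (fun u => ψ (Fin.cons 0 u))
    have l1 := popv_le (fun u => ψ (Fin.cons 1 u))
    have n0 := nsq_nonneg (fun u => ψ (Fin.cons 0 u))
    have n1 := nsq_nonneg (fun u => ψ (Fin.cons 1 u))
    generalize popv (fun u => ψ (Fin.cons 0 u)) = P0 at *
    generalize popv (fun u => ψ (Fin.cons 1 u)) = P1 at *
    generalize nsq (fun u => ψ (Fin.cons 0 u)) = a at *
    generalize nsq (fun u => ψ (Fin.cons 1 u)) = b at *
    rcases (add_nonneg n0 n1).eq_or_lt with hab | hab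
    · have ha : a = 0 := by linarith
      have hb : b = 0 := by linarith
      subst ha
      subst hb
      have hG : G γ ν 0 0 = 0 := by
        simp [G, Dab, eta2]
      rw [hG] at hk
      simp at h0 h1 ⊢
      linarith
    · have hG : G γ ν a b = (a + b) * fmin γ ν (b / (a + b)) + Real.negMulLog (a + b)
          - Real.negMulLog a - Real.negMulLog b := by
        rw [G, eta2_Dab hab]
      rw [hG] at hk
      have hc : (a + b) * ∑ i, fmin γ ν ((P0 i + P1 i) / (a + b)) ≤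
          a * ∑ i, fmin γ ν (P0 i / a) + b * ∑ i, fmin γ ν (P1 i / b) := by
        rw [Finset.mul_sum, Finset.mul_sum, Finset.mul_sum, ← Finset.sum_add_distrib]
        apply Finset.sum_le_sum
        intro i _
        exact convex_two hγ hν (p0 i) (l0 i) (p1 i) (l1 i) hab
      rw [mul_add]
      linarith

theorem ent_concave' {ι J : Type} [Fintype ι] [DecidableEq ι] [Fintype J] (p : J → ℝ)
    (hp : ∀ a, 0 ≤ p a) (hp1 : ∑ a, p a = 1)
    (A : J → Matrix ι ι ℂ) (hA : ∀ a, (A a).PosSemidef) :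
    ∑ a, p a * ent (A a) ≤ ent (∑ a, (p a : ℂ) • A a) := by
  have e := (Fintype.equivFin J).symm
  have h := ent_concave (fun a => p (e a)) (fun a => hp _)
    (by rw [e.sum_comp p]; exact hp1) (fun a => A (e a)) (fun a => hA _)
  rw [e.sum_comp (fun a => p a * ent (A a)), e.sum_comp (fun a => (p a : ℂ) • A a)] at h
  exact h

/-- strong superadditivity for `n` qubits -/
theorem superadd {γ ν : ℝ} (hγ : γ ∈ Set.Icc (0:ℝ) 1) (hν : ν ∈ Set.Icc (0:ℝ) 1)
    (hK : KeyIneq γ ν) (n : ℕ) (ρ : Matrix (Fin n → Fin 2) (Fin n → Fin 2) ℂ) (hρ : IsDensity ρ) :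
    ∑ i, fmin γ ν (∑ x, if x i = 1 then (ρ x x).re else 0) ≤ ent (tensorPow (gad γ ν) n ρ) := by
  obtain ⟨l, ψ, hl, hψ, hdec⟩ := exists_pure_decomp hρ.1
  have hl1 : ∑ k, l k = 1 := by
    have h1 := hρ.2
    rw [hdec, trace_sum] at h1
    simp only [trace_smul, trace_rk, hψ, smul_eq_mul] at h1
    have h2 : ((∑ k, l k : ℝ) : ℂ) = 1 := by
      push_cast
      simpa using h1
    exact_mod_cast h2
  have hq : ∀ i, (∑ x, if x i = 1 then (ρ x x).re else 0) = ∑ k, l k * popv (ψ k) i := by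
    intro i
    have h3 : ∀ x, (ρ x x).re = ∑ k, l k * Complex.normSq (ψ k x) := by
      intro x
      conv_lhs => rw [hdec]
      rw [Matrix.sum_apply, Complex.re_sum]
      apply Finset.sum_congr rfl
      intro k _
      rw [Matrix.smul_apply, rk, Matrix.of_apply, Complex.star_def, Complex.mul_conj, smul_eq_mul,
        ← Complex.ofReal_mul, Complex.ofReal_re]
    simp only [popv, Finset.mul_sum]
    rw [Finset.sum_comm]
    apply Finset.sum_congr rfl
    intro x _
    split_ifs with hx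
    · exact h3 x
    · simp
  have hns : ∀ k, nsq (ψ k) = 1 := hψ
  have hpure : ∀ k, ∑ i, fmin γ ν (popv (ψ k) i) ≤ ent (tensorPow (gad γ ν) n (rk (ψ k))) := by
    intro k
    have := superadd_pure hγ hν hK n (ψ k)
    rw [hns k] at this
    simpa using this
  have hpm : ∀ k i, popv (ψ k) i ∈ Set.Icc (0:ℝ) 1 := by
    intro k i
    have := popv_div_mem (ψ k) i
    rwa [hns k, div_one] at this
  calc ∑ i, fmin γ ν (∑ x, if x i = 1 then (ρ x x).re else 0)
      = ∑ i, fmin γ ν (∑ k, l k * popv (ψ k) i) := by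
        apply Finset.sum_congr rfl
        intro i _
        rw [hq i]
    _ ≤ ∑ i, ∑ k, l k * fmin γ ν (popv (ψ k) i) := by
        apply Finset.sum_le_sum
        intro i _
        exact (fmin_convex hγ hν).map_sum_le (t := Finset.univ) (w := l)
          (p := fun k => popv (ψ k) i) (fun k _ => hl k) hl1 (fun k _ => hpm k i)
    _ = ∑ k, l k * ∑ i, fmin γ ν (popv (ψ k) i) := by
        rw [Finset.sum_comm]
        simp only [Finset.mul_sum]
    _ ≤ ∑ k, l k * ent (tensorPow (gad γ ν) n (rk (ψ k))) := by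
        apply Finset.sum_le_sum
        intro k _
        exact mul_le_mul_of_nonneg_left (hpure k) (hl k)
    _ ≤ ent (∑ k, ((l k : ℝ) : ℂ) • tensorPow (gad γ ν) n (rk (ψ k))) :=
        ent_concave' l hl hl1 _ (fun k => tensorPow_rk_posSemidef hγ hν _)
    _ = ent (tensorPow (gad γ ν) n ρ) := by
        rw [← tensorPow_sum_smul, ← hdec]

end Vale.Agent.P358
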