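import Vale.Agent.P358_h28.Reduction3

/-!
Package C: the capacity formula from `KeyIneq`.
-/

open Matrix
open scoped ComplexOrder

namespace Vale.Agent.P358

/-! ### Shannon subadditivity -/

theorem shannon_subadd {n : ℕ} (p : (Fin n → Fin 2) → ℝ) (hp : ∀ x, 0 ≤ p x) (hp1 : ∑ x, p x = 1) :
    ∑ x, Real.negMulLog (p x) ≤ ∑ i, Real.binEntropy (∑ x, if x i = 1 then p x else 0) := by
  obtain ⟨m, hm⟩ : ∃ m : Fin n → ℝ, m = fun i => ∑ x, if x i = 1 then p x else 0 := ⟨_, rfl⟩
  obtain ⟨r, hr⟩ : ∃ r : Fin n → Fin 2 → ℝ, r = fun i b => if b = 1 then m i else 1 - m i := ⟨_, rfl⟩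
  have hm0 : ∀ i, 1 - m i = ∑ x, if x i = 1 then 0 else p x := by
    intro i
    rw [← hp1, hm]
    simp only
    rw [← Finset.sum_sub_distrib]
    apply Finset.sum_congr rfl
    intro x _
    split_ifs <;> simp
  have hrp : ∀ (x : Fin n → Fin 2) i, p x ≤ r i (x i) := by
    intro x i
    rw [hr]
    simp only
    split_ifs with h
    · rw [hm]
      have h1 : (fun y : Fin n → Fin 2 => if y i = 1 then p y else 0) x = p x := by simp [h]
      calc p x = (fun y : Fin n → Fin 2 => if y i = 1 then p y else 0) x := h1.symm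
        _ ≤ _ := Finset.single_le_sum (f := fun y : Fin n → Fin 2 => if y i = 1 then p y else 0)
            (fun y _ => by split_ifs; exacts [hp y, le_refl _]) (Finset.mem_univ x)
    · rw [hm0]
      have h1 : (fun y : Fin n → Fin 2 => if y i = 1 then 0 else p y) x = p x := by simp [h]
      calc p x = (fun y : Fin n → Fin 2 => if y i = 1 then 0 else p y) x := h1.symm
        _ ≤ _ := Finset.single_le_sum (f := fun y : Fin n → Fin 2 => if y i = 1 then 0 else p y)
            (fun y _ => by split_ifs; exacts [le_refl _, hp y]) (Finset.mem_univ x)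
  have hr0 : ∀ (x : Fin n → Fin 2) i, 0 ≤ r i (x i) := fun x i => (hp x).trans (hrp x i)
  have hrs : ∀ i, ∑ b, r i b = 1 := by
    intro i
    rw [hr, Fin.sum_univ_two]
    simp
  have hR1 : ∑ x : Fin n → Fin 2, ∏ i, r i (x i) = 1 := by
    have h1 := Finset.prod_univ_sum (fun _ : Fin n => (Finset.univ : Finset (Fin 2)))
      (fun i b => r i b)
    rw [Fintype.piFinset_univ] at h1
    rw [← h1]
    exact Finset.prod_eq_one fun i _ => hrs i
  have hpt : ∀ x, Real.negMulLog (p x) ≤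
      -(∑ i, p x * Real.log (r i (x i))) + (∏ i, r i (x i)) - p x := by
    intro x
    rcases (hp x).eq_or_lt with h | h
    · rw [← h]
      simp only [Real.negMulLog_zero, zero_mul, Finset.sum_const_zero, neg_zero, zero_add, sub_zero]
      exact Finset.prod_nonneg fun i _ => hr0 x i
    · have hri : ∀ i, 0 < r i (x i) := fun i => h.trans_le (hrp x i)
      have hR : 0 < ∏ i, r i (x i) := Finset.prod_pos fun i _ => hri i
      rw [← Finset.mul_sum, ← Real.log_prod (fun i _ => (hri i).ne')]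
      have h2 := Real.log_le_sub_one_of_pos (div_pos hR h)
      rw [Real.log_div hR.ne' h.ne'] at h2
      have h3 := mul_le_mul_of_nonneg_left h2 h.le
      have h4 : p x * ((∏ i, r i (x i)) / p x - 1) = (∏ i, r i (x i)) - p x := by
        field_simp
      rw [h4] at h3
      rw [Real.negMulLog]
      linarith
  calc ∑ x, Real.negMulLog (p x)
      ≤ ∑ x, (-(∑ i, p x * Real.log (r i (x i))) + (∏ i, r i (x i)) - p x) :=
        Finset.sum_le_sum fun x _ => hpt x
    _ = -(∑ x, ∑ i, p x * Real.log (r i (x i))) := by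
        rw [Finset.sum_sub_distrib, Finset.sum_add_distrib, hR1, hp1, Finset.sum_neg_distrib]
        ring
    _ = ∑ i, Real.binEntropy (∑ x, if x i = 1 then p x else 0) := by
        rw [Finset.sum_comm, ← Finset.sum_neg_distrib]
        apply Finset.sum_congr rfl
        intro i _
        have h5 : ∀ x : Fin n → Fin 2, p x * Real.log (r i (x i)) =
            (if x i = 1 then p x else 0) * Real.log (m i) +
            (if x i = 1 then 0 else p x) * Real.log (1 - m i) := by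
          intro x
          rw [hr]
          simp only
          split_ifs <;> simp
        rw [Finset.sum_congr rfl (fun x _ => h5 x), Finset.sum_add_distrib, ← Finset.sum_mul,
          ← Finset.sum_mul, ← hm0]
        have h6 : (∑ x, if x i = 1 then p x else 0) = m i := by rw [hm]
        rw [h6, Real.binEntropy_eq_negMulLog_add_negMulLog_one_sub, Real.negMulLog,
          Real.negMulLog]
        ring

/-! ### Upper bound -/

/-- real population of a qubit -/
noncomputable def popr {n : ℕ} (ρ : Matrix (Fin n → Fin 2) (Fin n → Fin 2) ℂ) (i : Fin n) : ℝ :=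
  ∑ x, if x i = 1 then (ρ x x).re else 0

theorem popc_re {n : ℕ} (ρ : Matrix (Fin n → Fin 2) (Fin n → Fin 2) ℂ) (i : Fin n) :
    (popc ρ i).re = popr ρ i := by
  rw [popc, popr, Complex.re_sum]
  apply Finset.sum_congr rfl
  intro x _
  split_ifs <;> simp

theorem popr_tensorPow (γ ν : ℝ) {n : ℕ} {ρ : Matrix (Fin n → Fin 2) (Fin n → Fin 2) ℂ}
    (hρ : ρ.trace = 1) (i : Fin n) :
    popr (tensorPow (gad γ ν) n ρ) i = (1 - γ) * popr ρ i + γ * ν := by
  rw [← popc_re, tensorPow_pop, hρ, ← popc_re, mul_one, Complex.add_re, Complex.re_ofReal_mul,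
    Complex.ofReal_re]

theorem diag_nonneg {ι : Type} [Fintype ι] [DecidableEq ι] {ρ : Matrix ι ι ℂ}
    (hρ : ρ.PosSemidef) (x : ι) : 0 ≤ (ρ x x).re := by
  have := hρ.diag_nonneg (i := x)
  exact (Complex.le_def.1 this).1

theorem trace_re_one {ι : Type} [Fintype ι] {ρ : Matrix ι ι ℂ} (hρ : ρ.trace = 1) :
    ∑ x, (ρ x x).re = 1 := by
  have := congrArg Complex.re hρ
  rw [Matrix.trace, Complex.re_sum, Complex.one_re] at this
  exact this

theorem popr_mem {n : ℕ} {ρ : Matrix (Fin n → Fin 2) (Fin n → Fin 2) ℂ} (hρ : IsDensity ρ)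
    (i : Fin n) : popr ρ i ∈ Set.Icc (0:ℝ) 1 := by
  constructor
  · apply Finset.sum_nonneg
    intro x _
    split_ifs
    · exact diag_nonneg hρ.1 x
    · exact le_refl _
  · rw [← trace_re_one hρ.2]
    apply Finset.sum_le_sum
    intro x _
    split_ifs
    · exact le_refl _
    · exact diag_nonneg hρ.1 x

theorem isDensity_tensorPow {γ ν : ℝ} (hγ : γ ∈ Set.Icc (0:ℝ) 1) (hν : ν ∈ Set.Icc (0:ℝ) 1)
    {n : ℕ} {ρ : Matrix (Fin n → Fin 2) (Fin n → Fin 2) ℂ} (hρ : IsDensity ρ) :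
    IsDensity (tensorPow (gad γ ν) n ρ) :=
  ⟨tensorPow_posSemidef hγ hν hρ.1, by rw [tensorPow_trace, hρ.2]⟩

theorem ent_tensorPow_le {γ ν : ℝ} (hγ : γ ∈ Set.Icc (0:ℝ) 1) (hν : ν ∈ Set.Icc (0:ℝ) 1)
    {n : ℕ} {ρ : Matrix (Fin n → Fin 2) (Fin n → Fin 2) ℂ} (hρ : IsDensity ρ) :
    ent (tensorPow (gad γ ν) n ρ) ≤ ∑ i, Real.binEntropy ((1 - γ) * popr ρ i + γ * ν) := by
  have hd := isDensity_tensorPow hγ hν hρ
  refine (ent_le_diag hd.1).trans ?_
  refine (shannon_subadd _ (fun x => diag_nonneg hd.1 x) (trace_re_one hd.2)).trans (le_of_eq ?_)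
  apply Finset.sum_congr rfl
  intro i _
  congr 1
  exact popr_tensorPow γ ν hρ.2 i

theorem isDensity_mix {ι : Type} [Fintype ι] [DecidableEq ι] {k : ℕ} (q : Fin k → ℝ)
    (ρ : Fin k → Matrix ι ι ℂ) (hq : ∀ a, 0 ≤ q a) (hq1 : ∑ a, q a = 1)
    (hρ : ∀ a, IsDensity (ρ a)) : IsDensity (∑ a, (q a : ℂ) • ρ a) := by
  constructor
  · apply posSemidef_finset_sum
    intro a _
    exact posSemidef_real_smul (hρ a).1 (hq a)
  · rw [trace_sum]
    simp only [trace_smul, (hρ _).2, smul_eq_mul, mul_one]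
    exact_mod_cast hq1

theorem popr_mix {n k : ℕ} (q : Fin k → ℝ)
    (ρ : Fin k → Matrix (Fin n → Fin 2) (Fin n → Fin 2) ℂ) (i : Fin n) :
    popr (∑ a, (q a : ℂ) • ρ a) i = ∑ a, q a * popr (ρ a) i := by
  unfold popr
  simp only [Finset.mul_sum]
  rw [Finset.sum_comm]
  apply Finset.sum_congr rfl
  intro x _
  split_ifs
  · rw [Matrix.sum_apply, Complex.re_sum]
    apply Finset.sum_congr rfl
    intro a _
    rw [Matrix.smul_apply, smul_eq_mul, Complex.re_ofReal_mul]
  · simp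

theorem upper_bound {γ ν : ℝ} (hγ : γ ∈ Set.Icc (0:ℝ) 1) (hν : ν ∈ Set.Icc (0:ℝ) 1)
    (hK : KeyIneq γ ν) {n : ℕ} {M : ℝ} (hM : ∀ q ∈ Set.Icc (0:ℝ) 1, obj γ ν q ≤ M) :
    ∀ x ∈ holevoSet (tensorPow (gad γ ν) n), x ≤ n * (M / Real.log 2) := by
  rintro x ⟨k, q, ρ, hq, hq1, hρ, rfl⟩
  have hmix := isDensity_mix q ρ hq hq1 hρ
  rw [← tensorPow_sum_smul]
  simp only [vnEntropy_eq]
  have h1 := ent_tensorPow_le hγ hν hmix
  have h2 : ∀ a, ∑ i, fmin γ ν (popr (ρ a) i) ≤ ent (tensorPow (gad γ ν) n (ρ a)) :=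
    fun a => superadd hγ hν hK n (ρ a) (hρ a)
  have h3 : ∑ i, fmin γ ν (popr (∑ a, (q a : ℂ) • ρ a) i) ≤
      ∑ a, q a * ent (tensorPow (gad γ ν) n (ρ a)) := by
    calc ∑ i, fmin γ ν (popr (∑ a, (q a : ℂ) • ρ a) i)
        ≤ ∑ i, ∑ a, q a * fmin γ ν (popr (ρ a) i) := by
          apply Finset.sum_le_sum
          intro i _
          rw [popr_mix]
          exact (fmin_convex hγ hν).map_sum_le (t := Finset.univ) (w := q)
            (p := fun a => popr (ρ a) i) (fun a _ => hq a) hq1 (fun a _ => popr_mem (hρ a) i)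
      _ = ∑ a, q a * ∑ i, fmin γ ν (popr (ρ a) i) := by
          rw [Finset.sum_comm]
          simp only [Finset.mul_sum]
      _ ≤ _ := Finset.sum_le_sum fun a _ => mul_le_mul_of_nonneg_left (h2 a) (hq a)
  have h4 : ent (tensorPow (gad γ ν) n (∑ a, (q a : ℂ) • ρ a)) -
      ∑ a, q a * ent (tensorPow (gad γ ν) n (ρ a)) ≤ n * M := by
    calc ent (tensorPow (gad γ ν) n (∑ a, (q a : ℂ) • ρ a)) -
        ∑ a, q a * ent (tensorPow (gad γ ν) n (ρ a))
        ≤ ∑ i, Real.binEntropy ((1 - γ) * popr (∑ a, (q a : ℂ) • ρ a) i + γ * ν) -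
          ∑ i, fmin γ ν (popr (∑ a, (q a : ℂ) • ρ a) i) := sub_le_sub h1 h3
      _ = ∑ i, obj γ ν (popr (∑ a, (q a : ℂ) • ρ a) i) := by
          rw [← Finset.sum_sub_distrib]
          rfl
      _ ≤ ∑ _i : Fin n, M := Finset.sum_le_sum fun i _ => hM _ (popr_mem hmix i)
      _ = n * M := by simp
  have hlog : 0 < Real.log 2 := Real.log_pos (by norm_num)
  have h5 : ent (tensorPow (gad γ ν) n (∑ a, (q a : ℂ) • ρ a)) / Real.log 2 -
      ∑ a, q a * (ent (tensorPow (gad γ ν) n (ρ a)) / Real.log 2) =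
      (ent (tensorPow (gad γ ν) n (∑ a, (q a : ℂ) • ρ a)) -
      ∑ a, q a * ent (tensorPow (gad γ ν) n (ρ a))) / Real.log 2 := by
    rw [sub_div, Finset.sum_div]
    simp only [mul_div_assoc]
  rw [h5, ← mul_div_assoc]
  exact div_le_div_of_nonneg_right h4 hlog.le

end Vale.Agent.P358
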