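import Vale.Agent.P358_h28.Reduction4

/-!
Package C, part 2: the product ensemble reaching the bound, and the final theorem modulo
`KeyIneq`.
-/

open Matrix
open scoped ComplexOrder

namespace Vale.Agent.P358

theorem gad_apply_sum (γ ν : ℝ) (ρ : Matrix (Fin 2) (Fin 2) ℂ) (x y : Fin 2) :
    gad γ ν ρ x y = ∑ a, ∑ b, ((gadc γ ν a b x y : ℝ) : ℂ) * ρ a b := by
  rw [Fin.sum_univ_two, Fin.sum_univ_two, Fin.sum_univ_two]
  fin_cases x <;> fin_cases y <;> simp [gad, gadc, Matrix.trace_fin_two] <;> ring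

theorem prod_univ_sum_two {n : ℕ} (f : Fin n → Fin 2 → ℂ) :
    ∏ i, ∑ b, f i b = ∑ u : Fin n → Fin 2, ∏ i, f i (u i) := by
  have h1 := Finset.prod_univ_sum (fun _ : Fin n => (Finset.univ : Finset (Fin 2))) f
  rw [Fintype.piFinset_univ] at h1
  exact h1

theorem tensorPow_tens (γ ν : ℝ) {n : ℕ} (A : Fin n → Matrix (Fin 2) (Fin 2) ℂ) :
    tensorPow (gad γ ν) n (tens A) = tens fun i => gad γ ν (A i) := by
  ext x y
  rw [tensorPow_apply]
  simp only [tens, Matrix.of_apply, gad_apply_sum]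
  rw [prod_univ_sum_two]
  apply Finset.sum_congr rfl
  intro u _
  rw [prod_univ_sum_two]
  apply Finset.sum_congr rfl
  intro v _
  rw [Finset.prod_mul_distrib]

theorem tens_rk {n : ℕ} (ψ : Fin n → Fin 2 → ℂ) :
    tens (fun i => rk (ψ i)) = rk (fun u : Fin n → Fin 2 => ∏ i, ψ i (u i)) := by
  ext x y
  simp only [tens, rk, Matrix.of_apply, Complex.star_def, map_prod, Finset.prod_mul_distrib]

theorem isDensity_tens_rk {n : ℕ} (ψ : Fin n → Fin 2 → ℂ)
    (h : ∀ i, ∑ b, Complex.normSq (ψ i b) = 1) : IsDensity (tens fun i => rk (ψ i)) := by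
  rw [tens_rk]
  refine ⟨rk_posSemidef _, ?_⟩
  rw [trace_rk]
  have h1 : ∑ u : Fin n → Fin 2, Complex.normSq (∏ i, ψ i (u i)) = 1 := by
    have h2 := Finset.prod_univ_sum (fun _ : Fin n => (Finset.univ : Finset (Fin 2)))
      (fun i b => Complex.normSq (ψ i b))
    rw [Fintype.piFinset_univ] at h2
    simp only [map_prod]
    rw [← h2]
    exact Finset.prod_eq_one fun i _ => h i
  rw [h1, Complex.ofReal_one]

/-- the two pure states with excited population `q` -/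
noncomputable def psi (q : ℝ) (s : Fin 2) : Fin 2 → ℂ :=
  ![((√(1 - q) : ℝ) : ℂ), (((if s = 0 then 1 else -1) * √q : ℝ) : ℂ)]

theorem psi_norm {q : ℝ} (hq : q ∈ Set.Icc (0:ℝ) 1) (s : Fin 2) :
    ∑ b, Complex.normSq (psi q s b) = 1 := by
  have h1 : √(1 - q) * √(1 - q) = 1 - q := Real.mul_self_sqrt (by linarith [hq.2])
  have h2 : √q * √q = q := Real.mul_self_sqrt hq.1
  rw [Fin.sum_univ_two]
  simp only [psi, Matrix.cons_val_zero, Matrix.cons_val_one, Complex.normSq_ofReal]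
  fin_cases s
  · simp only [Fin.zero_eta, if_true, one_mul]
    rw [h1, h2]; ring
  · simp only [Fin.mk_one, one_ne_zero, if_false, neg_mul, one_mul, mul_neg, neg_neg]
    rw [h1, h2]; ring

theorem gad_psi {γ ν q : ℝ} (hq : q ∈ Set.Icc (0:ℝ) 1) (s : Fin 2) :
    gad γ ν (rk (psi q s)) =
      !![((1 - ((1 - γ) * q + γ * ν) : ℝ) : ℂ),
        ((√(1 - γ) * ((if s = 0 then 1 else -1) * (√(1 - q) * √q)) : ℝ) : ℂ);
        ((√(1 - γ) * ((if s = 0 then 1 else -1) * (√(1 - q) * √q)) : ℝ) : ℂ),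
        (((1 - γ) * q + γ * ν : ℝ) : ℂ)] := by
  have h1 : √(1 - q) * √(1 - q) = 1 - q := Real.mul_self_sqrt (by linarith [hq.2])
  have h2 : √q * √q = q := Real.mul_self_sqrt hq.1
  have h1c : ((√(1 - q) : ℝ) : ℂ) * ((√(1 - q) : ℝ) : ℂ) = 1 - (q : ℂ) := by
    rw [← Complex.ofReal_mul, h1]; push_cast; ring
  have h2c : ((√q : ℝ) : ℂ) * ((√q : ℝ) : ℂ) = (q : ℂ) := by
    rw [← Complex.ofReal_mul, h2]
  ext x y
  rw [gad_apply_sum, Fin.sum_univ_two, Fin.sum_univ_two, Fin.sum_univ_two]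
  fin_cases s <;> fin_cases x <;> fin_cases y <;>
    simp [gadc, rk, psi, h1c, h2c] <;> first | ring1 | (left; ring1)

theorem gad_psi_isHermitian {γ ν q : ℝ} (hq : q ∈ Set.Icc (0:ℝ) 1) (s : Fin 2) :
    (gad γ ν (rk (psi q s))).IsHermitian := by
  rw [gad_psi hq]
  ext x y
  fin_cases x <;> fin_cases y <;> simp

theorem ent_gad_psi {γ ν q : ℝ} (hγ : γ ∈ Set.Icc (0:ℝ) 1) (hq : q ∈ Set.Icc (0:ℝ) 1) (s : Fin 2) :
    ent (gad γ ν (rk (psi q s))) = fmin γ ν q := by
  rw [ent_fin_two (gad_psi_isHermitian hq s), gad_psi hq, trace_fin_two, det_fin_two]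
  have h1 : √(1 - q) * √(1 - q) = 1 - q := Real.mul_self_sqrt (by linarith [hq.2])
  have h2 : √q * √q = q := Real.mul_self_sqrt hq.1
  have h3 : √(1 - γ) * √(1 - γ) = 1 - γ := Real.mul_self_sqrt (by linarith [hγ.2])
  have h4 : ((if s = 0 then 1 else -1 : ℝ)) * (if s = 0 then 1 else -1 : ℝ) = 1 := by
    split_ifs <;> norm_num
  simp only [Matrix.of_apply, Matrix.cons_val_zero, Matrix.cons_val_one, Matrix.cons_val',
    Matrix.cons_val_fin_one]
  rw [← Complex.ofReal_add, ← Complex.ofReal_mul, ← Complex.ofReal_mul, ← Complex.ofReal_sub,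
    Complex.ofReal_re, Complex.ofReal_re, fmin]
  obtain ⟨σ, hσ⟩ : ∃ σ : ℝ, σ = if s = 0 then 1 else -1 := ⟨_, rfl⟩
  rw [← hσ] at h4 ⊢
  congr 1
  · ring
  · have e : √(1 - γ) * (σ * (√(1 - q) * √q)) * (√(1 - γ) * (σ * (√(1 - q) * √q))) =
        (√(1 - γ) * √(1 - γ)) * (σ * σ) * ((√(1 - q) * √(1 - q)) * (√q * √q)) := by ring
    rw [e, h1, h2, h3, h4]
    ring

theorem isDensity_gad_psi {γ ν q : ℝ} (hγ : γ ∈ Set.Icc (0:ℝ) 1) (hν : ν ∈ Set.Icc (0:ℝ) 1)
    (hq : q ∈ Set.Icc (0:ℝ) 1) (s : Fin 2) : IsDensity (gad γ ν (rk (psi q s))) := by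
  have h1 := isDensity_tensorPow hγ hν (isDensity_tens_rk (fun _ : Fin 1 => psi q s)
    (fun _ => psi_norm hq s))
  rw [tensorPow_tens] at h1
  have h2 : (tens fun _ : Fin 1 => gad γ ν (rk (psi q s))) =
      (gad γ ν (rk (psi q s))).submatrix (Equiv.funUnique (Fin 1) (Fin 2))
        (Equiv.funUnique (Fin 1) (Fin 2)) := by
    ext x y
    simp [tens]
  rw [h2] at h1
  constructor
  · have h3 := h1.1.submatrix (Equiv.funUnique (Fin 1) (Fin 2)).symm
    rw [submatrix_submatrix, Equiv.self_comp_symm, submatrix_id_id] at h3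
    exact h3
  · rw [gad_psi hq, trace_fin_two]
    simp

/-- the general ensemble indexed by a finite type -/
theorem mem_holevoSet_of_fintype {ι κ J : Type} [Fintype ι] [Fintype κ] [DecidableEq κ] [Fintype J]
    (Φ : Matrix ι ι ℂ → Matrix κ κ ℂ) (q : J → ℝ) (ρ : J → Matrix ι ι ℂ)
    (hq : ∀ a, 0 ≤ q a) (hq1 : ∑ a, q a = 1) (hρ : ∀ a, IsDensity (ρ a)) :
    vnEntropy (∑ a, (q a : ℂ) • Φ (ρ a)) - ∑ a, q a * vnEntropy (Φ (ρ a)) ∈ holevoSet Φ := by
  have e := (Fintype.equivFin J).symm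
  refine ⟨_, fun a => q (e a), fun a => ρ (e a), fun a => hq _, ?_, fun a => hρ _, ?_⟩
  · rw [e.sum_comp q]; exact hq1
  · rw [e.sum_comp (fun a => (q a : ℂ) • Φ (ρ a)), e.sum_comp (fun a => q a * vnEntropy (Φ (ρ a)))]

theorem lower_bound {γ ν : ℝ} (hγ : γ ∈ Set.Icc (0:ℝ) 1) (hν : ν ∈ Set.Icc (0:ℝ) 1)
    (n : ℕ) {q : ℝ} (hq : q ∈ Set.Icc (0:ℝ) 1) :
    n * (obj γ ν q / Real.log 2) ∈ holevoSet (tensorPow (gad γ ν) n) := by
  have h := mem_holevoSet_of_fintype (J := Fin n → Fin 2) (tensorPow (gad γ ν) n)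
    (fun _ => (1 / 2 : ℝ) ^ n) (fun s => tens fun i => rk (psi q (s i)))
    (fun _ => by positivity)
    (by
      rw [Finset.sum_const, Finset.card_univ, Fintype.card_fun, Fintype.card_fin, Fintype.card_fin,
        nsmul_eq_mul]
      push_cast
      rw [← mul_pow]
      norm_num)
    (fun s => isDensity_tens_rk _ (fun i => psi_norm hq (s i)))
  convert h using 1
  simp only [vnEntropy_eq, tensorPow_tens]
  have h1 : ∀ s : Fin n → Fin 2, ent (tens fun i => gad γ ν (rk (psi q (s i)))) =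
      n * fmin γ ν q := by
    intro s
    have h2 := ent_pi (fun i => gad γ ν (rk (psi q (s i))))
      (fun i => isDensity_gad_psi hγ hν hq (s i))
    unfold tens
    rw [h2, Finset.sum_congr rfl (fun i _ => ent_gad_psi hγ hq (s i))]
    simp
  have h2 : ∑ s : Fin n → Fin 2, (((1 / 2 : ℝ) ^ n : ℝ) : ℂ) •
      tens (fun i => gad γ ν (rk (psi q (s i)))) =
      diagonal (fun x : Fin n → Fin 2 =>
        ((∏ i, (fun b : Fin 2 => if b = 0 then 1 - ((1 - γ) * q + γ * ν) else (1 - γ) * q + γ * ν)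
          (x i) : ℝ) : ℂ)) := by
    have h3 : ∑ s : Fin n → Fin 2, (((1 / 2 : ℝ) ^ n : ℝ) : ℂ) •
        tens (fun i => gad γ ν (rk (psi q (s i)))) =
        tens (fun _ : Fin n => diagonal (fun b : Fin 2 => (((if b = 0 then
          1 - ((1 - γ) * q + γ * ν) else (1 - γ) * q + γ * ν : ℝ)) : ℂ))) := by
      ext x y
      rw [Matrix.sum_apply]
      simp only [tens, Matrix.smul_apply, Matrix.of_apply, smul_eq_mul]
      have h4 : ∀ i : Fin n, diagonal (fun b : Fin 2 => (((if b = 0 then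
          1 - ((1 - γ) * q + γ * ν) else (1 - γ) * q + γ * ν : ℝ)) : ℂ)) (x i) (y i) =
          ∑ s : Fin 2, ((1 / 2 : ℝ) : ℂ) * gad γ ν (rk (psi q s)) (x i) (y i) := by
        intro i
        rw [Fin.sum_univ_two, gad_psi hq, gad_psi hq]
        generalize x i = a
        generalize y i = b
        fin_cases a <;> fin_cases b <;> simp <;> ring
      rw [Finset.prod_congr rfl (fun i _ => h4 i), prod_univ_sum_two]
      apply Finset.sum_congr rfl
      intro s _
      rw [Finset.prod_mul_distrib, Finset.prod_const, Finset.card_univ, Fintype.card_fin]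
      push_cast
      rfl
    rw [h3, tens_diagonal]
    push_cast
    rfl
  rw [h2, ent_diagonal, sum_negMulLog_prod (fun _ b => if b = 0 then
    1 - ((1 - γ) * q + γ * ν) else (1 - γ) * q + γ * ν)]
  · simp only [h1]
    rw [Finset.sum_const, Finset.sum_const, Finset.card_univ, Finset.card_univ, Fintype.card_fun,
      Fintype.card_fin, Fintype.card_fin, Fin.sum_univ_two, nsmul_eq_mul, nsmul_eq_mul, obj,
      Real.binEntropy_eq_negMulLog_add_negMulLog_one_sub]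
    simp only [if_true, one_ne_zero, if_false]
    have h5 : ((2 ^ n : ℕ) : ℝ) * ((1 / 2) ^ n * (n * fmin γ ν q / Real.log 2)) =
        n * fmin γ ν q / Real.log 2 := by
      rw [← mul_assoc]
      push_cast
      rw [← mul_pow]
      norm_num
    rw [h5]
    ring
  · intro i
    rw [Fin.sum_univ_two]
    simp

/-! ### one copy versus the first tensor power -/

theorem tensorPow_one_submatrix (γ ν : ℝ) (ρ : Matrix (Fin 2) (Fin 2) ℂ) :
    tensorPow (gad γ ν) 1 (ρ.submatrix (Equiv.funUnique (Fin 1) (Fin 2))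
      (Equiv.funUnique (Fin 1) (Fin 2))) =
    (gad γ ν ρ).submatrix (Equiv.funUnique (Fin 1) (Fin 2))
      (Equiv.funUnique (Fin 1) (Fin 2)) := by
  have h : ∀ A : Matrix (Fin 2) (Fin 2) ℂ, A.submatrix (Equiv.funUnique (Fin 1) (Fin 2))
      (Equiv.funUnique (Fin 1) (Fin 2)) = tens (fun _ : Fin 1 => A) := by
    intro A
    ext x y
    simp [tens]
  rw [h, h, tensorPow_tens]

theorem isDensity_submatrix {ι κ : Type} [Fintype ι] [DecidableEq ι] [Fintype κ] [DecidableEq κ]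
    (e : κ ≃ ι) {ρ : Matrix ι ι ℂ} (hρ : IsDensity ρ) : IsDensity (ρ.submatrix e e) := by
  refine ⟨hρ.1.submatrix e, ?_⟩
  rw [← hρ.2, Matrix.trace, Matrix.trace]
  exact e.sum_comp (fun i => ρ i i)

theorem holevoSet_gad (γ ν : ℝ) : holevoSet (gad γ ν) = holevoSet (tensorPow (gad γ ν) 1) := by
  have key : ∀ (k : ℕ) (q : Fin k → ℝ) (ρ : Fin k → Matrix (Fin 2) (Fin 2) ℂ),
      vnEntropy (∑ a, (q a : ℂ) • gad γ ν (ρ a)) - ∑ a, q a * vnEntropy (gad γ ν (ρ a)) =
      vnEntropy (∑ a, (q a : ℂ) • tensorPow (gad γ ν) 1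
        ((ρ a).submatrix (Equiv.funUnique (Fin 1) (Fin 2)) (Equiv.funUnique (Fin 1) (Fin 2)))) -
      ∑ a, q a * vnEntropy (tensorPow (gad γ ν) 1
        ((ρ a).submatrix (Equiv.funUnique (Fin 1) (Fin 2)) (Equiv.funUnique (Fin 1) (Fin 2)))) := by
    intro k q ρ
    simp only [tensorPow_one_submatrix, vnEntropy_eq, ent_reindex]
    congr 2
    rw [← ent_reindex (Equiv.funUnique (Fin 1) (Fin 2))]
    congr 1
    ext x y
    simp [Matrix.sum_apply]
  ext z
  constructor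
  · rintro ⟨k, q, ρ, hq, hq1, hρ, rfl⟩
    exact ⟨k, q, fun a => (ρ a).submatrix (Equiv.funUnique (Fin 1) (Fin 2))
      (Equiv.funUnique (Fin 1) (Fin 2)), hq, hq1, fun a => isDensity_submatrix _ (hρ a),
      key k q ρ⟩
  · rintro ⟨k, q, ρ, hq, hq1, hρ, rfl⟩
    refine ⟨k, q, fun a => (ρ a).submatrix (Equiv.funUnique (Fin 1) (Fin 2)).symm
      (Equiv.funUnique (Fin 1) (Fin 2)).symm, hq, hq1, fun a => isDensity_submatrix _ (hρ a), ?_⟩
    rw [key]
    have h : ∀ a, ((ρ a).submatrix (Equiv.funUnique (Fin 1) (Fin 2)).symm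
        (Equiv.funUnique (Fin 1) (Fin 2)).symm).submatrix (Equiv.funUnique (Fin 1) (Fin 2))
        (Equiv.funUnique (Fin 1) (Fin 2)) = ρ a := by
      intro a
      rw [submatrix_submatrix, Equiv.symm_comp_self, submatrix_id_id]
    simp only [h]

/-- the final theorem modulo the key inequality -/
theorem main_of_keyIneq {γ ν : ℝ} (hγ : γ ∈ Set.Icc (0:ℝ) 1) (hν : ν ∈ Set.Icc (0:ℝ) 1)
    (hK : KeyIneq γ ν) :
    (∀ n : ℕ, 1 ≤ n → BddAbove (holevoSet (tensorPow (gad γ ν) n)) ∧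
      holevo (tensorPow (gad γ ν) n) = n * holevo (gad γ ν)) ∧
    classicalCapacity (gad γ ν) = holevo (gad γ ν) ∧
    IsGreatest ((fun q => obj γ ν q / Real.log 2) '' Set.Icc (0:ℝ) 1) (holevo (gad γ ν)) := by
  have hcont : Continuous (obj γ ν) := by
    unfold obj
    exact (Real.binEntropy_continuous.comp (by fun_prop)).sub (fmin_continuous γ ν)
  obtain ⟨q, hq, hmax⟩ := (isCompact_Icc (a := (0:ℝ)) (b := 1)).exists_isMaxOn
    ⟨0, by norm_num⟩ hcont.continuousOn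
  have hM : ∀ x ∈ Set.Icc (0:ℝ) 1, obj γ ν x ≤ obj γ ν q := fun x hx => hmax hx
  have hG : ∀ n : ℕ, IsGreatest (holevoSet (tensorPow (gad γ ν) n))
      (n * (obj γ ν q / Real.log 2)) := fun n =>
    ⟨lower_bound hγ hν n hq, fun x hx => upper_bound hγ hν hK hM x hx⟩
  have hH : ∀ n : ℕ, holevo (tensorPow (gad γ ν) n) = n * (obj γ ν q / Real.log 2) :=
    fun n => (hG n).csSup_eq
  have hH1 : holevo (gad γ ν) = obj γ ν q / Real.log 2 := by
    have h1 := hH 1
    rw [Nat.cast_one, one_mul] at h1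
    rw [← h1, holevo, holevo, holevoSet_gad]
  have hlog : 0 < Real.log 2 := Real.log_pos (by norm_num)
  refine ⟨fun n _ => ⟨(hG n).bddAbove, ?_⟩, ?_, ?_⟩
  · rw [hH, hH1]
  · rw [hH1, classicalCapacity]
    apply IsGreatest.csSup_eq
    constructor
    · refine ⟨1, le_refl 1, ?_⟩
      rw [hH]
      simp
    · rintro x ⟨n, hn, rfl⟩
      rw [hH]
      have hn0 : (n : ℝ) ≠ 0 := by
        have : 0 < n := hn
        positivity
      rw [mul_div_cancel_left₀ _ hn0]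
  · rw [hH1]
    constructor
    · exact ⟨q, hq, rfl⟩
    · rintro _ ⟨x, hx, rfl⟩
      exact div_le_div_of_nonneg_right (hM x hx) hlog.le

end Vale.Agent.P358
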